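import Vale.Agent.P125.WalkDefs

/-!
# The Markov chain inequality for the walk on edges
-/

open scoped BigOperators Topology

namespace Vale.Agent.P125

namespace ChainAux

set_option linter.unusedSectionVars false

variable {Ω I : Type} [Fintype Ω] [DecidableEq Ω] [Fintype I] [DecidableEq I] {d : ℕ}

/-- one step of the counter. -/
def R {B : ℕ} (σ : Bool) (e : I) (v v' : I → Fin (B + 1)) : Prop :=
  if σ then ∀ x, (v' x : ℕ) = v x + (if x = e then 1 else 0)
  else ∀ x, (v x : ℕ) = v' x + (if x = e then 1 else 0)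

instance {B : ℕ} (σ : Bool) (e : I) (v v' : I → Fin (B + 1)) : Decidable (R σ e v v') := by
  unfold R; infer_instance

omit [Fintype I] in
theorem R_symm {B : ℕ} (σ : Bool) (e : I) (v v' : I → Fin (B + 1)) :
    R (!σ) e v' v ↔ R σ e v v' := by
  cases σ <;> simp [R]

omit [Fintype I] in
theorem R_unique {B : ℕ} {σ : Bool} {e : I} {v v' v'' : I → Fin (B + 1)}
    (h : R σ e v v') (h' : R σ e v v'') : v' = v'' := by
  funext x
  apply Fin.ext
  cases σ
  · have h1 : ∀ x, (v x : ℕ) = v' x + (if x = e then 1 else 0) := by simpa [R] using h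
    have h2 : ∀ x, (v x : ℕ) = v'' x + (if x = e then 1 else 0) := by simpa [R] using h'
    have := h1 x
    have := h2 x
    omega
  · have h1 : ∀ x, (v' x : ℕ) = v x + (if x = e then 1 else 0) := by simpa [R] using h
    have h2 : ∀ x, (v'' x : ℕ) = v x + (if x = e then 1 else 0) := by simpa [R] using h'
    have := h1 x
    have := h2 x
    omega

theorem rate_nonneg (E : Bool → Ω → Fin d → I) (ω : Ω) (τ : Tr Ω d) : 0 ≤ rate E ω τ := by
  unfold rate
  split_ifs
  · positivity
  · exact le_refl _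

theorem rate_symm (E : Bool → Ω → Fin d → I) (ω ω' : Ω) (σ : Bool) (i i' : Fin d) :
    rate E ω' (!σ, i', i, ω) = rate E ω (σ, i, i', ω') := by
  unfold rate edge
  simp only [Bool.not_not]
  by_cases h : E σ ω i = E (!σ) ω' i'
  · rw [if_pos h, if_pos h.symm, h]
  · rw [if_neg h, if_neg (fun h' => h h'.symm)]

theorem rate_row (hd : 0 < d) (E : Bool → Ω → Fin d → I) (g : I → ℝ) (hg : ∀ e, 0 ≤ g e)
    (ω : Ω) (σ : Bool) (i : Fin d) :
    ∑ i' : Fin d, ∑ ω' : Ω, rate E ω (σ, i, i', ω') * g (edge E (σ, i, i', ω'))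
      ≤ (1 / (2 * d)) * g (E σ ω i) := by
  set e := E σ ω i with he
  set M : ℝ := max (cnt E true e : ℝ) (cnt E false e) with hM
  have hterm : ∀ i' : Fin d, ∀ ω' : Ω,
      rate E ω (σ, i, i', ω') * g (edge E (σ, i, i', ω')) =
        (if E (!σ) ω' i' = e then (1 : ℝ) else 0) * ((1 / (2 * d)) / M * g e) := by
    intro i' ω'
    unfold rate edge
    simp only
    by_cases h : E (!σ) ω' i' = e
    · rw [if_pos h, if_pos (by rw [h]), h, hM]
      simp
    · rw [if_neg h, if_neg (by rw [← he]; exact fun h' => h h'.symm)]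
      simp
  have hsum : ∑ i' : Fin d, ∑ ω' : Ω, rate E ω (σ, i, i', ω') * g (edge E (σ, i, i', ω'))
      = (cnt E (!σ) e : ℝ) * ((1 / (2 * d)) / M * g e) := by
    simp_rw [hterm, ← Finset.sum_mul]
    congr 1
    rw [Finset.sum_comm, ← Fintype.sum_prod_type' (f := fun (ω' : Ω) (i' : Fin d) =>
      if E (!σ) ω' i' = e then (1 : ℝ) else 0)]
    simp [cnt]
  rw [hsum]
  have hle : (cnt E (!σ) e : ℝ) ≤ M := by
    cases σ
    · exact le_max_left _ _
    · exact le_max_right _ _
  have hc0 : (0 : ℝ) ≤ cnt E (!σ) e := Nat.cast_nonneg _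
  have hd' : (0 : ℝ) < d := by exact_mod_cast hd
  rcases hc0.eq_or_lt with h | h
  · rw [← h, zero_mul]
    exact mul_nonneg (by positivity) (hg e)
  · have hMpos : 0 < M := lt_of_lt_of_le h hle
    have h1 : (cnt E (!σ) e : ℝ) * ((1 / (2 * d)) / M * g e) =
        ((cnt E (!σ) e : ℝ) / M) * ((1 / (2 * d)) * g e) := by
      field_simp
    rw [h1]
    have h2 : (cnt E (!σ) e : ℝ) / M ≤ 1 := (div_le_one hMpos).mpr hle
    have h3 : 0 ≤ (1 / (2 * (d : ℝ))) * g e := mul_nonneg (by positivity) (hg e)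
    calc ((cnt E (!σ) e : ℝ) / M) * ((1 / (2 * d)) * g e) ≤ 1 * ((1 / (2 * d)) * g e) :=
          mul_le_mul_of_nonneg_right h2 h3
      _ = _ := one_mul _

/-- expand a sum over transitions. -/
theorem sum_Tr (F : Tr Ω d → ℝ) :
    ∑ τ, F τ = ∑ σ : Bool, ∑ i : Fin d, ∑ i' : Fin d, ∑ ω' : Ω, F (σ, i, i', ω') := by
  rw [Fintype.sum_prod_type]
  refine Finset.sum_congr rfl fun σ _ => ?_
  rw [Fintype.sum_prod_type]
  refine Finset.sum_congr rfl fun i _ => ?_
  rw [Fintype.sum_prod_type]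

theorem rate_total (hd : 0 < d) (E : Bool → Ω → Fin d → I) (g : I → ℝ) (hg : ∀ e, 0 ≤ g e)
    (ω : Ω) : ∑ τ : Tr Ω d, rate E ω τ * g (edge E τ) ≤
      ∑ σ : Bool, ∑ i : Fin d, (1 / (2 * d)) * g (E σ ω i) := by
  rw [sum_Tr]
  exact Finset.sum_le_sum fun σ _ => Finset.sum_le_sum fun i _ => rate_row hd E g hg ω σ i

theorem rate_le_one (hd : 0 < d) (E : Bool → Ω → Fin d → I) (ω : Ω) :
    ∑ τ : Tr Ω d, rate E ω τ ≤ 1 := by
  have h := rate_total hd E (fun _ => 1) (fun _ => zero_le_one) ω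
  have hd' : (0 : ℝ) < d := by exact_mod_cast hd
  simp only [mul_one] at h
  refine h.trans (le_of_eq ?_)
  simp
  field_simp

/-- the moving part of the chain. -/
noncomputable def W (E : Bool → Ω → Fin d → I) (B : ℕ)
    (s s' : Ω × (I → Fin (B + 1))) : ℝ :=
  ∑ τ : Tr Ω d, rate E s.1 τ *
    (if τ.2.2.2 = s'.1 ∧ R τ.1 (edge E τ) s.2 s'.2 then 1 else 0)

theorem W_nonneg (E : Bool → Ω → Fin d → I) (B : ℕ) (s s' : Ω × (I → Fin (B + 1))) :
    0 ≤ W E B s s' := by
  unfold W
  refine Finset.sum_nonneg fun τ _ => mul_nonneg (rate_nonneg E _ _) ?_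
  split_ifs <;> norm_num

theorem W_eq (E : Bool → Ω → Fin d → I) (B : ℕ) (s s' : Ω × (I → Fin (B + 1))) :
    W E B s s' = ∑ σ : Bool, ∑ i : Fin d, ∑ i' : Fin d, rate E s.1 (σ, i, i', s'.1) *
      (if R σ (edge E (σ, i, i', s'.1)) s.2 s'.2 then 1 else 0) := by
  unfold W
  rw [sum_Tr]
  refine Finset.sum_congr rfl fun σ _ => Finset.sum_congr rfl fun i _ =>
    Finset.sum_congr rfl fun i' _ => ?_
  rw [Finset.sum_eq_single s'.1]
  · simp
  · intro ω' _ h
    rw [if_neg (fun h' => h h'.1), mul_zero]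
  · intro h
    exact (h (Finset.mem_univ _)).elim

theorem W_symm (E : Bool → Ω → Fin d → I) (B : ℕ) (s s' : Ω × (I → Fin (B + 1))) :
    W E B s' s = W E B s s' := by
  rw [W_eq, W_eq]
  rw [← Equiv.sum_comp (Equiv.boolNot)]
  refine Finset.sum_congr rfl fun σ _ => ?_
  rw [Finset.sum_comm]
  refine Finset.sum_congr rfl fun i _ => Finset.sum_congr rfl fun i' _ => ?_
  show rate E s'.1 (!σ, i', i, s.1) *
      (if R (!σ) (edge E (!σ, i', i, s.1)) s'.2 s.2 then 1 else 0) = _
  rw [rate_symm]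
  by_cases h : E σ s.1 i = E (!σ) s'.1 i'
  · have h1 : edge E (!σ, i', i, s.1) = edge E (σ, i, i', s'.1) := by
      unfold edge
      simp only [Bool.not_not]
      exact h
    rw [h1]
    congr 1
    exact if_congr (R_symm _ _ _ _) rfl rfl
  · have h1 : rate E s.1 (σ, i, i', s'.1) = 0 := by
      unfold rate edge
      exact if_neg h
    rw [h1, zero_mul, zero_mul]

theorem sum_W_mul (E : Bool → Ω → Fin d → I) (B : ℕ) (s : Ω × (I → Fin (B + 1)))
    (G : Ω × (I → Fin (B + 1)) → ℝ) :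
    ∑ s', W E B s s' * G s' = ∑ τ : Tr Ω d, rate E s.1 τ *
      ∑ v' : I → Fin (B + 1), (if R τ.1 (edge E τ) s.2 v' then G (τ.2.2.2, v') else 0) := by
  unfold W
  simp_rw [Finset.sum_mul, mul_assoc]
  rw [Finset.sum_comm]
  refine Finset.sum_congr rfl fun τ _ => ?_
  rw [← Finset.mul_sum]
  congr 1
  rw [Fintype.sum_prod_type, Finset.sum_eq_single τ.2.2.2]
  · refine Finset.sum_congr rfl fun v' _ => ?_
    by_cases h : R τ.1 (edge E τ) s.2 v'
    · simp [h]
    · simp [h]
  · intro ω' _ h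
    refine Finset.sum_eq_zero fun v' _ => ?_
    rw [if_neg (fun h' => h h'.1.symm), zero_mul]
  · intro h
    exact (h (Finset.mem_univ _)).elim

theorem sum_W_mul_le (E : Bool → Ω → Fin d → I) (B : ℕ) (s : Ω × (I → Fin (B + 1)))
    (G : Ω × (I → Fin (B + 1)) → ℝ) (g : I → ℝ) (hg : ∀ e, 0 ≤ g e)
    (hG : ∀ (τ : Tr Ω d) v', R τ.1 (edge E τ) s.2 v' → G (τ.2.2.2, v') ≤ g (edge E τ)) :
    ∑ s', W E B s s' * G s' ≤ ∑ τ : Tr Ω d, rate E s.1 τ * g (edge E τ) := by
  rw [sum_W_mul]
  refine Finset.sum_le_sum fun τ _ => mul_le_mul_of_nonneg_left ?_ (rate_nonneg E _ _)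
  by_cases hex : ∃ v', R τ.1 (edge E τ) s.2 v'
  · obtain ⟨v', hv'⟩ := hex
    rw [Finset.sum_eq_single v']
    · rw [if_pos hv']
      exact hG τ v' hv'
    · intro v'' _ h
      rw [if_neg]
      intro h'
      exact h (R_unique h' hv')
    · intro h
      exact (h (Finset.mem_univ _)).elim
  · rw [Finset.sum_eq_zero]
    · exact hg _
    · intro v' _
      rw [if_neg (fun h => hex ⟨v', h⟩)]

theorem W_row_le (hd : 0 < d) (E : Bool → Ω → Fin d → I) (B : ℕ)
    (s : Ω × (I → Fin (B + 1))) : ∑ s', W E B s s' ≤ 1 := by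
  have h := sum_W_mul_le E B s (fun _ => 1) (fun _ => 1) (fun _ => zero_le_one)
    (fun _ _ _ => le_refl _)
  simp only [mul_one] at h
  exact h.trans (rate_le_one hd E _)

/-- the chain. -/
noncomputable def P (E : Bool → Ω → Fin d → I) (B : ℕ) :
    Matrix (Ω × (I → Fin (B + 1))) (Ω × (I → Fin (B + 1))) ℝ :=
  fun s s' => W E B s s' + (if s = s' then 1 - ∑ k, W E B s k else 0)

theorem W_le_P (hd : 0 < d) (E : Bool → Ω → Fin d → I) (B : ℕ)
    (s s' : Ω × (I → Fin (B + 1))) : W E B s s' ≤ P E B s s' := by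
  unfold P
  have := W_row_le hd E B s
  split_ifs
  · linarith
  · linarith

theorem P_nonneg (hd : 0 < d) (E : Bool → Ω → Fin d → I) (B : ℕ)
    (s s' : Ω × (I → Fin (B + 1))) : 0 ≤ P E B s s' :=
  (W_nonneg E B s s').trans (W_le_P hd E B s s')

theorem P_chain [Nonempty Ω] (hd : 0 < d) (E : Bool → Ω → Fin d → I) (B : ℕ) :
    IsReversibleChain (P E B)
      (fun _ => 1 / (Fintype.card (Ω × (I → Fin (B + 1))) : ℝ)) where
  trans_nonneg := P_nonneg hd E B
  trans_sum := by
    intro s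
    unfold P
    rw [Finset.sum_add_distrib]
    simp
  init_nonneg := fun _ => by positivity
  init_sum := by
    rw [Finset.sum_const, nsmul_eq_mul, Finset.card_univ]
    have : (Fintype.card (Ω × (I → Fin (B + 1))) : ℝ) ≠ 0 := by
      exact_mod_cast Fintype.card_ne_zero
    field_simp
  reversible := by
    intro s s'
    congr 1
    unfold P
    rw [W_symm]
    by_cases h : s = s'
    · subst h; rfl
    · rw [if_neg h, if_neg (fun h' => h h'.symm)]

theorem P_pow_nonneg (hd : 0 < d) (E : Bool → Ω → Fin d → I) (B n : ℕ)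
    (s s' : Ω × (I → Fin (B + 1))) : 0 ≤ (P E B ^ n) s s' := by
  induction n generalizing s with
  | zero =>
    rw [pow_zero, Matrix.one_apply]
    split_ifs <;> norm_num
  | succ n ih =>
    rw [pow_succ', Matrix.mul_apply]
    exact Finset.sum_nonneg fun k _ => mul_nonneg (P_nonneg hd E B _ _) (ih k)

variable {Y : Type*} [NormedAddCommGroup Y] [NormedSpace ℝ Y]

/-- the map into the space. -/
noncomputable def fv (w : I → Y) {B : ℕ} (v : I → Fin (B + 1)) : Y :=
  ∑ e, ((v e : ℕ) : ℝ) • w e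

theorem fv_step (w : I → Y) {B : ℕ} {σ : Bool} {e : I} {v v' : I → Fin (B + 1)}
    (h : R σ e v v') : fv w v' = fv w v + (if σ then (1 : ℝ) else -1) • w e := by
  have key : ∀ a b : I → Fin (B + 1),
      (∀ x, (b x : ℕ) = a x + (if x = e then 1 else 0)) → fv w b = fv w a + w e := by
    intro a b hab
    unfold fv
    have h1 : ∀ x, ((b x : ℕ) : ℝ) • w x = ((a x : ℕ) : ℝ) • w x +
        (if x = e then w x else 0) := by
      intro x
      rw [hab x]
      by_cases hx : x = e
      · simp [hx, add_smul]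
      · simp [hx]
    rw [Finset.sum_congr rfl fun x _ => h1 x, Finset.sum_add_distrib]
    simp
  cases σ
  · have h1 : ∀ x, (v x : ℕ) = v' x + (if x = e then 1 else 0) := by simpa [R] using h
    have := key v' v h1
    rw [this]
    simp
  · have h1 : ∀ x, (v' x : ℕ) = v x + (if x = e then 1 else 0) := by simpa [R] using h
    have := key v v' h1
    rw [this]
    simp

omit [Fintype I] in
theorem exists_step {B n : ℕ} (σ : Bool) (e : I) (v : I → Fin (B + 1))
    (hv : ∀ x, n + 1 ≤ (v x : ℕ) ∧ (v x : ℕ) + (n + 1) ≤ B) :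
    ∃ v', R σ e v v' ∧ ∀ x, n ≤ (v' x : ℕ) ∧ (v' x : ℕ) + n ≤ B := by
  cases σ
  · refine ⟨fun x => if x = e then ⟨(v x : ℕ) - 1, by have := (v x).2; omega⟩ else v x, ?_, ?_⟩
    · have : ∀ x, (v x : ℕ) = ((if x = e then (⟨(v x : ℕ) - 1, by
          have := (v x).2; omega⟩ : Fin (B + 1)) else v x : Fin (B + 1)) : ℕ) +
          (if x = e then 1 else 0) := by
        intro x
        have := hv x
        by_cases hx : x = e
        · simp only [hx, if_true]
          rw [hx] at this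
          omega
        · simp [hx]
      simpa [R] using this
    · intro x
      have := hv x
      by_cases hx : x = e
      · simp only [hx, if_true]
        rw [hx] at this
        omega
      · simp only [hx, if_false]
        omega
  · refine ⟨fun x => if x = e then ⟨(v x : ℕ) + 1, by have := hv x; omega⟩ else v x, ?_, ?_⟩
    · have : ∀ x, ((if x = e then (⟨(v x : ℕ) + 1, by
          have := hv x; omega⟩ : Fin (B + 1)) else v x : Fin (B + 1)) : ℕ) = (v x : ℕ) +
          (if x = e then 1 else 0) := by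
        intro x
        by_cases hx : x = e
        · simp [hx]
        · simp [hx]
      simpa [R] using this
    · intro x
      have := hv x
      by_cases hx : x = e
      · simp only [hx, if_true]
        rw [hx] at this
        omega
      · simp only [hx, if_false]
        omega

theorem pathSum_mono (E : Bool → Ω → Fin d → I) {n : ℕ} {ω : Ω}
    {F G : List (Tr Ω d) → ℝ} (h : ∀ l, F l ≤ G l) : pathSum E n ω F ≤ pathSum E n ω G := by
  induction n generalizing ω F G with
  | zero => exact h []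
  | succ n ih =>
    unfold pathSum
    exact Finset.sum_le_sum fun τ _ => mul_le_mul_of_nonneg_left (ih fun l => h _)
      (rate_nonneg E _ _)

theorem key_ineq (hd : 0 < d) (E : Bool → Ω → Fin d → I) (w : I → Y) {B : ℕ} (n : ℕ)
    (G : Y → ℝ) (hG : ∀ y, 0 ≤ G y) (ω : Ω) (v : I → Fin (B + 1))
    (hv : ∀ x, n ≤ (v x : ℕ) ∧ (v x : ℕ) + n ≤ B) :
    pathSum E n ω (fun l => G (fv w v + (l.map (inc E w)).sum)) ≤
      ∑ j, (P E B ^ n) (ω, v) j * G (fv w j.2) := by
  induction n generalizing ω v with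
  | zero =>
    rw [pow_zero]
    simp [pathSum, Matrix.one_apply]
  | succ n ih =>
    rw [pow_succ']
    simp_rw [Matrix.mul_apply, Finset.sum_mul, mul_assoc]
    rw [Finset.sum_comm]
    simp_rw [← Finset.mul_sum]
    set H : Ω × (I → Fin (B + 1)) → ℝ := fun k => ∑ j, (P E B ^ n) k j * G (fv w j.2) with hH
    have hH0 : ∀ k, 0 ≤ H k := fun k =>
      Finset.sum_nonneg fun j _ => mul_nonneg (P_pow_nonneg hd E B n _ _) (hG _)
    calc pathSum E (n + 1) ω (fun l => G (fv w v + (l.map (inc E w)).sum))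
        = ∑ τ : Tr Ω d, rate E ω τ * pathSum E n τ.2.2.2
            (fun l => G (fv w v + ((τ :: l).map (inc E w)).sum)) := rfl
      _ ≤ ∑ τ : Tr Ω d, rate E ω τ * ∑ v' : I → Fin (B + 1),
            (if R τ.1 (edge E τ) v v' then H (τ.2.2.2, v') else 0) := by
          refine Finset.sum_le_sum fun τ _ => mul_le_mul_of_nonneg_left ?_ (rate_nonneg E _ _)
          obtain ⟨v', hR, hv'⟩ := exists_step τ.1 (edge E τ) v hv
          have h1 := ih τ.2.2.2 v' hv'
          have h2 : (fun l : List (Tr Ω d) => G (fv w v + ((τ :: l).map (inc E w)).sum)) =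
              fun l => G (fv w v' + (l.map (inc E w)).sum) := by
            funext l
            rw [fv_step w hR, List.map_cons, List.sum_cons, add_assoc]
            rfl
          rw [h2]
          refine h1.trans ?_
          have h3 : H (τ.2.2.2, v') = (if R τ.1 (edge E τ) v v' then H (τ.2.2.2, v') else 0) :=
            (if_pos hR).symm
          show H (τ.2.2.2, v') ≤ _
          rw [h3]
          refine Finset.single_le_sum (f := fun v' =>
            (if R τ.1 (edge E τ) v v' then H (τ.2.2.2, v') else 0)) ?_ (Finset.mem_univ v')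
          intro v'' _
          show 0 ≤ (if R τ.1 (edge E τ) v v'' then H (τ.2.2.2, v'') else 0)
          split_ifs
          · exact hH0 _
          · exact le_refl _
      _ = ∑ k, W E B (ω, v) k * H k := (sum_W_mul E B (ω, v) H).symm
      _ ≤ ∑ k, P E B (ω, v) k * H k :=
          Finset.sum_le_sum fun k _ => mul_le_mul_of_nonneg_right (W_le_P hd E B _ _) (hH0 k)

/-- the interior of the box. -/
def interior (I : Type) [Fintype I] [DecidableEq I] (n m : ℕ) :
    Finset (I → Fin (2 * n + m + 1)) :=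
  Fintype.piFinset fun _ => Finset.Icc ⟨n, by omega⟩ ⟨n + m, by omega⟩

theorem card_interior (n m : ℕ) : (interior I n m).card = (m + 1) ^ Fintype.card I := by
  unfold interior
  rw [Fintype.card_piFinset]
  simp only [Fin.card_Icc]
  rw [Finset.prod_const, Finset.card_univ]
  congr 1
  omega

theorem mem_interior {n m : ℕ} {v : I → Fin (2 * n + m + 1)} (h : v ∈ interior I n m) :
    ∀ x, n ≤ (v x : ℕ) ∧ (v x : ℕ) + n ≤ 2 * n + m := by
  intro x
  unfold interior at h
  rw [Fintype.mem_piFinset] at h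
  have := h x
  rw [Finset.mem_Icc, Fin.le_def, Fin.le_def] at this
  simp only at this
  omega

theorem displacement_one_le (hd : 0 < d) [Nonempty Ω] (E : Bool → Ω → Fin d → I) {p : ℝ}
    (hp : 0 < p) (w : I → Y) (B : ℕ) :
    displacement (P E B) (fun _ => 1 / (Fintype.card (Ω × (I → Fin (B + 1))) : ℝ))
      (fun s => fv w s.2) p 1 ≤ (1 / (Fintype.card (Ω × (I → Fin (B + 1))) : ℝ)) *
        ((Fintype.card (I → Fin (B + 1)) : ℝ) *
          ∑ ω, ∑ σ : Bool, ∑ i : Fin d, (1 / (2 * d)) * ‖w (E σ ω i)‖ ^ p) := by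
  unfold displacement
  simp_rw [mul_assoc, ← Finset.mul_sum]
  refine mul_le_mul_of_nonneg_left ?_ (by positivity)
  have hrow : ∀ s : Ω × (I → Fin (B + 1)),
      ∑ j, (P E B ^ 1) s j * ‖fv w j.2 - fv w s.2‖ ^ p ≤
        ∑ σ : Bool, ∑ i : Fin d, (1 / (2 * d)) * ‖w (E σ s.1 i)‖ ^ p := by
    intro s
    have h1 : ∀ j, (P E B ^ 1) s j * ‖fv w j.2 - fv w s.2‖ ^ p =
        W E B s j * ‖fv w j.2 - fv w s.2‖ ^ p := by
      intro j
      rw [pow_one]
      unfold P
      by_cases h : s = j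
      · subst h
        simp [Real.zero_rpow hp.ne']
      · rw [if_neg h, add_zero]
    rw [Finset.sum_congr rfl fun j _ => h1 j]
    refine (sum_W_mul_le E B s (fun j => ‖fv w j.2 - fv w s.2‖ ^ p)
      (fun e => ‖w e‖ ^ p) (fun e => by positivity) ?_).trans
      (rate_total hd E (fun e => ‖w e‖ ^ p) (fun e => by positivity) s.1)
    intro τ v' hR
    show ‖fv w v' - fv w s.2‖ ^ p ≤ ‖w (edge E τ)‖ ^ p
    rw [fv_step w hR, add_sub_cancel_left, norm_smul]
    have : ‖(if τ.1 then (1 : ℝ) else -1)‖ = 1 := by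
      split_ifs <;> simp
    rw [this, one_mul]
  refine (Finset.sum_le_sum fun s _ => hrow s).trans (le_of_eq ?_)
  rw [Fintype.sum_prod_type]
  simp only [Finset.sum_const, Finset.card_univ, nsmul_eq_mul]
  rw [Finset.mul_sum]
  simp only [Finset.mul_sum]

theorem le_displacement (hd : 0 < d) [Nonempty Ω] (E : Bool → Ω → Fin d → I) {p : ℝ}
    (w : I → Y) (n m : ℕ) :
    (1 / (Fintype.card (Ω × (I → Fin (2 * n + m + 1))) : ℝ)) *
        (((m + 1 : ℕ) : ℝ) ^ Fintype.card I *
          ∑ ω, pathSum E n ω (fun l => ‖(l.map (inc E w)).sum‖ ^ p)) ≤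
    displacement (P E (2 * n + m))
      (fun _ => 1 / (Fintype.card (Ω × (I → Fin (2 * n + m + 1))) : ℝ))
      (fun s => fv w s.2) p n := by
  unfold displacement
  simp_rw [mul_assoc, ← Finset.mul_sum]
  refine mul_le_mul_of_nonneg_left ?_ (by positivity)
  rw [Fintype.sum_prod_type]
  have hcard : (((m + 1 : ℕ) : ℝ)) ^ Fintype.card I = ((interior I n m).card : ℝ) := by
    rw [card_interior]
    push_cast
    rfl
  rw [hcard, Finset.mul_sum]
  refine Finset.sum_le_sum fun ω _ => ?_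
  have hnn : ∀ v : I → Fin (2 * n + m + 1),
      0 ≤ ∑ j, (P E (2 * n + m) ^ n) (ω, v) j * ‖fv w j.2 - fv w v‖ ^ p := fun v =>
    Finset.sum_nonneg fun j _ => mul_nonneg (P_pow_nonneg hd E _ n _ _) (by positivity)
  calc ((interior I n m).card : ℝ) *
        pathSum E n ω (fun l => ‖(l.map (inc E w)).sum‖ ^ p)
      = ∑ v ∈ interior I n m, pathSum E n ω (fun l => ‖(l.map (inc E w)).sum‖ ^ p) := by
        rw [Finset.sum_const, nsmul_eq_mul]
    _ ≤ ∑ v ∈ interior I n m,
          ∑ j, (P E (2 * n + m) ^ n) (ω, v) j * ‖fv w j.2 - fv w v‖ ^ p := by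
        refine Finset.sum_le_sum fun v hv => ?_
        have h := key_ineq hd E w (B := 2 * n + m) n (fun y => ‖y - fv w v‖ ^ p)
          (fun y => by positivity) ω v (mem_interior hv)
        simpa only [add_sub_cancel_left] using h
    _ ≤ ∑ v, ∑ j, (P E (2 * n + m) ^ n) (ω, v) j * ‖fv w j.2 - fv w v‖ ^ p :=
        Finset.sum_le_sum_of_subset_of_nonneg (Finset.subset_univ _) fun v _ _ => hnn v

end ChainAux

open ChainAux

section walk
variable {Ω I : Type} [Fintype Ω] [DecidableEq Ω] [Fintype I] [DecidableEq I] {d : ℕ}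

theorem chain_ineq (hd : 0 < d) (E : Bool → Ω → Fin d → I) {K p : ℝ} (hK : 0 ≤ K) (hp : 0 < p)
    {Y : Type*} [NormedAddCommGroup Y] [NormedSpace ℝ Y] (hY : MarkovTypeWith K p Y)
    (w : I → Y) (n : ℕ) (hn : 1 ≤ n) :
    ∑ ω, pathSum E n ω (fun l => ‖(l.map (inc E w)).sum‖ ^ p) ≤
      K ^ p * n * ∑ ω, ∑ σ : Bool, ∑ i : Fin d, (1 / (2 * d)) * ‖w (E σ ω i)‖ ^ p := by
  rcases isEmpty_or_nonempty Ω with hΩ | hΩ
  · simp
  set L := ∑ ω, pathSum E n ω (fun l => ‖(l.map (inc E w)).sum‖ ^ p) with hL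
  set Q := ∑ ω, ∑ σ : Bool, ∑ i : Fin d, (1 / (2 * d)) * ‖w (E σ ω i)‖ ^ p with hQ
  have hmain : ∀ m : ℕ, (((m + 1 : ℕ) : ℝ) / ((2 * n + m + 1 : ℕ) : ℝ)) ^ Fintype.card I * L ≤
      K ^ p * n * Q := by
    intro m
    have h1 := le_displacement (p := p) hd E w n m
    have h2 := displacement_one_le hd E hp w (2 * n + m)
    have h3 := hY _ (P E (2 * n + m)) _ (P_chain hd E (2 * n + m))
      (fun s => fv w s.2) n hn
    have hKp : 0 ≤ K ^ p * n := by positivity
    have h4 := (h1.trans h3).trans (mul_le_mul_of_nonneg_left h2 hKp)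
    rw [← hL, ← hQ] at h4
    set N : ℝ := (Fintype.card (Ω × (I → Fin (2 * n + m + 1))) : ℝ) with hN
    have hNpos : 0 < N := by
      rw [hN]
      exact_mod_cast Fintype.card_pos
    have hV : (Fintype.card (I → Fin (2 * n + m + 1)) : ℝ) =
        ((2 * n + m + 1 : ℕ) : ℝ) ^ Fintype.card I := by
      rw [Fintype.card_fun, Fintype.card_fin]
      push_cast
      rfl
    have hVpos : 0 < ((2 * n + m + 1 : ℕ) : ℝ) ^ Fintype.card I := by positivity
    rw [hV] at h4
    have h5 : ((m + 1 : ℕ) : ℝ) ^ Fintype.card I * L ≤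
        K ^ p * n * (((2 * n + m + 1 : ℕ) : ℝ) ^ Fintype.card I * Q) := by
      have h6 := mul_le_mul_of_nonneg_left h4 hNpos.le
      have h7 : N * (1 / N * (((m + 1 : ℕ) : ℝ) ^ Fintype.card I * L)) =
          ((m + 1 : ℕ) : ℝ) ^ Fintype.card I * L := by
        field_simp
      have h8 : N * (K ^ p * n * (1 / N * (((2 * n + m + 1 : ℕ) : ℝ) ^ Fintype.card I * Q))) =
          K ^ p * n * (((2 * n + m + 1 : ℕ) : ℝ) ^ Fintype.card I * Q) := by
        field_simp
      rw [h7, h8] at h6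
      exact h6
    rw [div_pow, div_mul_eq_mul_div, div_le_iff₀ hVpos]
    calc ((m + 1 : ℕ) : ℝ) ^ Fintype.card I * L ≤
        K ^ p * n * (((2 * n + m + 1 : ℕ) : ℝ) ^ Fintype.card I * Q) := h5
      _ = _ := by ring
  have hlim : Filter.Tendsto (fun m : ℕ =>
      (((m + 1 : ℕ) : ℝ) / ((2 * n + m + 1 : ℕ) : ℝ)) ^ Fintype.card I * L)
      Filter.atTop (𝓝 ((1 : ℝ) ^ Fintype.card I * L)) := by
    refine Filter.Tendsto.mul_const _ (Filter.Tendsto.pow ?_ _)
    have h1 : (fun m : ℕ => ((m + 1 : ℕ) : ℝ) / ((2 * n + m + 1 : ℕ) : ℝ)) =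
        fun m : ℕ => 1 - (2 * n : ℝ) / ((m : ℝ) + (2 * n + 1)) := by
      funext m
      have : (0 : ℝ) < (m : ℝ) + (2 * n + 1) := by positivity
      push_cast
      rw [eq_sub_iff_add_eq, div_add_div _ _ (by positivity) this.ne', div_eq_one_iff_eq
        (by positivity)]
      ring
    rw [h1]
    have h2 : Filter.Tendsto (fun m : ℕ => (2 * n : ℝ) / ((m : ℝ) + (2 * n + 1)))
        Filter.atTop (𝓝 0) :=
      Filter.Tendsto.div_atTop tendsto_const_nhds
        (Filter.tendsto_atTop_add_const_right _ _ tendsto_natCast_atTop_atTop)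
    simpa using h2.const_sub 1
  rw [one_pow, one_mul] at hlim
  exact le_of_tendsto' hlim hmain

end walk

end Vale.Agent.P125
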