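import Vale.Agent.P125.Defs

/-! Module F: clock bound. -/

open scoped BigOperators Topology

namespace Vale.Agent.P125

namespace ClockAux

variable {X : Type*} [NormedAddCommGroup X] [NormedSpace ℝ X]

/-- depth of a tree. -/
def depth {X : Type*} : STree X → ℕ
  | .leaf => 0
  | .node _ l r => max (depth l) (depth r) + 1

/-- final value along a branch. -/
def bs : STree X → (D : ℕ) → (Fin D → Bool) → X
  | .leaf, _, _ => 0
  | .node _ _ _, 0, _ => 0
  | .node y l r, D + 1, ω => if ω 0 then y + bs l D (Fin.tail ω) else -y + bs r D (Fin.tail ω)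

/-- the block containing the clock value `c`. -/
noncomputable def lab (n : ℕ) (c : ℝ) : ℕ := min ⌊(n : ℝ) * c⌋₊ (n - 1)

/-- multiply the step at a node by the weight of its block. -/
noncomputable def relab (s : ℝ) (n : ℕ) (a : ℕ → ℝ) : ℝ → STree X → STree X
  | _, .leaf => .leaf
  | c, .node y l r => .node (a (lab n (c + ‖y‖ ^ s)) • y) (relab s n a (c + ‖y‖ ^ s) l)
      (relab s n a (c + ‖y‖ ^ s) r)

/-- scale all steps. -/
def scale (t : ℝ) : STree X → STree X
  | .leaf => .leaf
  | .node y l r => .node (t • y) (scale t l) (scale t r)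

theorem lab_mono (n : ℕ) {c c' : ℝ} (h : c ≤ c') : lab n c ≤ lab n c' := by
  unfold lab
  apply min_le_min_right
  exact Nat.floor_le_floor (mul_le_mul_of_nonneg_left h (Nat.cast_nonneg _))

theorem lab_lt (n : ℕ) (hn : 1 ≤ n) (c : ℝ) : lab n c < n := by
  unfold lab
  have := min_le_right ⌊(n : ℝ) * c⌋₊ (n - 1)
  omega

theorem depth_relab (s : ℝ) (n : ℕ) (a : ℕ → ℝ) (T : STree X) (c : ℝ) :
    depth (relab s n a c T) = depth T := by
  induction T generalizing c with
  | leaf => rfl
  | node y l r ihl ihr => simp only [relab, depth, ihl, ihr]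

theorem depth_scale (t : ℝ) (T : STree X) : depth (scale t T) = depth T := by
  induction T with
  | leaf => rfl
  | node y l r ihl ihr => simp only [scale, depth, ihl, ihr]

theorem J_nonneg (p : ℝ) (T : STree X) (x : X) : 0 ≤ T.J p x := by
  induction T generalizing x with
  | leaf => simp only [STree.J]; positivity
  | node y l r ihl ihr =>
    simp only [STree.J]
    have := ihl (x + y)
    have := ihr (x - y)
    linarith

theorem J_eq (p : ℝ) (T : STree X) (x : X) (D : ℕ) (hD : depth T ≤ D) :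
    T.J p x = (1 / 2 ^ D : ℝ) * ∑ ω : Fin D → Bool, ‖x + bs T D ω‖ ^ p := by
  induction T generalizing x D with
  | leaf =>
    simp only [STree.J, bs, add_zero, Finset.sum_const, Finset.card_univ, nsmul_eq_mul]
    simp
  | node y l r ihl ihr =>
    cases D with
    | zero => simp [depth] at hD
    | succ D =>
      simp only [depth, add_le_add_iff_right] at hD
      have hl : depth l ≤ D := le_trans (le_max_left _ _) hD
      have hr : depth r ≤ D := le_trans (le_max_right _ _) hD
      have h1 : ∑ ω : Fin (D + 1) → Bool, ‖x + bs (.node y l r) (D + 1) ω‖ ^ p =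
          (∑ ω : Fin D → Bool, ‖x + y + bs l D ω‖ ^ p) + ∑ ω : Fin D → Bool, ‖x - y + bs r D ω‖ ^ p := by
        rw [← (Fin.consEquiv (fun _ : Fin (D + 1) => Bool)).sum_comp, Fintype.sum_prod_type,
          Fintype.sum_bool]
        congr 1
        · apply Finset.sum_congr rfl
          intro ω _
          simp only [Fin.consEquiv, Equiv.coe_fn_mk, bs, Fin.cons_zero, Fin.tail_cons, if_true,
            add_assoc]
        · apply Finset.sum_congr rfl
          intro ω _
          simp only [Fin.consEquiv, Equiv.coe_fn_mk, bs, Fin.cons_zero, Fin.tail_cons,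
            Bool.false_eq_true, if_false, sub_eq_add_neg, add_assoc]
      rw [h1]
      simp only [STree.J]
      rw [ihl (x + y) D hl, ihr (x - y) D hr, pow_succ]
      field_simp

theorem bs_relab (s : ℝ) (n : ℕ) (hn : 1 ≤ n) (a : ℕ → ℝ) (T : STree X) (c : ℝ) (D : ℕ)
    (ω : Fin D → Bool) :
    bs (relab s n a c T) D ω =
      ∑ i : Fin n, a i • bs (relab s n (fun k => if k = (i : ℕ) then 1 else 0) c T) D ω := by
  induction T generalizing c D with
  | leaf => simp [relab, bs]
  | node y l r ihl ihr =>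
    cases D with
    | zero => simp [relab, bs]
    | succ D =>
      simp only [relab, bs]
      have hy : a (lab n (c + ‖y‖ ^ s)) • y =
          ∑ i : Fin n, a i • ((if lab n (c + ‖y‖ ^ s) = (i : ℕ) then (1 : ℝ) else 0) • y) := by
        rw [Finset.sum_eq_single (⟨lab n (c + ‖y‖ ^ s), lab_lt n hn _⟩ : Fin n)]
        · simp
        · intro i _ hi
          have : ¬ lab n (c + ‖y‖ ^ s) = (i : ℕ) := by
            intro h
            exact hi (Fin.ext h.symm)
          rw [if_neg this, zero_smul, smul_zero]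
        · intro h; exact absurd (Finset.mem_univ _) h
      by_cases h0 : ω 0 = true
      · simp only [h0, if_true]
        rw [ihl, hy, ← Finset.sum_add_distrib]
        apply Finset.sum_congr rfl
        intro i _
        rw [smul_add]
      · simp only [h0]
        rw [ihr, hy, if_neg (by simp)]
        rw [← Finset.sum_neg_distrib, ← Finset.sum_add_distrib]
        apply Finset.sum_congr rfl
        intro i _
        simp only [Bool.false_eq_true, if_false]
        rw [smul_add, smul_neg]

theorem relab_one (s : ℝ) (n : ℕ) (T : STree X) (c : ℝ) : relab s n (fun _ => 1) c T = T := by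
  induction T generalizing c with
  | leaf => rfl
  | node y l r ihl ihr => simp only [relab, one_smul, ihl, ihr]

/-- Jensen. -/
theorem J_jensen {p : ℝ} (hp : 1 ≤ p) (T : STree X) (x : X) : ‖x‖ ^ p ≤ T.J p x := by
  induction T generalizing x with
  | leaf => simp only [STree.J, le_refl]
  | node y l r ihl ihr =>
    simp only [STree.J]
    have h1 := ihl (x + y)
    have h2 := ihr (x - y)
    have h3 : ‖x‖ ≤ (1 / 2 : ℝ) * ‖x + y‖ + (1 / 2) * ‖x - y‖ := by
      have : (2 : ℝ) • x = (x + y) + (x - y) := by rw [two_smul]; abel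
      have h4 : ‖(2 : ℝ) • x‖ ≤ ‖x + y‖ + ‖x - y‖ := by rw [this]; exact norm_add_le _ _
      rw [norm_smul, Real.norm_eq_abs, abs_of_pos (by norm_num : (0 : ℝ) < 2)] at h4
      linarith
    have h5 := (convexOn_rpow hp).2 (Set.mem_Ici.mpr (norm_nonneg (x + y)))
      (Set.mem_Ici.mpr (norm_nonneg (x - y))) (by norm_num : (0 : ℝ) ≤ 1 / 2)
      (by norm_num : (0 : ℝ) ≤ 1 / 2) (by norm_num)
    simp only [smul_eq_mul] at h5
    have h6 : ‖x‖ ^ p ≤ ((1 / 2 : ℝ) * ‖x + y‖ + (1 / 2) * ‖x - y‖) ^ p :=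
      Real.rpow_le_rpow (norm_nonneg _) h3 (by linarith)
    linarith

/-- if all labels are above `j`, the truncated tree is constant. -/
theorem J_trunc_zero {p s : ℝ} {n : ℕ} (a : ℕ → ℝ) (j : ℕ) (T : STree X) (c : ℝ)
    (hc : j < lab n c) (x : X) (ha : ∀ k, j < k → a k = 0) :
    (relab s n a c T).J p x = ‖x‖ ^ p := by
  induction T generalizing c x with
  | leaf => rfl
  | node y l r ihl ihr =>
    have hc' : j < lab n (c + ‖y‖ ^ s) := lt_of_lt_of_le hc (lab_mono n (by
      have : 0 ≤ ‖y‖ ^ s := by positivity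
      linarith))
    simp only [relab, STree.J]
    rw [ha _ hc', zero_smul, add_zero, sub_zero, ihl _ hc', ihr _ hc']
    ring

theorem J_trunc_le {p s : ℝ} (hp : 1 ≤ p) {n : ℕ} (a : ℕ → ℝ) (j : ℕ) (T : STree X) (c : ℝ)
    (x : X) :
    (relab s n (fun k => if k ≤ j then a k else 0) c T).J p x ≤ (relab s n a c T).J p x := by
  induction T generalizing c x with
  | leaf => simp only [relab, le_refl]
  | node y l r ihl ihr =>
    by_cases h : lab n (c + ‖y‖ ^ s) ≤ j
    · simp only [relab, STree.J, if_pos h]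
      have h1 := ihl (c + ‖y‖ ^ s) (x + a (lab n (c + ‖y‖ ^ s)) • y)
      have h2 := ihr (c + ‖y‖ ^ s) (x - a (lab n (c + ‖y‖ ^ s)) • y)
      linarith
    · have h' : j < lab n (c + ‖y‖ ^ s) := not_le.mp h
      refine le_trans (le_of_eq ?_) (J_jensen hp _ _)
      simp only [relab, STree.J, if_neg h, zero_smul, add_zero, sub_zero]
      rw [J_trunc_zero _ j l _ h' x (fun k hk => if_neg (not_le.mpr hk)),
        J_trunc_zero _ j r _ h' x (fun k hk => if_neg (not_le.mpr hk))]
      ring

theorem Clock_mono {s : ℝ} (T : STree X) {t t' : ℝ} (h : t ≤ t') (hT : T.Clock s t) :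
    T.Clock s t' := by
  induction T generalizing t t' with
  | leaf => exact le_trans hT h
  | node y l r ihl ihr =>
    obtain ⟨h1, h2, h3⟩ := hT
    exact ⟨h1.trans h, ihl (by linarith) h2, ihr (by linarith) h3⟩

theorem Clock_nonneg {s : ℝ} (T : STree X) {t : ℝ} (hT : T.Clock s t) : 0 ≤ t := by
  cases T with
  | leaf => exact hT
  | node y l r => exact le_trans (by positivity) hT.1

theorem Clock_zero {s : ℝ} (hs : 0 < s) {n : ℕ} (a : ℕ → ℝ) (j : ℕ) (T : STree X) (c t : ℝ)
    (hc : j < lab n c) (ht : 0 ≤ t) (ha : ∀ k, j < k → a k = 0) :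
    (relab s n a c T).Clock s t := by
  induction T generalizing c with
  | leaf => exact ht
  | node y l r ihl ihr =>
    have hc' : j < lab n (c + ‖y‖ ^ s) := lt_of_lt_of_le hc (lab_mono n (by
      have : 0 ≤ ‖y‖ ^ s := by positivity
      linarith))
    simp only [relab, STree.Clock]
    rw [ha _ hc', zero_smul, norm_zero, Real.zero_rpow hs.ne', sub_zero]
    exact ⟨ht, ihl _ hc', ihr _ hc'⟩

theorem Clock_block {s : ℝ} (hs : 0 < s) {n : ℕ} (hn : 1 ≤ n) (j : ℕ) (hj : j < n) (T : STree X)
    (c : ℝ) (hc : (j : ℝ) / n ≤ c) (hT : T.Clock s (1 - c)) :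
    (relab s n (fun k => if k = j then 1 else 0) c T).Clock s (max 0 (((j : ℝ) + 1) / n - c)) := by
  have hn0 : (0 : ℝ) < n := by exact_mod_cast hn
  induction T generalizing c with
  | leaf => exact le_max_left _ _
  | node y l r ihl ihr =>
    obtain ⟨h1, h2, h3⟩ := hT
    have hy0 : 0 ≤ ‖y‖ ^ s := by positivity
    have hc' : (j : ℝ) / n ≤ c + ‖y‖ ^ s := by linarith
    have hl2 : l.Clock s (1 - (c + ‖y‖ ^ s)) := Clock_mono l (by linarith) h2
    have hr2 : r.Clock s (1 - (c + ‖y‖ ^ s)) := Clock_mono r (by linarith) h3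
    by_cases hL : lab n (c + ‖y‖ ^ s) = j
    · have hle : c + ‖y‖ ^ s ≤ ((j : ℝ) + 1) / n := by
        rw [le_div_iff₀ hn0]
        unfold lab at hL
        rcases min_choice ⌊(n : ℝ) * (c + ‖y‖ ^ s)⌋₊ (n - 1) with h | h
        · rw [h] at hL
          have := Nat.lt_floor_add_one ((n : ℝ) * (c + ‖y‖ ^ s))
          rw [hL] at this
          linarith
        · rw [h] at hL
          have e : (j : ℝ) + 1 = n := by
            have : j + 1 = n := by omega
            exact_mod_cast this
          rw [e]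
          have : c + ‖y‖ ^ s ≤ 1 := by linarith
          nlinarith
      simp only [relab, STree.Clock]
      rw [if_pos hL, one_smul]
      have e1 : max 0 (((j : ℝ) + 1) / n - c) = ((j : ℝ) + 1) / n - c := max_eq_right (by linarith)
      have e2 : max 0 (((j : ℝ) + 1) / n - (c + ‖y‖ ^ s)) = ((j : ℝ) + 1) / n - (c + ‖y‖ ^ s) :=
        max_eq_right (by linarith)
      have hl3 := ihl _ hc' hl2
      have hr3 := ihr _ hc' hr2
      rw [e2] at hl3 hr3
      rw [e1]
      exact ⟨by linarith, Clock_mono _ (by linarith) hl3, Clock_mono _ (by linarith) hr3⟩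
    · have hL' : j < lab n (c + ‖y‖ ^ s) := by
        have h4 : j ≤ lab n (c + ‖y‖ ^ s) := by
          unfold lab
          apply le_min
          · apply Nat.le_floor
            rw [div_le_iff₀ hn0] at hc'
            linarith
          · omega
        omega
      simp only [relab, STree.Clock]
      rw [if_neg hL, zero_smul, norm_zero, Real.zero_rpow hs.ne', sub_zero]
      have ha : ∀ k, j < k → (fun k => if k = j then (1 : ℝ) else 0) k = 0 :=
        fun k hk => if_neg (by omega)
      exact ⟨le_max_left _ _, Clock_zero hs _ j l _ _ hL' (le_max_left _ _) ha,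
        Clock_zero hs _ j r _ _ hL' (le_max_left _ _) ha⟩

theorem Clock_scale {s t u : ℝ} (ht : 0 ≤ t) (T : STree X) (hT : T.Clock s u) :
    (scale t T).Clock s (t ^ s * u) := by
  induction T generalizing u with
  | leaf => exact mul_nonneg (by positivity) hT
  | node y l r ihl ihr =>
    obtain ⟨h1, h2, h3⟩ := hT
    have e : ‖t • y‖ ^ s = t ^ s * ‖y‖ ^ s := by
      rw [norm_smul, Real.norm_of_nonneg ht, Real.mul_rpow ht (norm_nonneg _)]
    have hts : 0 ≤ t ^ s := by positivity
    simp only [scale, STree.Clock]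
    rw [e]
    refine ⟨mul_le_mul_of_nonneg_left h1 hts, ?_, ?_⟩
    · have := ihl h2
      rw [mul_sub] at this
      exact this
    · have := ihr h3
      rw [mul_sub] at this
      exact this

theorem J_scale {p t : ℝ} (ht : 0 ≤ t) (T : STree X) (x : X) :
    (scale t T).J p (t • x) = t ^ p * T.J p x := by
  induction T generalizing x with
  | leaf =>
    simp only [scale, STree.J]
    rw [norm_smul, Real.norm_of_nonneg ht, Real.mul_rpow ht (norm_nonneg _)]
  | node y l r ihl ihr =>
    simp only [scale, STree.J]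
    rw [← smul_add, ← smul_sub, ihl, ihr]
    ring

/-- crude bound. -/
theorem J_crude {p s : ℝ} (hp : 1 ≤ p) (hs : 0 < s) (T : STree X) (x : X) (D : ℕ)
    (hD : depth T ≤ D) {t : ℝ} (ht : t ≤ 1) (hT : T.Clock s t) : T.J p x ≤ (‖x‖ + D) ^ p := by
  induction T generalizing x D t with
  | leaf =>
    simp only [STree.J]
    apply Real.rpow_le_rpow (norm_nonneg _) _ (by linarith)
    have : (0 : ℝ) ≤ D := Nat.cast_nonneg _
    linarith
  | node y l r ihl ihr =>
    cases D with
    | zero => simp [depth] at hD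
    | succ D =>
      simp only [depth, add_le_add_iff_right] at hD
      obtain ⟨h1, h2, h3⟩ := hT
      have hy0 : 0 ≤ ‖y‖ ^ s := by positivity
      have hy : ‖y‖ ≤ 1 := by
        by_contra hc
        push Not at hc
        have := Real.one_lt_rpow hc hs
        linarith
      have hl := ihl (x + y) D (le_trans (le_max_left _ _) hD) (by linarith) h2
      have hr := ihr (x - y) D (le_trans (le_max_right _ _) hD) (by linarith) h3
      have hl' : (‖x + y‖ + D) ^ p ≤ (‖x‖ + (D + 1 : ℕ)) ^ p := by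
        apply Real.rpow_le_rpow (by positivity) _ (by linarith)
        have := norm_add_le x y
        push_cast; linarith
      have hr' : (‖x - y‖ + D) ^ p ≤ (‖x‖ + (D + 1 : ℕ)) ^ p := by
        apply Real.rpow_le_rpow (by positivity) _ (by linarith)
        have := norm_sub_le x y
        push_cast; linarith
      simp only [STree.J]
      linarith

section Lp

variable {p : ℝ} [Fact (1 ≤ ENNReal.ofReal p)]

/-- the normalized branch function as an element of `PiLp`. -/
noncomputable def vec (p : ℝ) (D : ℕ) (f : (Fin D → Bool) → X) :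
    PiLp (ENNReal.ofReal p) (fun _ : (Fin D → Bool) => X) :=
  WithLp.toLp _ (fun ω => ((1 / 2 ^ D : ℝ) ^ (1 / p)) • f ω)

theorem norm_vec (hp : 1 ≤ p) (D : ℕ) (f : (Fin D → Bool) → X) :
    ‖vec p D f‖ = ((1 / 2 ^ D : ℝ) * ∑ ω, ‖f ω‖ ^ p) ^ (1 / p) := by
  have hp0 : 0 < p := by linarith
  have hpt : (ENNReal.ofReal p).toReal = p := ENNReal.toReal_ofReal hp0.le
  rw [PiLp.norm_eq_sum (by rw [hpt]; exact hp0), hpt]
  congr 1
  rw [Finset.mul_sum]
  apply Finset.sum_congr rfl
  intro ω _
  unfold vec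
  rw [PiLp.toLp_apply, norm_smul, Real.norm_of_nonneg (by positivity),
    Real.mul_rpow (by positivity) (norm_nonneg _), ← Real.rpow_mul (by positivity),
    one_div_mul_cancel hp0.ne', Real.rpow_one]

theorem norm_vec_bs (hp : 1 ≤ p) (T : STree X) (x : X) (D : ℕ) (hD : depth T ≤ D) :
    ‖vec p D (fun ω => x + bs T D ω)‖ = (T.J p x) ^ (1 / p) := by
  rw [norm_vec hp, J_eq p T x D hD]

/-- Minkowski. -/
theorem J_minkowski (hp : 1 ≤ p) (T : STree X) (x : X) :
    (T.J p x) ^ (1 / p) ≤ ‖x‖ + (T.J p 0) ^ (1 / p) := by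
  have hp0 : 0 < p := by linarith
  rw [← norm_vec_bs hp T x (depth T) le_rfl, ← norm_vec_bs hp T 0 (depth T) le_rfl]
  have h1 : vec p (depth T) (fun ω => x + bs T (depth T) ω) =
      vec p (depth T) (fun _ => x) + vec p (depth T) (fun ω => 0 + bs T (depth T) ω) := by
    unfold vec
    rw [← WithLp.toLp_add]
    congr 1
    funext ω
    simp only [Pi.add_apply, zero_add, smul_add]
  rw [h1]
  refine (norm_add_le _ _).trans ?_
  apply add_le_add _ le_rfl
  rw [norm_vec hp]
  rw [Finset.sum_const, Finset.card_univ, Fintype.card_fun, Fintype.card_bool, Fintype.card_fin,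
    nsmul_eq_mul]
  push_cast
  rw [← mul_assoc, one_div_mul_cancel (by positivity), one_mul, ← Real.rpow_mul (norm_nonneg _),
    mul_one_div_cancel hp0.ne', Real.rpow_one]

/-- trees with clock `1/n`. -/
theorem small_clock {s G : ℝ} (hs : 1 < s) {n D : ℕ} (hn : 1 ≤ n) (hG0 : 0 ≤ G)
    (hG : ∀ T : STree X, depth T ≤ D → T.Clock s 1 → T.J p 0 ≤ G ^ p) (T : STree X)
    (hD : depth T ≤ D) (hT : T.Clock s (1 / n)) :
    T.J p 0 ≤ ((n : ℝ) ^ (-(1 / s)) * G) ^ p := by
  have hn0 : (0 : ℝ) < n := by exact_mod_cast hn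
  have hs0 : 0 < s := by linarith
  set t : ℝ := (n : ℝ) ^ (1 / s) with ht
  have ht0 : 0 < t := by positivity
  have hts : t ^ s * (1 / n) = 1 := by
    rw [ht, ← Real.rpow_mul hn0.le, one_div_mul_cancel hs0.ne', Real.rpow_one,
      mul_one_div_cancel hn0.ne']
  have h1 := Clock_scale ht0.le T hT
  rw [hts] at h1
  have h2 := hG (scale t T) (by rw [depth_scale]; exact hD) h1
  have h3 := J_scale (p := p) ht0.le T (0 : X)
  rw [smul_zero] at h3
  rw [h3] at h2
  have h4 : (n : ℝ) ^ (-(1 / s)) * G = G / t := by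
    rw [ht, Real.rpow_neg hn0.le]; ring
  rw [h4, Real.div_rpow hG0 ht0.le, le_div_iff₀ (by positivity)]
  linarith

theorem block_J {s G : ℝ} (hp : 1 ≤ p) (hs : 1 < s) {n D : ℕ} (hn : 1 ≤ n) (hG0 : 0 ≤ G)
    (hG : ∀ T : STree X, depth T ≤ D → T.Clock s 1 → T.J p 0 ≤ G ^ p) (j : ℕ) (hj : j < n)
    (T : STree X) (c : ℝ) (hc : 0 ≤ c) (hD : depth T ≤ D) (hT : T.Clock s (1 - c)) :
    (relab s n (fun k => if k = j then 1 else 0) c T).J p 0 ≤
      (1 + (n : ℝ) ^ (-(1 / s)) * G) ^ p := by
  have hn0 : (0 : ℝ) < n := by exact_mod_cast hn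
  have hs0 : 0 < s := by linarith
  have hp0 : 0 < p := by linarith
  set B : ℝ := (n : ℝ) ^ (-(1 / s)) * G with hB
  have hB0 : 0 ≤ B := by positivity
  induction T generalizing c with
  | leaf =>
    simp only [relab, STree.J, norm_zero, Real.zero_rpow hp0.ne']
    positivity
  | node y l r ihl ihr =>
    obtain ⟨h1, h2, h3⟩ := hT
    have hy0 : 0 ≤ ‖y‖ ^ s := by positivity
    have hc' : 0 ≤ c + ‖y‖ ^ s := by linarith
    have hl2 : l.Clock s (1 - (c + ‖y‖ ^ s)) := Clock_mono l (by linarith) h2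
    have hr2 : r.Clock s (1 - (c + ‖y‖ ^ s)) := Clock_mono r (by linarith) h3
    simp only [depth] at hD
    have hDl : depth l ≤ D := by
      have := le_max_left (depth l) (depth r); omega
    have hDr : depth r ≤ D := by
      have := le_max_right (depth l) (depth r); omega
    simp only [relab, STree.J]
    by_cases hL : lab n (c + ‖y‖ ^ s) = j
    · rw [if_pos hL, one_smul, zero_add, zero_sub]
      have hj' : (j : ℝ) / n ≤ c + ‖y‖ ^ s := by
        rw [div_le_iff₀ hn0]
        have h5 : j ≤ ⌊(n : ℝ) * (c + ‖y‖ ^ s)⌋₊ := by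
          unfold lab at hL
          rw [← hL]
          exact min_le_left _ _
        have h6 := (Nat.le_floor_iff (by positivity)).mp h5
        linarith
      have hy1 : ‖y‖ ≤ 1 := by
        by_contra hcon
        push Not at hcon
        have := Real.one_lt_rpow hcon hs0
        linarith
      have key : ∀ (T' : STree X) (x : X), ‖x‖ ≤ 1 → depth T' ≤ D →
          T'.Clock s (1 - (c + ‖y‖ ^ s)) →
          (relab s n (fun k => if k = j then 1 else 0) (c + ‖y‖ ^ s) T').J p x ≤ (1 + B) ^ p := by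
        intro T' x hx hDT hCT
        have h5 := Clock_block hs0 hn j hj T' _ hj' hCT
        have h6 : max 0 (((j : ℝ) + 1) / n - (c + ‖y‖ ^ s)) ≤ 1 / n := by
          apply max_le (by positivity)
          rw [add_div]
          linarith
        have h7 := small_clock hs hn hG0 hG _ (by rw [depth_relab]; exact hDT)
          (Clock_mono _ h6 h5)
        have h8 := J_minkowski hp (relab s n (fun k => if k = j then 1 else 0) (c + ‖y‖ ^ s) T') x
        have h9 : ((relab s n (fun k => if k = j then 1 else 0) (c + ‖y‖ ^ s) T').J p 0) ^ (1 / p) ≤ B := by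
          calc _ ≤ (B ^ p) ^ (1 / p) :=
                Real.rpow_le_rpow (J_nonneg _ _ _) h7 (by positivity)
            _ = B := by
                rw [← Real.rpow_mul hB0, mul_one_div_cancel hp0.ne', Real.rpow_one]
        have h10 : ((relab s n (fun k => if k = j then 1 else 0) (c + ‖y‖ ^ s) T').J p x) ^ (1 / p) ≤
            1 + B := by linarith
        calc (relab s n (fun k => if k = j then 1 else 0) (c + ‖y‖ ^ s) T').J p x
            = (((relab s n (fun k => if k = j then 1 else 0) (c + ‖y‖ ^ s) T').J p x) ^ (1 / p)) ^ p := by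
              rw [← Real.rpow_mul (J_nonneg _ _ _), one_div_mul_cancel hp0.ne', Real.rpow_one]
          _ ≤ (1 + B) ^ p :=
              Real.rpow_le_rpow (Real.rpow_nonneg (J_nonneg _ _ _) _) h10 hp0.le
      have hkl := key l y hy1 hDl hl2
      have hkr := key r (-y) (by rw [norm_neg]; exact hy1) hDr hr2
      linarith
    · rw [if_neg hL, zero_smul, add_zero, sub_zero]
      have hl3 := ihl _ hc' hDl hl2
      have hr3 := ihr _ hc' hDr hr2
      linarith

theorem comb {s : ℝ} {n D : ℕ} (hn : 1 ≤ n) (b : ℕ → ℝ) (T : STree X) :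
    ∑ i : Fin n, b i • vec p D (fun ω => bs (relab s n (fun k => if k = (i : ℕ) then 1 else 0) 0 T) D ω) =
      vec p D (fun ω => 0 + bs (relab s n b 0 T) D ω) := by
  unfold vec
  simp_rw [← WithLp.toLp_smul]
  rw [← WithLp.toLp_sum]
  congr 1
  funext ω
  rw [Finset.sum_apply, zero_add, bs_relab s n hn b T 0 D ω, Finset.smul_sum]
  apply Finset.sum_congr rfl
  intro i _
  rw [Pi.smul_apply, smul_comm]

end Lp

end ClockAux

open ClockAux in
theorem clock_bound {X : Type*} [NormedAddCommGroup X] [NormedSpace ℝ X] {p s : ℝ}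
    [Fact (1 ≤ ENNReal.ofReal p)] (hp : 1 ≤ p) (hs : 1 < s) {n : ℕ} (hn : 1 ≤ n)
    (hns : (n : ℝ) ^ (1 - 1 / s) ≤ 3 / 2)
    (H : ∀ (D : ℕ) (Δ : Fin n → PiLp (ENNReal.ofReal p) (fun _ : (Fin D → Bool) => X)),
      (∀ i, ‖Δ i‖ ≤ 1) →
      (∀ (a : Fin n → ℝ) (j : Fin n),
        ‖∑ i, (if i ≤ j then a i else 0) • Δ i‖ ≤ ‖∑ i, a i • Δ i‖) →
      ‖∑ i, Δ i‖ ≤ n / 2) :
    ∃ Γ : ℝ, 0 ≤ Γ ∧ ∀ T : STree X, T.Clock s 1 → T.J p 0 ≤ Γ ^ p := by
  have hn0 : (0 : ℝ) < n := by exact_mod_cast hn
  have hs0 : 0 < s := by linarith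
  have hp0 : 0 < p := by linarith
  refine ⟨2 * n, by positivity, ?_⟩
  intro T0 hT0
  set D := depth T0 with hD
  -- the best constant for depth `D`
  set S : Set ℝ := {g | ∃ T : STree X, depth T ≤ D ∧ T.Clock s 1 ∧ g = (T.J p 0) ^ (1 / p)} with hS
  have hbdd : BddAbove S := by
    refine ⟨D, ?_⟩
    rintro g ⟨T, hTD, hTC, rfl⟩
    have h1 := J_crude hp hs0 T 0 D hTD le_rfl hTC
    rw [norm_zero, zero_add] at h1
    calc (T.J p 0) ^ (1 / p) ≤ ((D : ℝ) ^ p) ^ (1 / p) :=
          Real.rpow_le_rpow (J_nonneg _ _ _) h1 (by positivity)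
      _ = D := by rw [← Real.rpow_mul (Nat.cast_nonneg _), mul_one_div_cancel hp0.ne', Real.rpow_one]
  have hne : S.Nonempty := ⟨_, T0, le_rfl, hT0, rfl⟩
  set G := sSup S with hGdef
  have hG0 : 0 ≤ G := by
    obtain ⟨g, hg⟩ := hne
    have : 0 ≤ g := by
      obtain ⟨T, _, _, rfl⟩ := hg
      exact Real.rpow_nonneg (J_nonneg _ _ _) _
    exact this.trans (le_csSup hbdd hg)
  have hpow : ∀ (T : STree X) (C : ℝ), (T.J p 0) ^ (1 / p) ≤ C → T.J p 0 ≤ C ^ p := by
    intro T C h
    calc T.J p 0 = ((T.J p 0) ^ (1 / p)) ^ p := by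
          rw [← Real.rpow_mul (J_nonneg _ _ _), one_div_mul_cancel hp0.ne', Real.rpow_one]
      _ ≤ C ^ p := Real.rpow_le_rpow (Real.rpow_nonneg (J_nonneg _ _ _) _) h hp0.le
  have hG : ∀ T : STree X, depth T ≤ D → T.Clock s 1 → T.J p 0 ≤ G ^ p := by
    intro T hTD hTC
    exact hpow T G (le_csSup hbdd ⟨T, hTD, hTC, rfl⟩)
  set B : ℝ := (n : ℝ) ^ (-(1 / s)) * G with hB
  have hB0 : 0 ≤ B := by positivity
  have hB1 : 0 < 1 + B := by linarith
  have himp : ∀ g ∈ S, g ≤ (n / 2) * (1 + B) := by
    rintro g ⟨T, hTD, hTC, rfl⟩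
    have hΔ : ∀ b : ℕ → ℝ, ‖∑ i : Fin n, b i • ((1 / (1 + B)) • vec p D
        (fun ω => bs (relab s n (fun k => if k = (i : ℕ) then 1 else 0) 0 T) D ω))‖ =
        (1 / (1 + B)) * ((relab s n b 0 T).J p 0) ^ (1 / p) := by
      intro b
      have e : ∑ i : Fin n, b i • ((1 / (1 + B)) • vec p D
          (fun ω => bs (relab s n (fun k => if k = (i : ℕ) then 1 else 0) 0 T) D ω)) =
          (1 / (1 + B)) • ∑ i : Fin n, b i • vec p D
          (fun ω => bs (relab s n (fun k => if k = (i : ℕ) then 1 else 0) 0 T) D ω) := by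
        rw [Finset.smul_sum]
        apply Finset.sum_congr rfl
        intro i _
        rw [smul_comm]
      rw [e, comb hn b T, norm_smul, Real.norm_of_nonneg (by positivity),
        norm_vec_bs hp _ 0 D (by rw [depth_relab]; exact hTD)]
    have h1 := H D (fun i => (1 / (1 + B)) • vec p D
        (fun ω => bs (relab s n (fun k => if k = (i : ℕ) then 1 else 0) 0 T) D ω)) (by
      intro i
      have h2 := norm_vec_bs hp (relab s n (fun k => if k = (i : ℕ) then 1 else 0) 0 T) 0 D
        (by rw [depth_relab]; exact hTD)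
      simp only [zero_add] at h2
      rw [norm_smul, h2, Real.norm_of_nonneg (by positivity)]
      have h3 := block_J hp hs hn hG0 hG (i : ℕ) i.2 T 0 le_rfl hTD (by rw [sub_zero]; exact hTC)
      have h4 : ((relab s n (fun k => if k = (i : ℕ) then 1 else 0) 0 T).J p 0) ^ (1 / p) ≤ 1 + B := by
        calc _ ≤ ((1 + B) ^ p) ^ (1 / p) :=
              Real.rpow_le_rpow (J_nonneg _ _ _) h3 (by positivity)
          _ = 1 + B := by
              rw [← Real.rpow_mul hB1.le, mul_one_div_cancel hp0.ne', Real.rpow_one]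
      rw [one_div_mul_eq_div, div_le_one hB1]
      exact h4) (by
      intro a j
      have ea : ∀ i : Fin n, a i = (fun k : ℕ => if h : k < n then a ⟨k, h⟩ else 0) (i : ℕ) := by
        intro i
        simp [i.2]
      have h5 := hΔ (fun k : ℕ => if h : k < n then a ⟨k, h⟩ else 0)
      have h6 := hΔ (fun k : ℕ => if k ≤ (j : ℕ) then
        (fun k : ℕ => if h : k < n then a ⟨k, h⟩ else 0) k else 0)
      have h7 : ∀ i : Fin n, (if i ≤ j then a i else 0) = (fun k : ℕ => if k ≤ (j : ℕ) then
        (fun k : ℕ => if h : k < n then a ⟨k, h⟩ else 0) k else 0) (i : ℕ) := by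
        intro i
        simp only [Fin.le_def, ← ea i]
      rw [Finset.sum_congr rfl (fun i _ => by rw [h7 i]), h6,
        Finset.sum_congr rfl (fun i _ => by rw [ea i]), h5]
      apply mul_le_mul_of_nonneg_left _ (by positivity)
      apply Real.rpow_le_rpow (J_nonneg _ _ _) _ (by positivity)
      exact J_trunc_le hp _ j T 0 0)
    have h8 := hΔ (fun _ => 1)
    simp only [one_smul] at h8
    rw [h8, relab_one, one_div_mul_eq_div, div_le_iff₀ hB1] at h1
    exact h1
  have hGle : G ≤ (n / 2) * (1 + B) := csSup_le hne himp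
  have hnB : (n : ℝ) * B ≤ (3 / 2) * G := by
    have e : (n : ℝ) * B = (n : ℝ) ^ (1 - 1 / s) * G := by
      rw [hB, ← mul_assoc]
      congr 1
      rw [sub_eq_add_neg, Real.rpow_add hn0, Real.rpow_one]
    rw [e]
    exact mul_le_mul_of_nonneg_right hns hG0
  have hGfin : G ≤ 2 * n := by linarith
  refine (hG T0 le_rfl hT0).trans ?_
  exact Real.rpow_le_rpow hG0 hGfin hp0.le

end Vale.Agent.P125
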