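import Vale.Agent.P125.MarkovType

/-!
# Auxiliary definitions for the proof: James structures and walk trees
-/

open scoped BigOperators Topology

namespace Vale.Agent.P125

/-- A James structure of length `M` with constant `θ` in the normed space `Y`. -/
def JamesStr (Y : Type*) [NormedAddCommGroup Y] [NormedSpace ℝ Y] (M : ℕ) (θ : ℝ) : Prop :=
  ∃ (x : ℕ → Y) (f : ℕ → Y →L[ℝ] ℝ), (∀ i < M, ‖x i‖ ≤ 1) ∧ (∀ j < M, ‖f j‖ ≤ 1) ∧
    ∀ i < M, ∀ j < M, f j (x i) = if i ≤ j then θ else 0

/-- Finite binary trees with a vector at every internal node.  The tree `node y l r`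
describes the martingale which makes the step `+y` and continues with `l`, or makes the
step `-y` and continues with `r`, each with probability `1/2`. -/
inductive STree (X : Type*) : Type _
  | leaf : STree X
  | node (y : X) (l r : STree X) : STree X

/-- `J p x T = 𝔼 ‖x + D_T‖ ^ p`, where `D_T` is the final value of the martingale of `T`. -/
noncomputable def STree.J {X : Type*} [NormedAddCommGroup X] (p : ℝ) : X → STree X → ℝ
  | x, .leaf => ‖x‖ ^ p
  | x, .node y l r => (STree.J p (x + y) l + STree.J p (x - y) r) / 2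

/-- The clock `∑ ‖d_k‖ ^ s` is at most `t` along every branch. -/
def STree.Clock {X : Type*} [NormedAddCommGroup X] (s : ℝ) : ℝ → STree X → Prop
  | t, .leaf => 0 ≤ t
  | t, .node y l r => ‖y‖ ^ s ≤ t ∧ STree.Clock s (t - ‖y‖ ^ s) l ∧
      STree.Clock s (t - ‖y‖ ^ s) r

end Vale.Agent.P125
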