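import Vale.Agent.P125.WalkDefs

/-!
# Nesting of the arcs of the edges of the walk
-/

namespace Vale.Agent.P125

namespace GeoAux

/-- `0` for a forward step, `1` for a backward step. -/
def zz (b : Bool) : ℕ := if b then 0 else 1

theorem zz_le (b : Bool) : zz b ≤ 1 := by cases b <;> simp [zz]

theorem sh_eq (b : Bool) : sh b = 2 * zz b := by cases b <;> rfl

theorem sh_not_eq (b : Bool) : sh (!b) + 2 * zz b = 2 := by cases b <;> rfl

theorem bidx_0 (d i b : ℕ) : bidx d i (4 * b) = 2 * i + 2 * (d * b) := by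
  have h1 : 4 * b / 4 = b := by omega
  have h2 : 4 * b % 4 = 0 := by omega
  rw [bidx, h1, h2, mul_assoc]; simp

theorem bidx_1 (d i b : ℕ) : bidx d i (4 * b + 1) = 2 * i + 2 * (d * b) + 1 := by
  have h1 : (4 * b + 1) / 4 = b := by omega
  have h2 : (4 * b + 1) % 4 = 1 := by omega
  rw [bidx, h1, h2, mul_assoc]; simp

theorem bidx_2 (d i b : ℕ) : bidx d i (4 * b + 2) = 2 * i + 2 * (d * b) + 2 := by
  have h1 : (4 * b + 2) / 4 = b := by omega
  have h2 : (4 * b + 2) % 4 = 2 := by omega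
  rw [bidx, h1, h2, mul_assoc]; simp

theorem bidx_3 (d i b : ℕ) : bidx d i (4 * b + 3) = 2 * i + 2 * (d * b) + (2 * d - 1) := by
  have h1 : (4 * b + 3) / 4 = b := by omega
  have h2 : (4 * b + 3) % 4 = 3 := by omega
  rw [bidx, h1, h2, mul_assoc]; simp

theorem bidx_lt {d : ℕ} (hd : 2 ≤ d) (i q : ℕ) : bidx d i q < bidx d i (q + 1) := by
  obtain ⟨b, rfl | rfl | rfl | rfl⟩ : ∃ b, q = 4 * b ∨ q = 4 * b + 1 ∨ q = 4 * b + 2 ∨
      q = 4 * b + 3 := ⟨q / 4, by omega⟩
  · rw [bidx_0, bidx_1]; omega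
  · rw [bidx_1, bidx_2]; omega
  · rw [bidx_2, bidx_3]; omega
  · have : 4 * b + 3 + 1 = 4 * (b + 1) := by ring
    rw [this, bidx_3, bidx_0, Nat.mul_add]; omega

/-- Short departure arcs lie inside long arrival arcs. -/
theorem arc_even {d i i' M M' : ℕ} (hi : i < d) (hi' : i' < d) (hne : i ≠ i')
    (hM : M % 2 = 0) (hM' : (i' < i → M' = M + 1) ∧ (i < i' → M' + 1 = M)) :
    bidx d i' (2 * M') ≤ bidx d i (2 * M) ∧ bidx d i (2 * M + 1) ≤ bidx d i' (2 * M' + 1) := by
  obtain ⟨b, rfl⟩ : ∃ b, M = 2 * b := ⟨M / 2, by omega⟩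
  have e1 : 2 * (2 * b) = 4 * b := by ring
  rw [e1, bidx_0, bidx_1]
  rcases lt_or_gt_of_ne hne with h | h
  · have h2 := hM'.2 h
    obtain ⟨b', rfl⟩ : ∃ b', b = b' + 1 := ⟨b - 1, by omega⟩
    have h3 : M' = 2 * b' + 1 := by omega
    subst h3
    have e2 : 2 * (2 * b' + 1) = 4 * b' + 2 := by ring
    rw [e2, bidx_2, bidx_3, Nat.mul_add]
    omega
  · have h2 := hM'.1 h
    subst h2
    have e2 : 2 * (2 * b + 1) = 4 * b + 2 := by ring
    rw [e2, bidx_2, bidx_3]
    omega

/-- Short arrival arcs lie inside long departure arcs. -/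
theorem arc_odd {d i i' M M' : ℕ} (hi : i < d) (hi' : i' < d) (hne : i ≠ i')
    (hM : M % 2 = 1) (hM' : (i' < i → M' = M + 1) ∧ (i < i' → M' + 1 = M)) :
    bidx d i (2 * M) ≤ bidx d i' (2 * M') ∧ bidx d i' (2 * M' + 1) ≤ bidx d i (2 * M + 1) := by
  obtain ⟨b, rfl⟩ : ∃ b, M = 2 * b + 1 := ⟨M / 2, by omega⟩
  have e1 : 2 * (2 * b + 1) = 4 * b + 2 := by ring
  rw [e1, bidx_2, bidx_3]
  rcases lt_or_gt_of_ne hne with h | h
  · have h2 := hM'.2 h
    have h3 : M' = 2 * b := by omega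
    subst h3
    have e2 : 2 * (2 * b) = 4 * b := by ring
    rw [e2, bidx_0, bidx_1]
    omega
  · have h2 := hM'.1 h
    subst h2
    have e2 : 2 * (2 * b + 1 + 1) = 4 * (b + 1) := by ring
    rw [e2, bidx_0, bidx_1, Nat.mul_add]
    omega

/-- The accumulated index shift. -/
def tt (σ : ℕ → Bool) (i i' : ℕ → ℕ) : ℕ → ℤ
  | 0 => 0
  | s + 1 => tt σ i i' s - ((zz (σ (s + 1)) : ℤ) + (if i' s < i (s + 1) then 1 else -1) -
      (1 - (zz (σ s) : ℤ)))

theorem tt_bound (σ : ℕ → Bool) (i i' : ℕ → ℕ) (s : ℕ) :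
    -(2 * (s : ℤ)) ≤ tt σ i i' s ∧ tt σ i i' s ≤ 2 * s := by
  induction s with
  | zero => simp [tt]
  | succ s ih =>
    have h1 := zz_le (σ (s + 1))
    have h2 := zz_le (σ s)
    rw [tt]
    push_cast
    split_ifs <;> constructor <;> omega

theorem tt_parity (σ : ℕ → Bool) (i i' : ℕ → ℕ) (s : ℕ) :
    (tt σ i i' s + zz (σ s)) % 2 = (zz (σ 0) : ℤ) % 2 := by
  induction s with
  | zero => simp [tt]
  | succ s ih =>
    have h1 := zz_le (σ (s + 1))
    have h2 := zz_le (σ s)
    have h3 := zz_le (σ 0)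
    rw [tt]
    split_ifs <;> omega

end GeoAux

open GeoAux in
/-- Nesting of arcs: the arcs of the `n` edges used by the walk contain a common alternating
family of `r - 4 * n` arcs. -/
theorem geo {d r n : ℕ} (hd : 2 ≤ d) (hn : 1 ≤ n) (hr : 4 * n ≤ r) (V : ℕ → ℕ → ℕ)
    (hV : ∀ s, StrictMono (V s)) (σ : ℕ → Bool) (i i' : ℕ → ℕ) (hi : ∀ s, i s < d)
    (hi' : ∀ s, i' s < d)
    (hE : ∀ s < n, ∀ q < 2 * r, V s (bidx d (i s) (q + sh (σ s))) =
      V (s + 1) (bidx d (i' s) (q + sh (!(σ s)))))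
    (hne : ∀ s, s + 1 < n → i (s + 1) ≠ i' s) :
    ∃ (A : ℕ → ℕ) (ς : ℝ), (ς = 1 ∨ ς = -1) ∧
      (∀ a b, a < b → b < 2 * (r - 4 * n) → A a < A b) ∧
      ∀ q < r - 4 * n, ∀ s < n, ∃ m < r,
        V s (bidx d (i s) (2 * m + sh (σ s))) ≤ A (2 * q) ∧
        A (2 * q + 1) ≤ V s (bidx d (i s) (2 * m + 1 + sh (σ s))) ∧
        (if σ s then (1 : ℝ) else -1) * (-1) ^ m = ς * (-1) ^ q := by
  classical
  set T : ℕ → ℕ := fun s => (2 * (n : ℤ) + tt σ i i' s).toNat with hT
  have hTc : ∀ s < n, (T s : ℤ) = 2 * n + tt σ i i' s := by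
    intro s hs
    have := tt_bound σ i i' s
    simp only [hT]
    rw [Int.toNat_of_nonneg (by omega)]
  have hT1 : ∀ s < n, 2 ≤ T s ∧ T s + 2 ≤ 4 * n := by
    intro s hs
    have := tt_bound σ i i' s
    have h2 := hTc s hs
    omega
  have hTpar : ∀ s < n, (T s + zz (σ s)) % 2 = zz (σ 0) % 2 := by
    intro s hs
    have h1 := tt_parity σ i i' s
    have h2 := hTc s hs
    omega
  set e : ℕ → ℕ → ℕ := fun s k => V s (bidx d (i s) (k + sh (σ s))) with he
  have hemono : ∀ s, StrictMono (e s) := by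
    intro s
    refine strictMono_nat_of_lt_succ fun k => ?_
    simp only [he]
    refine hV s ?_
    have : k + 1 + sh (σ s) = k + sh (σ s) + 1 := by ring
    rw [this]
    exact bidx_lt hd _ _
  -- one step
  have step : ∀ s, s + 1 < n → ∀ q, q + 4 * n ≤ r →
      ((q + zz (σ 0)) % 2 = 0 → e s (2 * (q + T s)) ≤ e (s + 1) (2 * (q + T (s + 1))) ∧
        e (s + 1) (2 * (q + T (s + 1)) + 1) ≤ e s (2 * (q + T s) + 1)) ∧
      ((q + zz (σ 0)) % 2 = 1 → e (s + 1) (2 * (q + T (s + 1))) ≤ e s (2 * (q + T s)) ∧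
        e s (2 * (q + T s) + 1) ≤ e (s + 1) (2 * (q + T (s + 1)) + 1)) := by
    intro s hs q hq
    have hs' : s < n := by omega
    have b1 := hT1 s hs'
    have b2 := hT1 (s + 1) hs
    have c1 := hTc s hs'
    have c2 := hTc (s + 1) hs
    have p2 := hTpar (s + 1) hs
    have z1 := zz_le (σ s)
    have z2 := zz_le (σ (s + 1))
    have z0 := zz_le (σ 0)
    have hsh1 := sh_eq (σ (s + 1))
    have hsh2 := sh_not_eq (σ s)
    have htt : tt σ i i' (s + 1) = tt σ i i' s - ((zz (σ (s + 1)) : ℤ) +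
        (if i' s < i (s + 1) then 1 else -1) - (1 - (zz (σ s) : ℤ))) := rfl
    -- rewrite the points of the edge `s` at the vertex `s + 1`
    have w1 : e s (2 * (q + T s)) =
        V (s + 1) (bidx d (i' s) (2 * (q + T s + (1 - zz (σ s))))) := by
      simp only [he]
      rw [hE s hs' _ (by omega)]
      congr 2; omega
    have w2 : e s (2 * (q + T s) + 1) =
        V (s + 1) (bidx d (i' s) (2 * (q + T s + (1 - zz (σ s))) + 1)) := by
      simp only [he]
      rw [hE s hs' _ (by omega)]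
      congr 2; omega
    have w3 : e (s + 1) (2 * (q + T (s + 1))) =
        V (s + 1) (bidx d (i (s + 1)) (2 * (q + T (s + 1) + zz (σ (s + 1))))) := by
      simp only [he]
      congr 2; omega
    have w4 : e (s + 1) (2 * (q + T (s + 1)) + 1) =
        V (s + 1) (bidx d (i (s + 1)) (2 * (q + T (s + 1) + zz (σ (s + 1))) + 1)) := by
      simp only [he]
      congr 2; omega
    have hMM : (i' s < i (s + 1) → q + T s + (1 - zz (σ s)) =
        q + T (s + 1) + zz (σ (s + 1)) + 1) ∧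
        (i (s + 1) < i' s → q + T s + (1 - zz (σ s)) + 1 =
          q + T (s + 1) + zz (σ (s + 1))) := by
      constructor
      · intro h
        rw [if_pos h] at htt
        omega
      · intro h
        rw [if_neg (by omega)] at htt
        omega
    rw [w1, w2, w3, w4]
    constructor
    · intro hpar
      have := arc_even (d := d) (hi (s + 1)) (hi' s) (hne s hs)
        (M := q + T (s + 1) + zz (σ (s + 1))) (M' := q + T s + (1 - zz (σ s))) (by omega) hMM
      exact ⟨(hV (s + 1)).monotone this.1, (hV (s + 1)).monotone this.2⟩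
    · intro hpar
      have := arc_odd (d := d) (hi (s + 1)) (hi' s) (hne s hs)
        (M := q + T (s + 1) + zz (σ (s + 1))) (M' := q + T s + (1 - zz (σ s))) (by omega) hMM
      exact ⟨(hV (s + 1)).monotone this.1, (hV (s + 1)).monotone this.2⟩
  -- many steps
  have chain0 : ∀ q, q + 4 * n ≤ r → (q + zz (σ 0)) % 2 = 0 → ∀ s s', s ≤ s' → s' < n →
      e s (2 * (q + T s)) ≤ e s' (2 * (q + T s')) ∧
        e s' (2 * (q + T s') + 1) ≤ e s (2 * (q + T s) + 1) := by
    intro q hq hpar s s' hss'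
    induction s', hss' using Nat.le_induction with
    | base => intro _; exact ⟨le_rfl, le_rfl⟩
    | succ k hk ih =>
      intro hk2
      have h1 := ih (by omega)
      have h2 := (step k hk2 q hq).1 hpar
      exact ⟨h1.1.trans h2.1, h2.2.trans h1.2⟩
  have chain1 : ∀ q, q + 4 * n ≤ r → (q + zz (σ 0)) % 2 = 1 → ∀ s s', s ≤ s' → s' < n →
      e s' (2 * (q + T s')) ≤ e s (2 * (q + T s)) ∧
        e s (2 * (q + T s) + 1) ≤ e s' (2 * (q + T s') + 1) := by
    intro q hq hpar s s' hss'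
    induction s', hss' using Nat.le_induction with
    | base => intro _; exact ⟨le_rfl, le_rfl⟩
    | succ k hk ih =>
      intro hk2
      have h1 := ih (by omega)
      have h2 := (step k hk2 q hq).2 hpar
      exact ⟨h2.1.trans h1.1, h1.2.trans h2.2⟩
  set A : ℕ → ℕ := fun k => if (k / 2 + zz (σ 0)) % 2 = 0 then e (n - 1) (k + 2 * T (n - 1))
    else e 0 (k + 2 * T 0) with hA
  have hA0 : ∀ q, (q + zz (σ 0)) % 2 = 0 → A (2 * q) = e (n - 1) (2 * (q + T (n - 1))) ∧
      A (2 * q + 1) = e (n - 1) (2 * (q + T (n - 1)) + 1) := by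
    intro q hq
    have h1 : 2 * q / 2 = q := by omega
    have h2 : (2 * q + 1) / 2 = q := by omega
    simp only [hA, h1, h2, if_pos hq]
    constructor <;> congr 1 <;> ring
  have hA1 : ∀ q, (q + zz (σ 0)) % 2 = 1 → A (2 * q) = e 0 (2 * (q + T 0)) ∧
      A (2 * q + 1) = e 0 (2 * (q + T 0) + 1) := by
    intro q hq
    have h1 : 2 * q / 2 = q := by omega
    have h2 : (2 * q + 1) / 2 = q := by omega
    have h3 : ¬ (q + zz (σ 0)) % 2 = 0 := by omega
    simp only [hA, h1, h2, if_neg h3]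
    constructor <;> congr 1 <;> ring
  refine ⟨A, if σ 0 then 1 else -1, ?_, ?_, ?_⟩
  · split_ifs <;> simp
  · -- monotonicity
    have hcons : ∀ a, a + 1 < 2 * (r - 4 * n) → A a < A (a + 1) := by
      intro a ha
      obtain ⟨q, rfl | rfl⟩ : ∃ q, a = 2 * q ∨ a = 2 * q + 1 := ⟨a / 2, by omega⟩
      · rcases Nat.mod_two_eq_zero_or_one (q + zz (σ 0)) with h | h
        · rw [(hA0 q h).1, (hA0 q h).2]
          exact hemono _ (Nat.lt_succ_self _)
        · rw [(hA1 q h).1, (hA1 q h).2]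
          exact hemono _ (Nat.lt_succ_self _)
      · have e1 : 2 * q + 1 + 1 = 2 * (q + 1) := by ring
        rw [e1]
        rcases Nat.mod_two_eq_zero_or_one (q + zz (σ 0)) with h | h
        · have h' : (q + 1 + zz (σ 0)) % 2 = 1 := by omega
          rw [(hA0 q h).2, (hA1 (q + 1) h').1]
          have h1 := (chain0 q (by omega) h 0 (n - 1) (by omega) (by omega)).2
          refine lt_of_le_of_lt h1 (hemono 0 (by omega))
        · have h' : (q + 1 + zz (σ 0)) % 2 = 0 := by omega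
          rw [(hA1 q h).2, (hA0 (q + 1) h').1]
          have h1 := (chain0 (q + 1) (by omega) h' 0 (n - 1) (by omega) (by omega)).1
          refine lt_of_lt_of_le (hemono 0 (by omega)) h1
    intro a b hab
    induction b, hab using Nat.le_induction with
    | base => intro hb; exact hcons a hb
    | succ k hk ih =>
      intro hb
      exact (ih (by omega)).trans (hcons k hb)
  · intro q hq s hs
    have b1 := hT1 s hs
    have p1 := hTpar s hs
    have z1 := zz_le (σ s)
    have z0 := zz_le (σ 0)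
    refine ⟨q + T s, by omega, ?_, ?_, ?_⟩
    · rcases Nat.mod_two_eq_zero_or_one (q + zz (σ 0)) with h | h
      · rw [(hA0 q h).1]
        exact (chain0 q (by omega) h s (n - 1) (by omega) (by omega)).1
      · rw [(hA1 q h).1]
        exact (chain1 q (by omega) h 0 s (by omega) hs).1
    · rcases Nat.mod_two_eq_zero_or_one (q + zz (σ 0)) with h | h
      · rw [(hA0 q h).2]
        exact (chain0 q (by omega) h s (n - 1) (by omega) (by omega)).2
      · rw [(hA1 q h).2]
        exact (chain1 q (by omega) h 0 s (by omega) hs).2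
    · have key : ∀ b : Bool, (if b then (1 : ℝ) else -1) = (-1) ^ zz b := by
        intro b; cases b <;> simp [zz]
      rw [key, key, ← pow_add, ← pow_add]
      have hpar : (zz (σ s) + (q + T s)) % 2 = (zz (σ 0) + q) % 2 := by omega
      rw [neg_one_pow_eq_pow_mod_two, hpar, ← neg_one_pow_eq_pow_mod_two]

end Vale.Agent.P125
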