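import Vale.Agent.P125.Defs

/-!
# Patterns in a James structure and the minimal norm `kap`
-/

open scoped BigOperators Topology

namespace Vale.Agent.P125

section kap
variable {Y : Type*} [NormedAddCommGroup Y] [NormedSpace ℝ Y]

/-- the vectors which are `≥ θ` on even arcs and `≤ -θ` on odd arcs. -/
def Pat (f : ℕ → Y →L[ℝ] ℝ) (θ : ℝ) (L : ℕ) (A : ℕ → ℕ) : Set Y :=
  {z | ∀ q < L, ∀ k, A (2 * q) < k → k ≤ A (2 * q + 1) → θ ≤ (-1) ^ q * f k z}

/-- the least norm of a vector with a given pattern. -/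
noncomputable def kap (f : ℕ → Y →L[ℝ] ℝ) (θ : ℝ) (L : ℕ) (A : ℕ → ℕ) : ℝ :=
  sInf ((fun z : Y => ‖z‖) '' Pat f θ L A)

variable {f : ℕ → Y →L[ℝ] ℝ} {θ : ℝ} {L : ℕ} {A B : ℕ → ℕ}

lemma Pat_congr (h : ∀ j < 2 * L, A j = B j) : Pat f θ L A = Pat f θ L B := by
  ext z
  simp only [Pat, Set.mem_ofPred_eq]
  refine forall_congr' fun q => forall_congr' fun hq => ?_
  rw [h (2 * q) (by omega), h (2 * q + 1) (by omega)]

lemma kap_congr (h : ∀ j < 2 * L, A j = B j) : kap f θ L A = kap f θ L B := by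
  rw [kap, kap, Pat_congr h]

lemma kap_nonneg : 0 ≤ kap f θ L A := by
  refine Real.sInf_nonneg ?_
  rintro _ ⟨z, -, rfl⟩
  exact norm_nonneg z

lemma kap_le {z : Y} (hz : z ∈ Pat f θ L A) : kap f θ L A ≤ ‖z‖ := by
  refine csInf_le ⟨0, ?_⟩ ⟨z, hz, rfl⟩
  rintro _ ⟨z, -, rfl⟩
  exact norm_nonneg z

/-- the witness coefficients -/
def cf (q : ℕ) : ℝ := if q = 0 then 1 else 2 * (-1) ^ q

lemma sum_cf (q : ℕ) : ∑ j ∈ Finset.range (q + 1), cf j = (-1) ^ q := by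
  induction q with
  | zero => simp [cf]
  | succ n ih =>
    rw [Finset.sum_range_succ, ih]
    simp only [cf, Nat.succ_ne_zero, if_false]
    ring

lemma abs_cf_le (q : ℕ) : |cf q| ≤ 2 := by
  unfold cf
  split_ifs
  · norm_num
  · rw [abs_mul, abs_pow]; simp

/-- existence of a vector with a given pattern. -/
lemma exists_pat {M : ℕ} {x : ℕ → Y} (hx : ∀ i < M, ‖x i‖ ≤ 1)
    (hfx : ∀ i < M, ∀ j < M, f j (x i) = if i ≤ j then θ else 0)
    (hA : ∀ a b, a < b → b < 2 * L → A a < A b) (hM : ∀ j < 2 * L, A j < M) :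
    ∃ z ∈ Pat f θ L A, ‖z‖ ≤ 2 * L := by
  refine ⟨∑ q ∈ Finset.range L, cf q • x (A (2 * q) + 1), ?_, ?_⟩
  · intro q hq k hk1 hk2
    have hkM : k < M := lt_of_le_of_lt hk2 (hM _ (by omega))
    have hlt : ∀ j < L, A (2 * j) + 1 < M := fun j hj =>
      lt_of_le_of_lt (hA (2 * j) (2 * j + 1) (by omega) (by omega)) (hM _ (by omega))
    have h1 : f k (∑ q ∈ Finset.range L, cf q • x (A (2 * q) + 1)) =
        ∑ j ∈ Finset.range L, if j < q + 1 then cf j * θ else 0 := by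
      rw [map_sum]
      refine Finset.sum_congr rfl fun j hj => ?_
      rw [Finset.mem_range] at hj
      rw [map_smul, hfx _ (hlt j hj) _ hkM, smul_eq_mul]
      by_cases hjq : j < q + 1
      · rw [if_pos hjq, if_pos]
        rcases Nat.lt_succ_iff_lt_or_eq.1 hjq with h | h
        · have := hA (2 * j) (2 * q) (by omega) (by omega)
          omega
        · subst h; omega
      · rw [if_neg hjq, if_neg, mul_zero]
        have h2 : 2 * q + 1 < 2 * j := by omega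
        have := hA (2 * q + 1) (2 * j) h2 (by omega)
        omega
    rw [h1, ← Finset.sum_filter]
    have h2 : Finset.filter (fun j => j < q + 1) (Finset.range L) = Finset.range (q + 1) := by
      ext j; simp only [Finset.mem_filter, Finset.mem_range]; omega
    rw [h2, ← Finset.sum_mul, sum_cf, ← mul_assoc, ← mul_pow]
    norm_num
  · refine (norm_sum_le _ _).trans ?_
    calc ∑ q ∈ Finset.range L, ‖cf q • x (A (2 * q) + 1)‖ ≤ ∑ q ∈ Finset.range L, (2 : ℝ) := by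
          refine Finset.sum_le_sum fun j hj => ?_
          rw [Finset.mem_range] at hj
          rw [norm_smul, Real.norm_eq_abs]
          have h1 : ‖x (A (2 * j) + 1)‖ ≤ 1 := hx _ <|
            lt_of_le_of_lt (hA (2 * j) (2 * j + 1) (by omega) (by omega)) (hM _ (by omega))
          have h2 := abs_cf_le j
          nlinarith [norm_nonneg (x (A (2 * j) + 1)), abs_nonneg (cf j)]
      _ = 2 * L := by simp [mul_comm]

lemma le_norm_of_pat {M : ℕ} (hθ : 0 < θ) (hf : ∀ j < M, ‖f j‖ ≤ 1) (hL : 1 ≤ L)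
    (hA : ∀ a b, a < b → b < 2 * L → A a < A b) (hM : ∀ j < 2 * L, A j < M) {z : Y}
    (hz : z ∈ Pat f θ L A) : θ ≤ ‖z‖ := by
  have h := hz 0 (by omega) (A 1) (hA 0 1 (by omega) (by omega)) (by simp)
  rw [pow_zero, one_mul] at h
  have h1 : f (A 1) z ≤ ‖f (A 1)‖ * ‖z‖ := (le_abs_self _).trans ((f (A 1)).le_opNorm z)
  have h2 := hf (A 1) (hM 1 (by omega))
  nlinarith [norm_nonneg z]

lemma le_kap {M : ℕ} (hθ : 0 < θ) {x : ℕ → Y} (hx : ∀ i < M, ‖x i‖ ≤ 1)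
    (hf : ∀ j < M, ‖f j‖ ≤ 1) (hfx : ∀ i < M, ∀ j < M, f j (x i) = if i ≤ j then θ else 0)
    (hL : 1 ≤ L) (hA : ∀ a b, a < b → b < 2 * L → A a < A b) (hM : ∀ j < 2 * L, A j < M) :
    θ ≤ kap f θ L A := by
  obtain ⟨z, hz, -⟩ := exists_pat hx hfx hA hM
  refine le_csInf ⟨_, z, hz, rfl⟩ ?_
  rintro _ ⟨z, hz, rfl⟩
  exact le_norm_of_pat hθ hf hL hA hM hz

lemma kap_le_two_mul {M : ℕ} {x : ℕ → Y} (hx : ∀ i < M, ‖x i‖ ≤ 1)
    (hfx : ∀ i < M, ∀ j < M, f j (x i) = if i ≤ j then θ else 0)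
    (hA : ∀ a b, a < b → b < 2 * L → A a < A b) (hM : ∀ j < 2 * L, A j < M) :
    kap f θ L A ≤ 2 * L := by
  obtain ⟨z, hz, hz'⟩ := exists_pat hx hfx hA hM
  exact (kap_le hz).trans hz'

lemma exists_near {M : ℕ} (hθ : 0 < θ) {x : ℕ → Y} (hx : ∀ i < M, ‖x i‖ ≤ 1)
    (hf : ∀ j < M, ‖f j‖ ≤ 1) (hfx : ∀ i < M, ∀ j < M, f j (x i) = if i ≤ j then θ else 0)
    (hL : 1 ≤ L) (hA : ∀ a b, a < b → b < 2 * L → A a < A b) (hM : ∀ j < 2 * L, A j < M) :
    ∃ z ∈ Pat f θ L A, ‖z‖ ≤ 2 * kap f θ L A := by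
  obtain ⟨z, hz, -⟩ := exists_pat hx hfx hA hM
  have h1 := le_kap hθ hx hf hfx hL hA hM
  have h2 : kap f θ L A < 2 * kap f θ L A := by linarith
  obtain ⟨_, ⟨z, hz, rfl⟩, h3⟩ := exists_lt_of_csInf_lt (s := (fun z : Y => ‖z‖) '' Pat f θ L A)
    ⟨_, z, hz, rfl⟩ h2
  exact ⟨z, hz, h3.le⟩

/-- a vector which is large on the arcs has large norm. -/
lemma mul_kap_le {n : ℕ} (hn : 1 ≤ n) {ς : ℝ} (hς : ς = 1 ∨ ς = -1) {z : Y}
    (hz : ∀ q < L, ∀ k, A (2 * q) < k → k ≤ A (2 * q + 1) → n * θ ≤ ς * (-1) ^ q * f k z) :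
    n * kap f θ L A ≤ ‖z‖ := by
  have hn0 : (0 : ℝ) < n := by exact_mod_cast hn
  have hmem : (ς / n) • z ∈ Pat f θ L A := by
    intro q hq k h1 h2
    have := hz q hq k h1 h2
    rw [map_smul, smul_eq_mul]
    have h3 : (-1 : ℝ) ^ q * (ς / n * f k z) = (ς * (-1) ^ q * f k z) / n := by ring
    rw [h3, le_div_iff₀ hn0]
    linarith
  have h := kap_le hmem
  rw [norm_smul, norm_div, Real.norm_natCast] at h
  have h4 : ‖ς‖ = 1 := by rcases hς with rfl | rfl <;> simp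
  rw [h4] at h
  calc n * kap f θ L A ≤ n * (1 / n * ‖z‖) := by gcongr
    _ = ‖z‖ := by field_simp

end kap

end Vale.Agent.P125
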