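import Vale.Agent.P125.Defs

open scoped BigOperators Topology

namespace Vale.Agent.P125

namespace MonoAux

variable {Y : Type*} [NormedAddCommGroup Y] [NormedSpace ℝ Y] {n : ℕ}

/-- extension of the truncated functional -/
lemma exists_trunc (Δ : Fin n → Y)
    (hmono : ∀ (a : Fin n → ℝ) (j : Fin n),
      ‖∑ i, (if i ≤ j then a i else 0) • Δ i‖ ≤ ‖∑ i, a i • Δ i‖)
    (f : StrongDual ℝ Y) (hf : ‖f‖ ≤ 1) (j : Fin n) :
    ∃ g : StrongDual ℝ Y, ‖g‖ ≤ 1 ∧ ∀ a : Fin n → ℝ,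
      g (∑ i, a i • Δ i) = f (∑ i, (if i ≤ j then a i else 0) • Δ i) := by
  set Φ : (Fin n → ℝ) →ₗ[ℝ] Y := Fintype.linearCombination ℝ Δ with hΦ
  have hΦa : ∀ a, Φ a = ∑ i, a i • Δ i := fun a => Fintype.linearCombination_apply ℝ Δ a
  set Tr : (Fin n → ℝ) →ₗ[ℝ] (Fin n → ℝ) :=
    { toFun := fun a i => if i ≤ j then a i else 0
      map_add' := fun a b => by
        ext i
        by_cases h : i ≤ j <;> simp [h]
      map_smul' := fun c a => by
        ext i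
        by_cases h : i ≤ j <;> simp [h] } with hTr
  set Tj : (Fin n → ℝ) →ₗ[ℝ] ℝ := (f : Y →ₗ[ℝ] ℝ) ∘ₗ Φ ∘ₗ Tr with hTj
  have hTja : ∀ a, Tj a = f (∑ i, (if i ≤ j then a i else 0) • Δ i) := by
    intro a
    rw [hTj, LinearMap.comp_apply, LinearMap.comp_apply, hΦa]
    rfl
  have hbound : ∀ a, |Tj a| ≤ ‖Φ a‖ := by
    intro a
    rw [hTja, hΦa, ← Real.norm_eq_abs]
    calc ‖f (∑ i, (if i ≤ j then a i else 0) • Δ i)‖
        ≤ ‖f‖ * ‖∑ i, (if i ≤ j then a i else 0) • Δ i‖ := f.le_opNorm _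
      _ ≤ 1 * ‖∑ i, a i • Δ i‖ := mul_le_mul hf (hmono a j) (norm_nonneg _) zero_le_one
      _ = _ := one_mul _
  have hker : LinearMap.ker Φ ≤ LinearMap.ker Tj := by
    intro a ha
    rw [LinearMap.mem_ker] at ha ⊢
    have := hbound a
    rw [ha, norm_zero] at this
    exact abs_nonpos_iff.1 this
  set ℓ : LinearMap.range Φ →ₗ[ℝ] ℝ :=
    (LinearMap.ker Φ).liftQ Tj hker ∘ₗ (Φ.quotKerEquivRange).symm.toLinearMap with hℓ
  have hℓa : ∀ a, ℓ ⟨Φ a, LinearMap.mem_range_self Φ a⟩ = Tj a := by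
    intro a
    rw [hℓ, LinearMap.comp_apply, LinearEquiv.coe_coe,
      LinearMap.quotKerEquivRange_symm_apply_image Φ a (LinearMap.mem_range_self Φ a)]
    rfl
  have hℓb : ∀ y : LinearMap.range Φ, ‖ℓ y‖ ≤ 1 * ‖y‖ := by
    rintro ⟨_, a, rfl⟩
    rw [hℓa a, one_mul, Real.norm_eq_abs]
    exact hbound a
  obtain ⟨g, hg1, hg2⟩ := exists_extension_norm_eq (LinearMap.range Φ) (ℓ.mkContinuous 1 hℓb)
  refine ⟨g, ?_, fun a => ?_⟩
  · rw [hg2]
    exact LinearMap.mkContinuous_norm_le _ zero_le_one _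
  · have h1 := hg1 ⟨Φ a, LinearMap.mem_range_self Φ a⟩
    rw [LinearMap.mkContinuous_apply, hℓa a, hTja] at h1
    rw [← hΦa]
    exact h1

end MonoAux

open MonoAux

/-! (E) Mono.lean -/
theorem james_of_monotone {Y : Type*} [NormedAddCommGroup Y] [NormedSpace ℝ Y] {n M : ℕ} {θ : ℝ}
    (hθ : 0 < θ) (Δ : Fin n → Y) (h1 : ∀ i, ‖Δ i‖ ≤ 1)
    (hmono : ∀ (a : Fin n → ℝ) (j : Fin n),
      ‖∑ i, (if i ≤ j then a i else 0) • Δ i‖ ≤ ‖∑ i, a i • Δ i‖)
    (hsum : θ * n ≤ ‖∑ i, Δ i‖) (hM : (M : ℝ) ≤ θ * n / 2) : JamesStr Y M (θ / 2) := by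
  classical
  rcases Nat.eq_zero_or_pos M with hM0 | hMpos
  · subst hM0
    exact ⟨fun _ => 0, fun _ => 0, fun i hi => absurd hi (Nat.not_lt_zero i),
      fun i hi => absurd hi (Nat.not_lt_zero i), fun i hi => absurd hi (Nat.not_lt_zero i)⟩
  obtain ⟨f, hf1, hf2⟩ := exists_dual_vector'' ℝ (∑ i, Δ i)
  have hf2' : f (∑ i, Δ i) = ‖∑ i, Δ i‖ := by simpa using hf2
  have hfle : ∀ i, f (Δ i) ≤ 1 := by
    intro i
    calc f (Δ i) ≤ ‖f (Δ i)‖ := le_trans (le_abs_self _) (le_of_eq (Real.norm_eq_abs _).symm)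
      _ ≤ ‖f‖ * ‖Δ i‖ := f.le_opNorm _
      _ ≤ 1 * 1 := mul_le_mul hf1 (h1 i) (norm_nonneg _) zero_le_one
      _ = 1 := one_mul 1
  set G : Finset (Fin n) := Finset.univ.filter (fun i => θ / 2 ≤ f (Δ i)) with hG
  have hGcard : M ≤ G.card := by
    have e1 : θ * n ≤ ∑ i, f (Δ i) := by
      rw [← map_sum, hf2']; exact hsum
    have e2 : ∑ i, f (Δ i) ≤ ∑ i : Fin n, ((if i ∈ G then (1 : ℝ) else 0) + θ / 2) := by
      apply Finset.sum_le_sum
      intro i _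
      by_cases h : i ∈ G
      · rw [if_pos h]
        have := hfle i
        linarith
      · rw [if_neg h]
        rw [hG, Finset.mem_filter] at h
        push Not at h
        have := h (Finset.mem_univ i)
        linarith
    rw [Finset.sum_add_distrib, Finset.sum_const, Finset.card_univ, Fintype.card_fin, nsmul_eq_mul,
      Finset.sum_ite_mem, Finset.univ_inter, Finset.sum_const, nsmul_eq_mul, mul_one] at e2
    have e3 : (M : ℝ) ≤ G.card := by linarith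
    exact_mod_cast e3
  -- the increasing enumeration
  set g : Fin G.card ↪o Fin n := G.orderEmbOfFin rfl with hg
  have hgmem : ∀ k, g k ∈ G := fun k => Finset.orderEmbOfFin_mem G rfl k
  have hgf : ∀ k, θ / 2 ≤ f (Δ (g k)) := fun k => (Finset.mem_filter.1 (hgmem k)).2
  choose φ hφ1 hφ2 using fun j : Fin n => exists_trunc Δ hmono f hf1 j
  refine ⟨fun k => if hk : k < G.card then
      ((θ / 2) / f (Δ (g ⟨k, hk⟩))) • Δ (g ⟨k, hk⟩) else 0,
    fun k => if hk : k < G.card then φ (g ⟨k, hk⟩) else 0, ?_, ?_, ?_⟩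
  · intro k hk
    have hk' : k < G.card := lt_of_lt_of_le hk hGcard
    simp only [hk', dif_pos]
    have hpos : 0 < f (Δ (g ⟨k, hk'⟩)) := lt_of_lt_of_le (by linarith) (hgf _)
    rw [norm_smul, Real.norm_eq_abs, abs_of_nonneg (by positivity)]
    calc (θ / 2) / f (Δ (g ⟨k, hk'⟩)) * ‖Δ (g ⟨k, hk'⟩)‖ ≤ 1 * 1 :=
          mul_le_mul ((div_le_one hpos).2 (hgf _)) (h1 _) (norm_nonneg _) zero_le_one
      _ = 1 := one_mul 1
  · intro k hk
    have hk' : k < G.card := lt_of_lt_of_le hk hGcard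
    simp only [hk', dif_pos]
    exact hφ1 _
  · intro i hi j hj
    have hi' : i < G.card := lt_of_lt_of_le hi hGcard
    have hj' : j < G.card := lt_of_lt_of_le hj hGcard
    simp only [hi', hj', dif_pos]
    have hpos : 0 < f (Δ (g ⟨i, hi'⟩)) := lt_of_lt_of_le (by linarith) (hgf _)
    have e1 : Δ (g ⟨i, hi'⟩) = ∑ l, (if l = g ⟨i, hi'⟩ then (1 : ℝ) else 0) • Δ l := by
      simp [ite_smul]
    have e2 : φ (g ⟨j, hj'⟩) (Δ (g ⟨i, hi'⟩)) = if i ≤ j then f (Δ (g ⟨i, hi'⟩)) else 0 := by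
      conv_lhs => rw [e1]
      rw [hφ2]
      have e3 : ∀ l, (if l ≤ g ⟨j, hj'⟩ then (if l = g ⟨i, hi'⟩ then (1 : ℝ) else 0) else 0) =
          if l = g ⟨i, hi'⟩ then (if i ≤ j then (1 : ℝ) else 0) else 0 := by
        intro l
        by_cases hl : l = g ⟨i, hi'⟩
        · subst hl
          have : g ⟨i, hi'⟩ ≤ g ⟨j, hj'⟩ ↔ i ≤ j := by
            rw [OrderEmbedding.le_iff_le]; rfl
          simp [this]
        · simp [hl]
      simp only [e3]
      by_cases hij : i ≤ j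
      · simp [hij, ite_smul]
      · simp [hij]
    rw [map_smul, e2, smul_eq_mul]
    by_cases hij : i ≤ j
    · simp only [hij, if_true]
      field_simp
    · simp [hij]

theorem markovTypeWith_piLp {X : Type*} [NormedAddCommGroup X] [NormedSpace ℝ X] {Ω : Type*}
    [Fintype Ω] {K p : ℝ} [Fact (1 ≤ ENNReal.ofReal p)] (hp : 1 ≤ p) (h : MarkovTypeWith K p X) :
    MarkovTypeWith K p (PiLp (ENNReal.ofReal p) (fun _ : Ω => X)) := by
  have hp0 : 0 < p := lt_of_lt_of_le one_pos hp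
  have htr : (ENNReal.ofReal p).toReal = p := ENNReal.toReal_ofReal hp0.le
  have hnorm : ∀ x : PiLp (ENNReal.ofReal p) (fun _ : Ω => X), ‖x‖ ^ p = ∑ ω, ‖x ω‖ ^ p := by
    intro x
    rw [PiLp.norm_eq_sum (by rw [htr]; exact hp0), htr]
    rw [← Real.rpow_mul (Finset.sum_nonneg fun ω _ => Real.rpow_nonneg (norm_nonneg _) _),
      one_div_mul_cancel hp0.ne', Real.rpow_one]
  intro S _ _ P π hP f t ht
  have hdis : ∀ t, displacement P π f p t = ∑ ω, displacement P π (fun s => f s ω) p t := by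
    intro t
    unfold displacement
    simp only [hnorm, Finset.mul_sum]
    calc ∑ i, ∑ j, ∑ ω, π i * (P ^ t) i j * ‖(f j - f i) ω‖ ^ p
        = ∑ i, ∑ ω, ∑ j, π i * (P ^ t) i j * ‖(f j - f i) ω‖ ^ p :=
          Finset.sum_congr rfl (fun i _ => Finset.sum_comm)
      _ = ∑ ω, ∑ i, ∑ j, π i * (P ^ t) i j * ‖(f j - f i) ω‖ ^ p := Finset.sum_comm
      _ = ∑ ω, ∑ i, ∑ j, π i * (P ^ t) i j * ‖f j ω - f i ω‖ ^ p := rfl
  rw [hdis, hdis, Finset.mul_sum]
  apply Finset.sum_le_sum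
  intro ω _
  exact h S P π hP (fun s => f s ω) t ht

end Vale.Agent.P125
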