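import Vale.Agent.P125.Defs

/-! (G) the convex function obtained from bounded martingale trees -/

open scoped BigOperators Topology

namespace Vale.Agent.P125

namespace Renorm

/-- the two-point power mean -/
noncomputable def M (p u v : ℝ) : ℝ := ((u ^ p + v ^ p) / 2) ^ (1 / p)

lemma M_nonneg {p u v : ℝ} (hu : 0 ≤ u) (hv : 0 ≤ v) : 0 ≤ M p u v := by
  unfold M; positivity

lemma M_pow {p u v : ℝ} (hp : 1 ≤ p) (hu : 0 ≤ u) (hv : 0 ≤ v) :
    M p u v ^ p = (u ^ p + v ^ p) / 2 := by
  have hp0 : p ≠ 0 := by positivity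
  unfold M
  rw [← Real.rpow_mul (by positivity), one_div, inv_mul_cancel₀ hp0, Real.rpow_one]

lemma M_self {p c : ℝ} (hp : 1 ≤ p) (hc : 0 ≤ c) : M p c c = c := by
  have hp0 : p ≠ 0 := by positivity
  unfold M
  rw [add_self_div_two, ← Real.rpow_mul hc, mul_one_div_cancel hp0, Real.rpow_one]

lemma M_mono {p u v u' v' : ℝ} (hp : 1 ≤ p) (hu : 0 ≤ u) (hv : 0 ≤ v) (h1 : u ≤ u')
    (h2 : v ≤ v') : M p u v ≤ M p u' v' := by
  have hp0 : 0 ≤ p := by linarith
  unfold M
  gcongr

lemma M_smul {p u v c : ℝ} (hp : 1 ≤ p) (hc : 0 ≤ c) (hu : 0 ≤ u) (hv : 0 ≤ v) :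
    M p (c * u) (c * v) = c * M p u v := by
  have hp0 : p ≠ 0 := by positivity
  unfold M
  rw [Real.mul_rpow hc hu, Real.mul_rpow hc hv, ← mul_add, mul_div_assoc,
    Real.mul_rpow (by positivity) (by positivity), ← Real.rpow_mul hc,
    mul_one_div_cancel hp0, Real.rpow_one]

lemma M_add_le {p u v u' v' : ℝ} (hp : 1 ≤ p) (hu : 0 ≤ u) (hv : 0 ≤ v) (hu' : 0 ≤ u')
    (hv' : 0 ≤ v') : M p (u + u') (v + v') ≤ M p u v + M p u' v' := by
  have h := Real.Lp_add_le_of_nonneg (s := (Finset.univ : Finset (Fin 2))) (f := ![u, v])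
    (g := ![u', v']) (p := p) hp (by
      intro i _; fin_cases i <;> simpa) (by intro i _; fin_cases i <;> simpa)
  simp only [Fin.sum_univ_two, Matrix.cons_val_zero, Matrix.cons_val_one] at h
  unfold M
  rw [Real.div_rpow (by positivity) (by positivity), Real.div_rpow (by positivity) (by positivity),
    Real.div_rpow (by positivity) (by positivity), ← add_div]
  gcongr

lemma mean_le_M {p u v : ℝ} (hp : 1 ≤ p) (hu : 0 ≤ u) (hv : 0 ≤ v) : (u + v) / 2 ≤ M p u v := by
  have h1 := M_add_le hp hu hv hv hu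
  have h2 : M p v u = M p u v := by unfold M; rw [add_comm]
  rw [h2, add_comm v u, M_self hp (by positivity)] at h1
  linarith

variable {X : Type*} [NormedAddCommGroup X] [NormedSpace ℝ X]

/-- `(J p x T)^(1/p)` -/
noncomputable def N (p : ℝ) (x : X) (T : STree X) : ℝ := (T.J p x) ^ (1 / p)

lemma J_nonneg (p : ℝ) (T : STree X) : ∀ x, 0 ≤ T.J p x := by
  induction T with
  | leaf => intro x; simp only [STree.J]; positivity
  | node y l r hl hr =>
    intro x
    have h1 := hl (x + y)
    have h2 := hr (x - y)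
    simp only [STree.J]
    positivity

lemma N_nonneg (p : ℝ) (x : X) (T : STree X) : 0 ≤ N p x T :=
  Real.rpow_nonneg (J_nonneg p T x) _

lemma N_pow {p : ℝ} (hp : 1 ≤ p) (x : X) (T : STree X) : N p x T ^ p = T.J p x := by
  have hp0 : p ≠ 0 := by positivity
  unfold N
  rw [← Real.rpow_mul (J_nonneg p T x), one_div, inv_mul_cancel₀ hp0, Real.rpow_one]

lemma N_leaf {p : ℝ} (hp : 1 ≤ p) (x : X) : N p x .leaf = ‖x‖ := by
  have hp0 : p ≠ 0 := by positivity
  unfold N
  simp only [STree.J]
  rw [← Real.rpow_mul (norm_nonneg _), mul_one_div_cancel hp0, Real.rpow_one]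

lemma N_node {p : ℝ} (hp : 1 ≤ p) (x y : X) (l r : STree X) :
    N p x (.node y l r) = M p (N p (x + y) l) (N p (x - y) r) := by
  unfold M
  rw [N_pow hp, N_pow hp]
  rfl

lemma N_lip {p : ℝ} (hp : 1 ≤ p) (T : STree X) : ∀ x y, N p x T ≤ N p y T + ‖x - y‖ := by
  induction T with
  | leaf =>
    intro x y
    rw [N_leaf hp, N_leaf hp]
    have := norm_sub_norm_le x y
    linarith
  | node v l r hl hr =>
    intro x y
    rw [N_node hp, N_node hp]
    have h1 := hl (x + v) (y + v)
    have h2 := hr (x - v) (y - v)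
    rw [add_sub_add_right_eq_sub] at h1
    rw [sub_sub_sub_cancel_right] at h2
    calc M p (N p (x + v) l) (N p (x - v) r)
        ≤ M p (N p (y + v) l + ‖x - y‖) (N p (y - v) r + ‖x - y‖) :=
          M_mono hp (N_nonneg _ _ _) (N_nonneg _ _ _) h1 h2
      _ ≤ M p (N p (y + v) l) (N p (y - v) r) + M p ‖x - y‖ ‖x - y‖ :=
          M_add_le hp (N_nonneg _ _ _) (N_nonneg _ _ _) (norm_nonneg _) (norm_nonneg _)
      _ = _ := by rw [M_self hp (norm_nonneg _)]

lemma N_convex {p : ℝ} (hp : 1 ≤ p) (T : STree X) : ∀ (x y : X) (a b : ℝ), 0 ≤ a → 0 ≤ b →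
    a + b = 1 → N p (a • x + b • y) T ≤ a * N p x T + b * N p y T := by
  induction T with
  | leaf =>
    intro x y a b ha hb _
    rw [N_leaf hp, N_leaf hp, N_leaf hp]
    refine (norm_add_le _ _).trans (le_of_eq ?_)
    rw [norm_smul, norm_smul, Real.norm_eq_abs, Real.norm_eq_abs, abs_of_nonneg ha,
      abs_of_nonneg hb]
  | node v l r hl hr =>
    intro x y a b ha hb hab
    rw [N_node hp, N_node hp, N_node hp]
    have h1 := hl (x + v) (y + v) a b ha hb hab
    have h2 := hr (x - v) (y - v) a b ha hb hab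
    have e1 : a • (x + v) + b • (y + v) = a • x + b • y + v := by
      have : v = (a + b) • v := by rw [hab, one_smul]
      conv_rhs => rw [this]
      module
    have e2 : a • (x - v) + b • (y - v) = a • x + b • y - v := by
      have : v = (a + b) • v := by rw [hab, one_smul]
      conv_rhs => rw [this]
      module
    rw [e1] at h1
    rw [e2] at h2
    have n1 := N_nonneg p (x + v) l
    have n2 := N_nonneg p (y + v) l
    have n3 := N_nonneg p (x - v) r
    have n4 := N_nonneg p (y - v) r
    calc M p (N p (a • x + b • y + v) l) (N p (a • x + b • y - v) r)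
        ≤ M p (a * N p (x + v) l + b * N p (y + v) l) (a * N p (x - v) r + b * N p (y - v) r) :=
          M_mono hp (N_nonneg _ _ _) (N_nonneg _ _ _) h1 h2
      _ ≤ M p (a * N p (x + v) l) (a * N p (x - v) r)
            + M p (b * N p (y + v) l) (b * N p (y - v) r) :=
          M_add_le hp (by positivity) (by positivity) (by positivity) (by positivity)
      _ = _ := by rw [M_smul hp ha n1 n3, M_smul hp hb n2 n4]

/-- scaling of a tree -/
noncomputable def scale (c : ℝ) : STree X → STree X
  | .leaf => .leaf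
  | .node y l r => .node (c • y) (scale c l) (scale c r)

lemma N_scale {p : ℝ} (hp : 1 ≤ p) {c : ℝ} (hc : 0 ≤ c) (T : STree X) :
    ∀ x, N p (c • x) (scale c T) = c * N p x T := by
  induction T with
  | leaf =>
    intro x
    simp only [scale]
    rw [N_leaf hp, N_leaf hp, norm_smul, Real.norm_eq_abs, abs_of_nonneg hc]
  | node v l r hl hr =>
    intro x
    simp only [scale]
    rw [N_node hp, N_node hp, ← smul_add, ← smul_sub, hl, hr,
      M_smul hp hc (N_nonneg _ _ _) (N_nonneg _ _ _)]

lemma N_neg {p : ℝ} (hp : 1 ≤ p) (T : STree X) :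
    ∀ x, N p (-x) (scale (-1) T) = N p x T := by
  induction T with
  | leaf =>
    intro x
    simp only [scale]
    rw [N_leaf hp, N_leaf hp, norm_neg]
  | node v l r hl hr =>
    intro x
    simp only [scale]
    rw [N_node hp, N_node hp]
    have e1 : -x + (-1 : ℝ) • v = -(x + v) := by module
    have e2 : -x - (-1 : ℝ) • v = -(x - v) := by module
    rw [e1, e2, hl, hr]

lemma clock_scale {s : ℝ} (c : ℝ) (T : STree X) :
    ∀ t, T.Clock s t → (scale c T).Clock s (|c| ^ s * t) := by
  induction T with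
  | leaf =>
    intro t ht
    simp only [scale, STree.Clock] at *
    positivity
  | node v l r hl hr =>
    intro t ht
    simp only [scale, STree.Clock] at *
    have hc : 0 ≤ |c| ^ s := by positivity
    have e : ‖c • v‖ ^ s = |c| ^ s * ‖v‖ ^ s := by
      rw [norm_smul, Real.norm_eq_abs, Real.mul_rpow (abs_nonneg _) (norm_nonneg _)]
    rw [e]
    refine ⟨mul_le_mul_of_nonneg_left ht.1 hc, ?_, ?_⟩
    · have := hl _ ht.2.1
      rwa [mul_sub] at this
    · have := hr _ ht.2.2
      rwa [mul_sub] at this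

end Renorm

open Renorm in
theorem exists_fun_of_clock {X : Type*} [NormedAddCommGroup X] [NormedSpace ℝ X] {p s Γ : ℝ}
    (hp : 1 ≤ p) (hs : 1 < s) (hΓ : 0 ≤ Γ)
    (H : ∀ T : STree X, T.Clock s 1 → T.J p 0 ≤ Γ ^ p) :
    ∃ h : X → ℝ, ConvexOn ℝ Set.univ h ∧ (∀ x, h (-x) = h x) ∧ (∀ x, ‖x‖ ≤ h x) ∧
      (∀ x y, h x ≤ h y + ‖x - y‖) ∧
      ∀ x y, (h (x + y) + h (x - y)) / 2 ≤ (1 + ‖y‖ ^ s) * h x := by
  have hp0 : p ≠ 0 := by positivity
  let C : Type _ := {T : STree X // T.Clock s 1}
  let lf : C := ⟨.leaf, by simp [STree.Clock]⟩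
  have hC : Nonempty C := ⟨lf⟩
  let h : X → ℝ := fun x => ⨆ T : C, N p x T.1
  have hN0 : ∀ T : C, N p 0 T.1 ≤ Γ := by
    intro T
    have h1 := H T.1 T.2
    unfold N
    calc (T.1.J p 0) ^ (1 / p) ≤ (Γ ^ p) ^ (1 / p) :=
          Real.rpow_le_rpow (J_nonneg _ _ _) h1 (by positivity)
      _ = Γ := by rw [← Real.rpow_mul hΓ, mul_one_div_cancel hp0, Real.rpow_one]
  have hbdd : ∀ x, BddAbove (Set.range fun T : C => N p x T.1) := by
    intro x
    refine ⟨Γ + ‖x‖, ?_⟩
    rintro _ ⟨T, rfl⟩
    have h1 := N_lip hp T.1 x 0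
    rw [sub_zero] at h1
    have := hN0 T
    show N p x T.1 ≤ _
    linarith
  have hle : ∀ x (T : C), N p x T.1 ≤ h x := fun x T => le_ciSup (hbdd x) T
  have hconv : ConvexOn ℝ Set.univ h := by
    refine ⟨convex_univ, fun x _ y _ a b ha hb hab => ?_⟩
    refine ciSup_le fun T => ?_
    refine (N_convex hp T.1 x y a b ha hb hab).trans ?_
    rw [smul_eq_mul, smul_eq_mul]
    gcongr
    · exact hle x T
    · exact hle y T
  have heven_le : ∀ x, h (-x) ≤ h x := by
    intro x
    refine ciSup_le fun T => ?_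
    have h1 := N_neg hp T.1 (-x)
    rw [neg_neg] at h1
    have h2 : (scale (-1) T.1).Clock s 1 := by
      have := clock_scale (-1) T.1 1 T.2
      simpa using this
    rw [← h1]
    exact hle x ⟨_, h2⟩
  have heven : ∀ x, h (-x) = h x := by
    intro x
    refine le_antisymm (heven_le x) ?_
    have := heven_le (-x)
    rwa [neg_neg] at this
  have hnorm : ∀ x, ‖x‖ ≤ h x := by
    intro x
    have := hle x lf
    rwa [show N p x lf.1 = ‖x‖ from N_leaf hp x] at this
  have hh0 : ∀ x, 0 ≤ h x := fun x => (norm_nonneg x).trans (hnorm x)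
  refine ⟨h, hconv, heven, hnorm, ?_, ?_⟩
  · intro x y
    refine ciSup_le fun T => ?_
    have h1 := N_lip hp T.1 x y
    have h2 := hle y T
    linarith
  · intro x y
    set A : ℝ := 1 + ‖y‖ ^ s with hA
    have hy0 : 0 ≤ ‖y‖ ^ s := by positivity
    have hA1 : 1 ≤ A := by linarith
    have hA0 : 0 < A := by linarith
    set c : ℝ := A ^ (-(1 / s)) with hc
    have hs0 : 0 < s := by linarith
    have hc0 : 0 < c := Real.rpow_pos_of_pos hA0 _
    have hc1 : c ≤ 1 := by
      rw [hc]
      exact Real.rpow_le_one_of_one_le_of_nonpos hA1 (by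
        have : 0 ≤ 1 / s := by positivity
        linarith)
    have hcs : c ^ s * A = 1 := by
      rw [hc, ← Real.rpow_mul hA0.le]
      have : -(1 / s) * s = -1 := by field_simp
      rw [this, Real.rpow_neg_one, inv_mul_cancel₀ hA0.ne']
    have hcs0 : 0 ≤ c ^ s := by positivity
    have habs : |c| = c := abs_of_pos hc0
    -- the concatenated tree
    have key : ∀ T T' : C, c * ((N p (x + y) T.1 + N p (x - y) T'.1) / 2) ≤ h (c • x) := by
      intro T T'
      have e1 : ‖c • y‖ ^ s = c ^ s * ‖y‖ ^ s := by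
        rw [norm_smul, Real.norm_eq_abs, habs, Real.mul_rpow hc0.le (norm_nonneg _)]
      have e2 : 1 - ‖c • y‖ ^ s = c ^ s * 1 := by
        rw [e1]
        have : c ^ s * (1 + ‖y‖ ^ s) = 1 := hcs
        linarith
      have hcl : (STree.node (c • y) (scale c T.1) (scale c T'.1)).Clock s 1 := by
        simp only [STree.Clock]
        refine ⟨?_, ?_, ?_⟩
        · have : 0 ≤ c ^ s * 1 := by positivity
          linarith
        · rw [e2]
          have := clock_scale c T.1 1 T.2
          rwa [habs] at this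
        · rw [e2]
          have := clock_scale c T'.1 1 T'.2
          rwa [habs] at this
      have h1 := hle (c • x) ⟨_, hcl⟩
      have h2 : N p (c • x) (STree.node (c • y) (scale c T.1) (scale c T'.1))
          = c * M p (N p (x + y) T.1) (N p (x - y) T'.1) := by
        rw [N_node hp, ← smul_add, ← smul_sub, N_scale hp hc0.le, N_scale hp hc0.le,
          M_smul hp hc0.le (N_nonneg _ _ _) (N_nonneg _ _ _)]
      have h3 : N p (c • x) (STree.node (c • y) (scale c T.1) (scale c T'.1)) ≤ h (c • x) := h1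
      rw [h2] at h3
      refine le_trans ?_ h3
      gcongr
      exact mean_le_M hp (N_nonneg _ _ _) (N_nonneg _ _ _)
    have key2 : c * ((h (x + y) + h (x - y)) / 2) ≤ h (c • x) := by
      have h1 : ∀ T' : C, h (x + y) ≤ 2 * (h (c • x) / c) - N p (x - y) T'.1 := by
        intro T'
        refine ciSup_le fun T => ?_
        have := key T T'
        have h2 : (N p (x + y) T.1 + N p (x - y) T'.1) / 2 ≤ h (c • x) / c := by
          rw [le_div_iff₀ hc0]; linarith
        linarith
      have h2 : h (x - y) ≤ 2 * (h (c • x) / c) - h (x + y) := by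
        refine ciSup_le fun T' => ?_
        have := h1 T'
        linarith
      have h3 : (h (x + y) + h (x - y)) / 2 ≤ h (c • x) / c := by linarith
      rw [le_div_iff₀ hc0] at h3
      linarith
    have key3 : h (c • x) ≤ h x := by
      have h1 := hconv.2 (Set.mem_univ x) (Set.mem_univ (-x))
        (show (0 : ℝ) ≤ (1 + c) / 2 by positivity) (show (0 : ℝ) ≤ (1 - c) / 2 by linarith)
        (by ring)
      have h2 : ((1 + c) / 2) • x + ((1 - c) / 2) • (-x) = c • x := by module
      rw [h2, heven x, smul_eq_mul, smul_eq_mul] at h1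
      linarith
    have hcA : 1 ≤ c * A := by
      have h1 : c * A = A ^ (1 - 1 / s) := by
        rw [hc, sub_eq_neg_add, Real.rpow_add hA0, Real.rpow_one]
      rw [h1]
      refine Real.one_le_rpow hA1 ?_
      have : 1 / s ≤ 1 := by rw [div_le_one hs0]; exact hs.le
      linarith
    have h5 : 0 ≤ (h (x + y) + h (x - y)) / 2 := by
      have := hh0 (x + y); have := hh0 (x - y); positivity
    calc (h (x + y) + h (x - y)) / 2 ≤ (c * A) * ((h (x + y) + h (x - y)) / 2) := by
          nlinarith
      _ = A * (c * ((h (x + y) + h (x - y)) / 2)) := by ring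
      _ ≤ A * h x := by
          refine mul_le_mul_of_nonneg_left (key2.trans key3) hA0.le

end Vale.Agent.P125
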