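import Vale.Agent.P125.Defs

/-!
# A uniformly smooth norm from a smooth convex function
-/

open scoped BigOperators Topology

namespace Vale.Agent.P125

namespace SmoothAux

variable {X : Type*} [NormedAddCommGroup X] [NormedSpace ℝ X]

/-- `N` is a norm whose unit sphere is the level set `h = c` -/
structure GN (h N : X → ℝ) (c : ℝ) : Prop where
  add_le : ∀ x y, N (x + y) ≤ N x + N y
  smul : ∀ (t : ℝ) (x : X), N (t • x) = |t| * N x
  le_norm : ∀ x, N x ≤ ‖x‖
  norm_le : ∀ x, ‖x‖ ≤ c * N x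
  level : ∀ x, N x = 1 → h x = c

lemma exists_GN (h : X → ℝ) (hconv : ConvexOn ℝ Set.univ h) (heven : ∀ x, h (-x) = h x)
    (hle : ∀ x, ‖x‖ ≤ h x) (hlip : ∀ x y, h x ≤ h y + ‖x - y‖) :
    ∃ N : X → ℝ, GN h N (h 0 + 1) := by
  have h00 : 0 ≤ h 0 := by simpa using hle 0
  have hc : 0 < h 0 + 1 := by linarith
  have hcont : Continuous h := by
    have hL : LipschitzWith 1 h := by
      apply LipschitzWith.of_le_add_mul
      intro x y
      rw [dist_eq_norm]
      simpa using hlip x y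
    exact hL.continuous
  set B : Set X := {x | h x ≤ h 0 + 1} with hB
  have hBconv : Convex ℝ B := by
    have := hconv.convex_le (h 0 + 1)
    simpa [hB] using this
  have hBclosed : IsClosed B := isClosed_le hcont continuous_const
  have hball : Metric.closedBall (0 : X) 1 ⊆ B := by
    intro x hx
    have h1 : ‖x‖ ≤ 1 := by simpa using hx
    have h2 := hlip x 0
    rw [sub_zero] at h2
    show h x ≤ h 0 + 1
    linarith
  have hBc : B ⊆ Metric.closedBall (0 : X) (h 0 + 1) := by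
    intro x hx
    have h1 : h x ≤ h 0 + 1 := hx
    simpa using (hle x).trans h1
  have hBn : B ∈ 𝓝 (0 : X) :=
    Filter.mem_of_superset (Metric.closedBall_mem_nhds (0 : X) one_pos) hball
  have habs : Absorbent ℝ B := absorbent_nhds_zero hBn
  have hsymm : ∀ x ∈ B, -x ∈ B := by
    intro x hx
    show h (-x) ≤ h 0 + 1
    rw [heven]; exact hx
  refine ⟨gauge B, ⟨gauge_add_le hBconv habs, ?_, ?_, ?_, ?_⟩⟩
  · intro t x
    rcases le_or_gt 0 t with ht | ht
    · rw [gauge_smul_of_nonneg ht, abs_of_nonneg ht, smul_eq_mul]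
    · have h1 : t • x = -((-t) • x) := by rw [neg_smul, neg_neg]
      rw [h1, gauge_neg hsymm, gauge_smul_of_nonneg (by linarith), abs_of_neg ht, smul_eq_mul]
  · intro x
    have h1 := gauge_mono (absorbent_nhds_zero (𝕜 := ℝ)
      (Metric.closedBall_mem_nhds (0 : X) one_pos)) hball x
    rw [gauge_closedBall zero_le_one, div_one] at h1
    exact h1
  · intro x
    have h1 := gauge_mono habs hBc x
    rw [gauge_closedBall hc.le, div_le_iff₀ hc] at h1
    linarith [mul_comm (gauge B x) (h 0 + 1)]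
  · intro x hx
    apply le_antisymm
    · have h1 : x ∈ closure B := (gauge_le_one_iff_mem_closure hBconv hBn).1 hx.le
      rw [hBclosed.closure_eq] at h1
      exact h1
    · by_contra hcon
      push Not at hcon
      have h1 : x ∈ interior B := by
        rw [mem_interior]
        refine ⟨{x | h x < h 0 + 1}, fun y hy => ?_, isOpen_lt hcont continuous_const, hcon⟩
        have hy' : h y < h 0 + 1 := hy
        exact hy'.le
      have h2 := (gauge_lt_one_iff_mem_interior hBconv hBn).2 h1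
      linarith

lemma key {h N : X → ℝ} {c s : ℝ} (hs : 1 < s) (hc : 1 ≤ c) (h0 : h 0 = c - 1) (G : GN h N c)
    (hconv : ConvexOn ℝ Set.univ h)
    (hsm : ∀ x y, (h (x + y) + h (x - y)) / 2 ≤ (1 + ‖y‖ ^ s) * h x)
    {τ : ℝ} (hτ : 0 < τ) (hτ' : τ ≤ 1 / 2) {x y : X} (hx : N x = 1) (hy : N y = 1) :
    0 ≤ (N (x + τ • y) + N (x - τ • y)) / 2 - 1 ∧
    (N (x + τ • y) + N (x - τ • y)) / 2 - 1 ≤ 3 * c * (6 * c * τ) ^ s := by
  obtain ⟨z, hz⟩ : ∃ z, z = τ • y := ⟨_, rfl⟩
  have hNz : N z = τ := by rw [hz, G.smul, abs_of_pos hτ, hy, mul_one]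
  have hNneg : ∀ w, N (-w) = N w := by
    intro w
    have := G.smul (-1) w
    simpa using this
  rw [← hz]
  have hnz : ‖z‖ ≤ c * τ := by have := G.norm_le z; rwa [hNz] at this
  have hnx : ‖x‖ ≤ c := by have := G.norm_le x; rwa [hx, mul_one] at this
  obtain ⟨a, ha⟩ : ∃ a, a = N (x + z) := ⟨_, rfl⟩
  obtain ⟨b, hb⟩ : ∃ b, b = N (x - z) := ⟨_, rfl⟩
  rw [← ha, ← hb]
  have ha1 : 1 - τ ≤ a := by
    have := G.add_le (x + z) (-z)
    rw [add_neg_cancel_right, hx, hNneg, hNz] at this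
    linarith
  have hb1 : 1 - τ ≤ b := by
    have := G.add_le (x - z) z
    rw [sub_add_cancel, hx, hNz] at this
    linarith
  have ha2 : a ≤ 1 + τ := by have := G.add_le x z; rw [hx, hNz] at this; linarith
  have hb2 : b ≤ 1 + τ := by
    have := G.add_le x (-z)
    rw [hx, hNneg, hNz, ← sub_eq_add_neg] at this; linarith
  have hab : 2 ≤ a + b := by
    have := G.add_le (x + z) (x - z)
    have h1 : x + z + (x - z) = (2 : ℝ) • x := by rw [two_smul]; abel
    rw [h1, G.smul, hx] at this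
    norm_num at this
    linarith
  have ha0 : 0 < a := by linarith
  have hb0 : 0 < b := by linarith
  refine ⟨by linarith, ?_⟩
  obtain ⟨u, hu⟩ : ∃ u, u = a⁻¹ • (x + z) := ⟨_, rfl⟩
  obtain ⟨v, hv⟩ : ∃ v, v = b⁻¹ • (x - z) := ⟨_, rfl⟩
  have hNu : N u = 1 := by
    rw [hu, G.smul, ← ha, abs_of_pos (inv_pos.2 ha0), inv_mul_cancel₀ ha0.ne']
  have hNv : N v = 1 := by
    rw [hv, G.smul, ← hb, abs_of_pos (inv_pos.2 hb0), inv_mul_cancel₀ hb0.ne']
  have hhu := G.level u hNu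
  have hhv := G.level v hNv
  have hhx := G.level x hx
  obtain ⟨m, hm⟩ : ∃ m, m = (1 / 2 : ℝ) • u + (1 / 2 : ℝ) • v := ⟨_, rfl⟩
  obtain ⟨D, hD⟩ : ∃ D, D = (1 / 2 : ℝ) • u - (1 / 2 : ℝ) • v := ⟨_, rfl⟩
  have hmD : m + D = u := by rw [hm, hD]; module
  have hmD' : m - D = v := by rw [hm, hD]; module
  have h1 := hsm m D
  rw [hmD, hmD', hhu, hhv] at h1
  have hDs : 0 ≤ ‖D‖ ^ s := Real.rpow_nonneg (norm_nonneg _) _
  -- h m ≤ c
  have hmle : h m ≤ c := by
    have := hconv.2 (Set.mem_univ u) (Set.mem_univ v) (by norm_num : (0:ℝ) ≤ 1 / 2)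
      (by norm_num : (0:ℝ) ≤ 1 / 2) (by norm_num)
    rw [← hm, hhu, hhv, smul_eq_mul] at this
    linarith
  have hmge : c - c * ‖D‖ ^ s ≤ h m := by
    have : ‖D‖ ^ s * h m ≤ ‖D‖ ^ s * c := mul_le_mul_of_nonneg_left hmle hDs
    nlinarith
  -- the point w
  obtain ⟨w, hw⟩ : ∃ w, w = (2 / (a + b)) • x := ⟨_, rfl⟩
  have habne : a + b ≠ 0 := by linarith
  have hw2 : w = (a / (a + b)) • u + (b / (a + b)) • v := by
    rw [hw, hu, hv, smul_smul, smul_smul]
    have e1 : a / (a + b) * a⁻¹ = 1 / (a + b) := by field_simp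
    have e2 : b / (a + b) * b⁻¹ = 1 / (a + b) := by field_simp
    rw [e1, e2]
    module
  have hwge : c - 2 * c * ‖D‖ ^ s ≤ h w := by
    have main : ∀ (p q : ℝ) (u v : X), 0 < p → 0 < q → q ≤ p → h u = c → h v = c →
        m = (1 / 2 : ℝ) • u + (1 / 2 : ℝ) • v → w = (p / (p + q)) • u + (q / (p + q)) • v →
        c - 2 * c * ‖D‖ ^ s ≤ h w := by
      intro p q u v hp hq hqp hhu hhv hm hw
      have hpq : 0 < p + q := by linarith
      -- m = ((p+q)/(2p)) w + ((p-q)/(2p)) v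
      have h2 : m = ((p + q) / (2 * p)) • w + ((p - q) / (2 * p)) • v := by
        rw [hm, hw, smul_add, smul_smul, smul_smul]
        have e1 : (p + q) / (2 * p) * (p / (p + q)) = 1 / 2 := by field_simp
        have e2 : (p + q) / (2 * p) * (q / (p + q)) = q / (2 * p) := by field_simp
        have e3 : (1 / 2 : ℝ) = q / (2 * p) + (p - q) / (2 * p) := by field_simp; ring
        rw [e1, e2, add_assoc, ← add_smul, ← e3]
      have h3 := hconv.2 (Set.mem_univ w) (Set.mem_univ v)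
        (by positivity : (0:ℝ) ≤ (p + q) / (2 * p))
        (div_nonneg (by linarith) (by linarith) : (0:ℝ) ≤ (p - q) / (2 * p))
        (by field_simp; ring)
      rw [← h2, hhv, smul_eq_mul, smul_eq_mul] at h3
      have h4 : (p + q) / (2 * p) * h w + (p - q) / (2 * p) * c =
          c - (p + q) / (2 * p) * (c - h w) := by field_simp; ring
      rw [h4] at h3
      have h5 : (p + q) / (2 * p) * (c - h w) ≤ c * ‖D‖ ^ s := by linarith
      have h6 : 1 / 2 ≤ (p + q) / (2 * p) := by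
        rw [div_le_div_iff₀ (by norm_num) (by linarith)]; linarith
      rcases le_or_gt (c - h w) 0 with h7 | h7
      · have : 0 ≤ 2 * c * ‖D‖ ^ s := by positivity
        linarith
      · have h8 : 1 / 2 * (c - h w) ≤ (p + q) / (2 * p) * (c - h w) :=
          mul_le_mul_of_nonneg_right h6 h7.le
        linarith
    rcases le_total b a with hba | hba
    · exact main a b u v ha0 hb0 hba hhu hhv hm hw2
    · refine main b a v u hb0 ha0 hba hhv hhu (by rw [hm]; abel) ?_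
      rw [hw2, add_comm b a]; abel
  -- upper bound at w
  obtain ⟨η, hη⟩ : ∃ η, η = (a + b) / 2 - 1 := ⟨_, rfl⟩
  rw [← hη]
  have hη0 : 0 ≤ η := by rw [hη]; linarith
  have hη1 : η ≤ 1 / 2 := by rw [hη]; linarith
  have hwle : h w ≤ c - η / (1 + η) := by
    have e1 : 2 / (a + b) = 1 / (1 + η) := by
      have : a + b = 2 * (1 + η) := by rw [hη]; ring
      rw [this, div_mul_eq_div_div]
      norm_num
    have h2 := hconv.2 (Set.mem_univ x) (Set.mem_univ (0 : X))
      (by positivity : (0:ℝ) ≤ 1 / (1 + η)) (by positivity : (0:ℝ) ≤ η / (1 + η))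
      (by field_simp)
    rw [smul_zero, add_zero, ← e1, ← hw, hhx, h0, smul_eq_mul, smul_eq_mul, e1] at h2
    have e2 : 1 / (1 + η) * c + η / (1 + η) * (c - 1) = c - η / (1 + η) := by
      field_simp; ring
    rw [e2] at h2
    exact h2
  have h2 : η / (1 + η) ≤ 2 * c * ‖D‖ ^ s := by linarith
  have h3 : η ≤ 3 * c * ‖D‖ ^ s := by
    rw [div_le_iff₀ (by linarith)] at h2
    have h4 : 2 * c * ‖D‖ ^ s * (1 + η) ≤ 2 * c * ‖D‖ ^ s * (3 / 2) :=
      mul_le_mul_of_nonneg_left (by linarith) (by positivity)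
    linarith
  -- bound of D
  have hDle : ‖D‖ ≤ 6 * c * τ := by
    have e1 : D = (1 / 2 : ℝ) • ((a⁻¹ - b⁻¹) • x + (a⁻¹ + b⁻¹) • z) := by
      rw [hD, hu, hv]; module
    have ha3 : a⁻¹ ≤ 2 := by
      rw [inv_le_comm₀ ha0 (by norm_num)]; linarith
    have hb3 : b⁻¹ ≤ 2 := by
      rw [inv_le_comm₀ hb0 (by norm_num)]; linarith
    have h4 : |a⁻¹ - b⁻¹| ≤ 8 * τ := by
      have e2 : a⁻¹ - b⁻¹ = (b - a) * (a⁻¹ * b⁻¹) := by field_simp
      rw [e2, abs_mul, abs_of_pos (mul_pos (inv_pos.2 ha0) (inv_pos.2 hb0))]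
      have h5 : |b - a| ≤ 2 * τ := by rw [abs_le]; constructor <;> linarith
      have h6 : a⁻¹ * b⁻¹ ≤ 2 * 2 :=
        mul_le_mul ha3 hb3 (inv_pos.2 hb0).le (by norm_num)
      calc |b - a| * (a⁻¹ * b⁻¹) ≤ (2 * τ) * (2 * 2) :=
            mul_le_mul h5 h6 (mul_pos (inv_pos.2 ha0) (inv_pos.2 hb0)).le (by linarith)
        _ = 8 * τ := by ring
    have h5 : |a⁻¹ + b⁻¹| ≤ 4 := by
      rw [abs_of_pos (add_pos (inv_pos.2 ha0) (inv_pos.2 hb0))]; linarith
    rw [e1, norm_smul]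
    have h6 : ‖(a⁻¹ - b⁻¹) • x + (a⁻¹ + b⁻¹) • z‖ ≤ 8 * τ * c + 4 * (c * τ) := by
      refine (norm_add_le _ _).trans ?_
      rw [norm_smul, norm_smul, Real.norm_eq_abs, Real.norm_eq_abs]
      exact add_le_add (mul_le_mul h4 hnx (norm_nonneg _) (by linarith))
        (mul_le_mul h5 hnz (norm_nonneg _) (by norm_num))
    rw [Real.norm_of_nonneg (by norm_num : (0:ℝ) ≤ 1 / 2)]
    linarith
  refine h3.trans (mul_le_mul_of_nonneg_left ?_ (by linarith))
  exact Real.rpow_le_rpow (norm_nonneg _) hDle (by linarith)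

end SmoothAux

open SmoothAux in
theorem smooth_of_fun {X : Type*} [NormedAddCommGroup X] [NormedSpace ℝ X] {s : ℝ}
    (hs : 1 < s) (h : X → ℝ) (hconv : ConvexOn ℝ Set.univ h) (heven : ∀ x, h (-x) = h x)
    (hle : ∀ x, ‖x‖ ≤ h x) (hlip : ∀ x y, h x ≤ h y + ‖x - y‖)
    (hsm : ∀ x y, (h (x + y) + h (x - y)) / 2 ≤ (1 + ‖y‖ ^ s) * h x) :
    HasEquivalentUniformlySmoothNorm X := by
  obtain ⟨N, G⟩ := exists_GN h hconv heven hle hlip
  have h00 : 0 ≤ h 0 := by simpa using hle 0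
  have hc : 1 ≤ h 0 + 1 := by linarith
  have hcpos : 0 < h 0 + 1 := by linarith
  refine ⟨N, ⟨G.add_le, G.smul, ⟨(h 0 + 1)⁻¹, 1, inv_pos.2 hcpos, one_pos, fun x => ⟨?_, ?_⟩⟩⟩, ?_⟩
  · rw [inv_mul_le_iff₀ hcpos]
    exact G.norm_le x
  · rw [one_mul]; exact G.le_norm x
  · unfold IsUniformlySmooth
    set c := h 0 + 1 with hcdef
    have hkey : ∀ τ : ℝ, 0 < τ → τ ≤ 1 / 2 →
        0 ≤ smoothnessModulus N τ / τ ∧
        smoothnessModulus N τ / τ ≤ 3 * c * (6 * c) ^ s * τ ^ (s - 1) := by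
      intro τ hτ hτ'
      have hall : ∀ r ∈ {r : ℝ | ∃ x y : X, N x = 1 ∧ N y = 1 ∧
          r = (N (x + τ • y) + N (x - τ • y)) / 2 - 1}, 0 ≤ r ∧ r ≤ 3 * c * (6 * c * τ) ^ s := by
        rintro r ⟨x, y, hx, hy, rfl⟩
        exact key hs hc (by rw [hcdef]; ring) G hconv hsm hτ hτ' hx hy
      have h1 : 0 ≤ smoothnessModulus N τ := Real.sSup_nonneg fun r hr => (hall r hr).1
      have h2 : smoothnessModulus N τ ≤ 3 * c * (6 * c * τ) ^ s :=
        Real.sSup_le (fun r hr => (hall r hr).2) (by positivity)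
      refine ⟨by positivity, ?_⟩
      rw [div_le_iff₀ hτ]
      refine h2.trans (le_of_eq ?_)
      rw [Real.mul_rpow (by positivity) hτ.le, mul_assoc (3 * c * (6 * c) ^ s),
        ← Real.rpow_add_one hτ.ne']
      rw [sub_add_cancel]
      ring
    have hlim : Filter.Tendsto (fun τ : ℝ => 3 * c * (6 * c) ^ s * τ ^ (s - 1)) (𝓝[>] 0) (𝓝 0) := by
      have h1 : Filter.Tendsto (fun τ : ℝ => τ ^ (s - 1)) (𝓝 0) (𝓝 0) := by
        have := (Real.continuousAt_rpow_const 0 (s - 1) (Or.inr (by linarith))).tendsto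
        rwa [Real.zero_rpow (by linarith)] at this
      have h2 := (h1.const_mul (3 * c * (6 * c) ^ s)).mono_left
        (nhdsWithin_le_nhds (s := Set.Ioi (0 : ℝ)))
      rwa [mul_zero] at h2
    refine tendsto_of_tendsto_of_tendsto_of_le_of_le' tendsto_const_nhds hlim ?_ ?_
    · filter_upwards [Ioc_mem_nhdsGT (by norm_num : (0:ℝ) < 1 / 2)] with τ hτ
      exact (hkey τ hτ.1 hτ.2).1
    · filter_upwards [Ioc_mem_nhdsGT (by norm_num : (0:ℝ) < 1 / 2)] with τ hτ
      exact (hkey τ hτ.1 hτ.2).2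

end Vale.Agent.P125
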