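import Vale.Agent.P125.NoJames
import Vale.Agent.P125.Mono
import Vale.Agent.P125.Renorm
import Vale.Agent.P125.Smooth
import Vale.Agent.P125.ClockBound

/-!
# Markov type `p > 1` implies the existence of an equivalent uniformly smooth norm
-/

open scoped BigOperators Topology

namespace Vale.Agent.P125

/-- some exponent `s > 1` with `n ^ (1 - 1 / s) ≤ 3 / 2`. -/
lemma exists_exponent {n : ℕ} (hn : 1 ≤ n) : ∃ s : ℝ, 1 < s ∧ (n : ℝ) ^ (1 - 1 / s) ≤ 3 / 2 := by
  have hn0 : (0 : ℝ) < n := by exact_mod_cast hn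
  have h1 : Filter.Tendsto (fun s : ℝ => (n : ℝ) ^ (1 - 1 / s)) (𝓝[>] 1) (𝓝 1) := by
    have h2 : ContinuousAt (fun s : ℝ => (n : ℝ) ^ (1 - 1 / s)) 1 := by
      refine ContinuousAt.rpow continuousAt_const ?_ (Or.inl hn0.ne')
      exact continuousAt_const.sub (continuousAt_const.div continuousAt_id one_ne_zero)
    have h3 : Filter.Tendsto (fun s : ℝ => (n : ℝ) ^ (1 - 1 / s)) (𝓝 1) (𝓝 1) := by
      have := h2.tendsto
      simpa using this
    exact h3.mono_left nhdsWithin_le_nhds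
  have h4 := (h1.eventually (gt_mem_nhds (show (1 : ℝ) < 3 / 2 by norm_num))).and
    self_mem_nhdsWithin
  obtain ⟨s, hs, hs1⟩ := h4.exists
  exact ⟨s, hs1, hs.le⟩

/-- Markov type `p > 1` implies an equivalent uniformly smooth norm. -/
theorem main {X : Type*} [NormedAddCommGroup X] [NormedSpace ℝ X] {p : ℝ} (hp : 1 < p)
    (h : HasMarkovType p X) : HasEquivalentUniformlySmoothNorm X := by
  obtain ⟨K, hK, hX⟩ := h
  haveI : Fact (1 ≤ ENNReal.ofReal p) := ⟨by
    rw [← ENNReal.ofReal_one]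
    exact ENNReal.ofReal_le_ofReal hp.le⟩
  obtain ⟨M, hM⟩ := no_james hp hK (θ := 1 / 2 / 2) (by norm_num)
  set n : ℕ := 4 * M + 1 with hn
  obtain ⟨s, hs, hns⟩ := exists_exponent (n := n) (by omega)
  obtain ⟨Γ, hΓ, hT⟩ := clock_bound (X := X) (p := p) (s := s) hp.le hs (n := n) (by omega) hns
    (by
      intro D Δ h1 hmono
      by_contra hcon
      push Not at hcon
      refine hM _ (markovTypeWith_piLp (Ω := Fin D → Bool) hp.le hX) ?_
      refine james_of_monotone (n := n) (by norm_num) Δ h1 hmono ?_ ?_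
      · linarith
      · rw [hn]; push_cast; linarith)
  obtain ⟨g, hg1, hg2, hg3, hg4, hg5⟩ := exists_fun_of_clock hp.le hs hΓ hT
  exact smooth_of_fun hs g hg1 hg2 hg3 hg4 hg5

end Vale.Agent.P125
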