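import Mathlib

/-!
# Markov type and uniformly smooth renorming: definitions
-/

open scoped BigOperators Topology

namespace Vale.Agent.P125

/-- `P` is the transition matrix and `π` the initial distribution of a finite
stationary reversible Markov chain on the finite set `S`. -/
structure IsReversibleChain {S : Type} [Fintype S] [DecidableEq S]
    (P : Matrix S S ℝ) (π : S → ℝ) : Prop where
  trans_nonneg : ∀ i j, 0 ≤ P i j
  trans_sum : ∀ i, ∑ j, P i j = 1
  init_nonneg : ∀ i, 0 ≤ π i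
  init_sum : ∑ i, π i = 1
  reversible : ∀ i j, π i * P i j = π j * P j i

/-- `𝔼 ‖f(Z_t) - f(Z_0)‖ ^ p` for the chain `(Z_t)` with transition matrix `P` and
initial distribution `π`; the law of `(Z_0, Z_t)` is `π i * (P ^ t) i j`. -/
noncomputable def displacement {S : Type} [Fintype S] [DecidableEq S]
    {X : Type*} [NormedAddCommGroup X]
    (P : Matrix S S ℝ) (π : S → ℝ) (f : S → X) (p : ℝ) (t : ℕ) : ℝ :=
  ∑ i, ∑ j, π i * (P ^ t) i j * ‖f j - f i‖ ^ p

/-- `X` has Markov type `p` with constant `K`. -/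
def MarkovTypeWith (K p : ℝ) (X : Type*) [NormedAddCommGroup X] : Prop :=
  ∀ (S : Type) [Fintype S] [DecidableEq S] (P : Matrix S S ℝ) (π : S → ℝ),
    IsReversibleChain P π → ∀ (f : S → X) (t : ℕ), 1 ≤ t →
      displacement P π f p t ≤ K ^ p * t * displacement P π f p 1

/-- `X` has Markov type `p` (Ball 1992). -/
def HasMarkovType (p : ℝ) (X : Type*) [NormedAddCommGroup X] : Prop :=
  ∃ K : ℝ, 0 ≤ K ∧ MarkovTypeWith K p X

/-- `N` is a norm on `X` which is equivalent to the given norm. -/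
structure IsEquivalentNorm (X : Type*) [NormedAddCommGroup X] [NormedSpace ℝ X]
    (N : X → ℝ) : Prop where
  add_le : ∀ x y, N (x + y) ≤ N x + N y
  smul_eq : ∀ (c : ℝ) (x : X), N (c • x) = |c| * N x
  equiv : ∃ a b : ℝ, 0 < a ∧ 0 < b ∧ ∀ x, a * ‖x‖ ≤ N x ∧ N x ≤ b * ‖x‖

/-- The modulus of smoothness
`ρ(τ) = sup {(N (x + τ y) + N (x - τ y)) / 2 - 1 : N x = N y = 1}` of the norm `N`. -/
noncomputable def smoothnessModulus {X : Type*} [NormedAddCommGroup X] [NormedSpace ℝ X]
    (N : X → ℝ) (τ : ℝ) : ℝ :=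
  sSup {r : ℝ | ∃ x y : X, N x = 1 ∧ N y = 1 ∧ r = (N (x + τ • y) + N (x - τ • y)) / 2 - 1}

/-- `N` is uniformly smooth: `ρ(τ) / τ → 0` as `τ → 0+`. -/
def IsUniformlySmooth {X : Type*} [NormedAddCommGroup X] [NormedSpace ℝ X]
    (N : X → ℝ) : Prop :=
  Filter.Tendsto (fun τ => smoothnessModulus N τ / τ) (𝓝[>] (0 : ℝ)) (𝓝 0)

/-- `X` admits an equivalent uniformly smooth norm. -/
def HasEquivalentUniformlySmoothNorm (X : Type*) [NormedAddCommGroup X] [NormedSpace ℝ X] :
    Prop :=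
  ∃ N : X → ℝ, IsEquivalentNorm X N ∧ IsUniformlySmooth N

end Vale.Agent.P125
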