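import Vale.Agent.P125.WalkDefs

/-!
# The walk on edges: the mass of the good paths
-/

open scoped BigOperators

namespace Vale.Agent.P125

namespace MassAux

variable {Ω I : Type} [Fintype Ω] [DecidableEq Ω] [Fintype I] [DecidableEq I] {d : ℕ}

lemma rate_nonneg (E : Bool → Ω → Fin d → I) (ω : Ω) (τ : Tr Ω d) : 0 ≤ rate E ω τ := by
  unfold rate
  split_ifs
  · positivity
  · exact le_rfl

lemma pathSum_sub (E : Bool → Ω → Fin d → I) (n : ℕ) : ∀ (ω : Ω) (F G : List (Tr Ω d) → ℝ),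
    pathSum E n ω (fun l => F l - G l) = pathSum E n ω F - pathSum E n ω G := by
  induction n with
  | zero => intro ω F G; rfl
  | succ n ih =>
    intro ω F G
    simp only [pathSum, ih, mul_sub, Finset.sum_sub_distrib]

lemma pathSum_sum {κ : Type} (s : Finset κ) (E : Bool → Ω → Fin d → I) (n : ℕ) :
    ∀ (ω : Ω) (F : κ → List (Tr Ω d) → ℝ),
    pathSum E n ω (fun l => ∑ j ∈ s, F j l) = ∑ j ∈ s, pathSum E n ω (F j) := by
  induction n with
  | zero => intro ω F; rfl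
  | succ n ih =>
    intro ω F
    simp only [pathSum]
    rw [Finset.sum_comm]
    refine Finset.sum_congr rfl fun τ _ => ?_
    rw [ih, Finset.mul_sum]

lemma pathSum_mono (E : Bool → Ω → Fin d → I) (n : ℕ) : ∀ (ω : Ω) (F G : List (Tr Ω d) → ℝ),
    (∀ l, F l ≤ G l) → pathSum E n ω F ≤ pathSum E n ω G := by
  induction n with
  | zero => intro ω F G h; exact h []
  | succ n ih =>
    intro ω F G h
    simp only [pathSum]
    exact Finset.sum_le_sum fun τ _ =>
      mul_le_mul_of_nonneg_left (ih _ _ _ fun l => h _) (rate_nonneg E ω τ)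

lemma pathSum_zero_fun (E : Bool → Ω → Fin d → I) (n : ℕ) : ∀ (ω : Ω),
    pathSum E n ω (fun _ => 0) = 0 := by
  induction n with
  | zero => intro ω; rfl
  | succ n ih =>
    intro ω
    simp only [pathSum, ih, mul_zero, Finset.sum_const_zero]

lemma pathSum_nonneg (E : Bool → Ω → Fin d → I) (n : ℕ) (ω : Ω) (F : List (Tr Ω d) → ℝ)
    (h : ∀ l, 0 ≤ F l) : 0 ≤ pathSum E n ω F := by
  rw [← pathSum_zero_fun E n ω]
  exact pathSum_mono E n ω _ _ h

lemma pathSum_congr (E : Bool → Ω → Fin d → I) (n : ℕ) : ∀ (ω : Ω) (F G : List (Tr Ω d) → ℝ),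
    (∀ l, Valid E ω l → F l = G l) → pathSum E n ω F = pathSum E n ω G := by
  induction n with
  | zero => intro ω F G h; exact h [] trivial
  | succ n ih =>
    intro ω F G h
    simp only [pathSum]
    refine Finset.sum_congr rfl fun τ _ => ?_
    by_cases hτ : E τ.1 ω τ.2.1 = edge E τ
    · rw [ih _ _ _ fun l hl => h (τ :: l) ⟨hτ, hl⟩]
    · have : rate E ω τ = 0 := by
        unfold rate; rw [if_neg hτ]
      rw [this, zero_mul, zero_mul]

/-- the maximum of the two counts -/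
noncomputable def mx (E : Bool → Ω → Fin d → I) (e : I) : ℝ :=
  max (cnt E true e : ℝ) (cnt E false e)

lemma cnt_le_mx (E : Bool → Ω → Fin d → I) (σ : Bool) (e : I) : (cnt E σ e : ℝ) ≤ mx E e := by
  cases σ
  · exact le_max_right _ _
  · exact le_max_left _ _

lemma mx_nonneg (E : Bool → Ω → Fin d → I) (e : I) : 0 ≤ mx E e :=
  le_trans (Nat.cast_nonneg _) (cnt_le_mx E true e)

lemma ratio_le_one (E : Bool → Ω → Fin d → I) (σ : Bool) (e : I) :
    (cnt E σ e : ℝ) / mx E e ≤ 1 := div_le_one_of_le₀ (cnt_le_mx E σ e) (mx_nonneg E e)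

lemma ratio_nonneg (E : Bool → Ω → Fin d → I) (σ : Bool) (e : I) :
    0 ≤ (cnt E σ e : ℝ) / mx E e := div_nonneg (Nat.cast_nonneg _) (mx_nonneg E e)

lemma rate_eq (E : Bool → Ω → Fin d → I) (ω : Ω) (τ : Tr Ω d) :
    rate E ω τ = if E τ.1 ω τ.2.1 = edge E τ then (1 / (2 * (d : ℝ))) / mx E (edge E τ) else 0 := by
  unfold rate mx
  simp

lemma rate_mk (E : Bool → Ω → Fin d → I) (ω ω' : Ω) (σ : Bool) (i i' : Fin d) :
    rate E ω (σ, i, i', ω') = if E σ ω i = E (!σ) ω' i' then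
      (1 / (2 * (d : ℝ))) / mx E (E (!σ) ω' i') else 0 := by
  rw [rate_eq]
  rfl

/-- incoming mass -/
lemma sum_in (E : Bool → Ω → Fin d → I) (σ : Bool) (i' : Fin d) (ω' : Ω) :
    ∑ i : Fin d, ∑ ω : Ω, rate E ω (σ, i, i', ω') =
      (1 / (2 * (d : ℝ))) * (cnt E σ (E (!σ) ω' i') / mx E (E (!σ) ω' i')) := by
  rw [Finset.sum_comm, ← Fintype.sum_prod_type (f := fun x : Ω × Fin d =>
    rate E x.1 (σ, x.2, i', ω'))]
  simp only [rate_mk]
  rw [← Finset.sum_filter, Finset.sum_const, nsmul_eq_mul]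
  unfold cnt
  ring

/-- outgoing mass -/
lemma sum_out (E : Bool → Ω → Fin d → I) (σ : Bool) (i : Fin d) (ω : Ω) :
    ∑ i' : Fin d, ∑ ω' : Ω, rate E ω (σ, i, i', ω') =
      (1 / (2 * (d : ℝ))) * (cnt E (!σ) (E σ ω i) / mx E (E σ ω i)) := by
  rw [Finset.sum_comm, ← Fintype.sum_prod_type (f := fun x : Ω × Fin d =>
    rate E ω (σ, i, x.2, x.1))]
  have h : ∀ x : Ω × Fin d, rate E ω (σ, i, x.2, x.1) =
      if E (!σ) x.1 x.2 = E σ ω i then (1 / (2 * (d : ℝ))) / mx E (E σ ω i) else 0 := by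
    intro x
    rw [rate_mk]
    by_cases hx : E σ ω i = E (!σ) x.1 x.2
    · rw [if_pos hx, if_pos hx.symm, hx]
    · rw [if_neg hx, if_neg (Ne.symm hx)]
  simp only [h]
  rw [← Finset.sum_filter, Finset.sum_const, nsmul_eq_mul]
  unfold cnt
  ring

lemma sum_rate_le (hd : 0 < d) (E : Bool → Ω → Fin d → I) (ω : Ω) :
    ∑ τ : Tr Ω d, rate E ω τ ≤ 1 := by
  have hdR : (0 : ℝ) < d := by exact_mod_cast hd
  simp only [Fintype.sum_prod_type]
  have h : ∀ σ : Bool, ∑ i : Fin d, ∑ i' : Fin d, ∑ ω' : Ω, rate E ω (σ, i, i', ω') ≤ 1 / 2 := by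
    intro σ
    have h1 : ∀ i : Fin d, ∑ i' : Fin d, ∑ ω' : Ω, rate E ω (σ, i, i', ω') ≤ 1 / (2 * (d : ℝ)) := by
      intro i
      rw [sum_out]
      exact mul_le_of_le_one_right (by positivity) (ratio_le_one E _ _)
    calc ∑ i : Fin d, ∑ i' : Fin d, ∑ ω' : Ω, rate E ω (σ, i, i', ω')
        ≤ ∑ _i : Fin d, 1 / (2 * (d : ℝ)) := Finset.sum_le_sum fun i _ => h1 i
      _ = 1 / 2 := by
        rw [Finset.sum_const, Finset.card_univ, Fintype.card_fin, nsmul_eq_mul]
        field_simp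
  rw [Fintype.sum_bool]
  linarith [h true, h false]

lemma pathSum_one_le (hd : 0 < d) (E : Bool → Ω → Fin d → I) (n : ℕ) : ∀ ω : Ω,
    pathSum E n ω (fun _ => 1) ≤ 1 := by
  induction n with
  | zero => intro ω; exact le_rfl
  | succ n ih =>
    intro ω
    simp only [pathSum]
    calc ∑ τ : Tr Ω d, rate E ω τ * pathSum E n τ.2.2.2 (fun _ => 1)
        ≤ ∑ τ : Tr Ω d, rate E ω τ :=
          Finset.sum_le_sum fun τ _ => mul_le_of_le_one_right (rate_nonneg E ω τ) (ih _)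
      _ ≤ 1 := sum_rate_le hd E ω

/-- counting edges -/
lemma sum_edge (E : Bool → Ω → Fin d → I) (σ : Bool) (F : I → ℝ) :
    ∑ i : Fin d, ∑ ω : Ω, F (E σ ω i) = ∑ e, (cnt E σ e : ℝ) * F e := by
  have h1 : ∀ e, (cnt E σ e : ℝ) * F e =
      ∑ x : Ω × Fin d, if E σ x.1 x.2 = e then F (E σ x.1 x.2) else 0 := by
    intro e
    rw [← Finset.sum_filter]
    rw [Finset.sum_congr rfl (g := fun _ => F e)]
    · rw [Finset.sum_const, nsmul_eq_mul]; rfl
    · intro x hx
      rw [(Finset.mem_filter.1 hx).2]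
  simp only [h1]
  rw [Finset.sum_comm, Finset.sum_comm (s := Finset.univ (α := I))]
  rw [Fintype.sum_prod_type]
  simp

/-- the defect for one orientation -/
lemma defect (E : Bool → Ω → Fin d → I) {ε : ℝ}
    (hε : ∀ φ : I → ℝ, (∀ e, 0 ≤ φ e) → (∀ e, φ e ≤ 1) → ∀ i j : Fin d,
      |(∑ ω, φ (E true ω i)) - ∑ ω, φ (E false ω j)| ≤ ε * Fintype.card Ω) (σ : Bool) :
    ∑ i : Fin d, ∑ ω : Ω, (1 - (cnt E σ (E (!σ) ω i) : ℝ) / mx E (E (!σ) ω i)) ≤
      d * (ε * Fintype.card Ω) := by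
  classical
  have h1 := sum_edge E (!σ) (fun e => 1 - (cnt E σ e : ℝ) / mx E e)
  rw [h1]
  set φ : I → ℝ := fun e => if cnt E σ e < cnt E (!σ) e then 1 else 0 with hφ
  have h2 : ∀ e, (cnt E (!σ) e : ℝ) * (1 - (cnt E σ e : ℝ) / mx E e) =
      (cnt E (!σ) e : ℝ) * φ e - (cnt E σ e : ℝ) * φ e := by
    intro e
    have hmx : mx E e = max (cnt E σ e : ℝ) (cnt E (!σ) e) := by
      unfold mx
      cases σ
      · exact max_comm _ _
      · rfl
    by_cases hlt : cnt E σ e < cnt E (!σ) e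
    · have h3 : (cnt E σ e : ℝ) < cnt E (!σ) e := by exact_mod_cast hlt
      have h4 : (0 : ℝ) < cnt E (!σ) e := lt_of_le_of_lt (Nat.cast_nonneg _) h3
      rw [hmx, max_eq_right h3.le, hφ]
      simp only [hlt, if_true]
      field_simp
    · have h3 : (cnt E (!σ) e : ℝ) ≤ cnt E σ e := by exact_mod_cast not_lt.1 hlt
      rw [hmx, max_eq_left h3, hφ]
      simp only [hlt, if_false]
      rcases Nat.eq_zero_or_pos (cnt E σ e) with h0 | h0
      · have h5 : cnt E (!σ) e = 0 := by omega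
        rw [h5]; simp
      · have h5 : (cnt E σ e : ℝ) ≠ 0 := by positivity
        rw [div_self h5]; ring
  simp only [h2]
  rw [Finset.sum_sub_distrib, ← sum_edge E (!σ) φ, ← sum_edge E σ φ, ← Finset.sum_sub_distrib]
  have h0 : ∀ e, 0 ≤ φ e := by
    intro e; rw [hφ]; simp only; split_ifs <;> norm_num
  have h1' : ∀ e, φ e ≤ 1 := by
    intro e; rw [hφ]; simp only; split_ifs <;> norm_num
  have h3 : ∀ i : Fin d, (∑ ω, φ (E (!σ) ω i)) - ∑ ω, φ (E σ ω i) ≤ ε * Fintype.card Ω := by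
    intro i
    have h4 := abs_le.1 (hε φ h0 h1' i i)
    cases σ
    · exact h4.2
    · show (∑ ω, φ (E false ω i)) - ∑ ω, φ (E true ω i) ≤ ε * Fintype.card Ω
      linarith [h4.1]
  calc ∑ i : Fin d, ((∑ ω, φ (E (!σ) ω i)) - ∑ ω, φ (E σ ω i))
      ≤ ∑ _i : Fin d, ε * Fintype.card Ω := Finset.sum_le_sum fun i _ => h3 i
    _ = d * (ε * Fintype.card Ω) := by
      rw [Finset.sum_const, Finset.card_univ, Fintype.card_fin, nsmul_eq_mul]

/-- the first index of the path is `j` -/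
def Head (j : Fin d) : List (Tr Ω d) → Prop
  | [] => False
  | τ :: _ => τ.2.1 = j

open Classical in
/-- indicator of `NoRep` -/
noncomputable def ind (l : List (Tr Ω d)) : ℝ := if NoRep l then 1 else 0

open Classical in
/-- indicator of `NoRep` and `Head j` -/
noncomputable def indH (j : Fin d) (l : List (Tr Ω d)) : ℝ := if NoRep l ∧ Head j l then 1 else 0

lemma ind_cons (τ : Tr Ω d) (l : List (Tr Ω d)) : ind (τ :: l) = ind l - indH τ.2.2.1 l := by
  unfold ind indH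
  cases l with
  | nil => simp [NoRep, Head]
  | cons τ' l =>
    by_cases h1 : NoRep (τ' :: l)
    · by_cases h2 : τ'.2.1 = τ.2.2.1
      · have h3 : ¬ NoRep (τ :: τ' :: l) := fun h => h.1 h2
        have h4 : Head τ.2.2.1 (τ' :: l) := h2
        rw [if_neg h3, if_pos h1, if_pos ⟨h1, h4⟩]; ring
      · have h3 : NoRep (τ :: τ' :: l) := ⟨h2, h1⟩
        have h4 : ¬ (NoRep (τ' :: l) ∧ Head τ.2.2.1 (τ' :: l)) := fun h => h2 h.2
        rw [if_pos h3, if_pos h1, if_neg h4]; ring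
    · have h3 : ¬ NoRep (τ :: τ' :: l) := fun h => h1 h.2
      have h4 : ¬ (NoRep (τ' :: l) ∧ Head τ.2.2.1 (τ' :: l)) := fun h => h1 h.1
      rw [if_neg h3, if_neg h1, if_neg h4]; ring

lemma indH_nonneg (j : Fin d) (l : List (Tr Ω d)) : 0 ≤ indH j l := by
  unfold indH; split_ifs <;> norm_num

lemma ind_nonneg (l : List (Tr Ω d)) : 0 ≤ ind l := by
  unfold ind; split_ifs <;> norm_num

lemma ind_le_one (l : List (Tr Ω d)) : ind l ≤ 1 := by
  unfold ind; split_ifs <;> norm_num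

lemma sum_indH_le (l : List (Tr Ω d)) : ∑ j : Fin d, indH j l ≤ 1 := by
  classical
  cases l with
  | nil =>
    have : ∀ j : Fin d, indH j ([] : List (Tr Ω d)) = 0 := by
      intro j; unfold indH; rw [if_neg]; exact fun h => h.2
    simp [this]
  | cons τ l =>
    have h1 : ∀ j : Fin d, indH j (τ :: l) ≤ if j = τ.2.1 then 1 else 0 := by
      intro j
      unfold indH
      by_cases hj : j = τ.2.1
      · rw [if_pos hj]; split_ifs <;> norm_num
      · rw [if_neg hj, if_neg]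
        intro h
        exact hj h.2.symm
    calc ∑ j : Fin d, indH j (τ :: l) ≤ ∑ j : Fin d, (if j = τ.2.1 then (1 : ℝ) else 0) :=
          Finset.sum_le_sum fun j _ => h1 j
      _ ≤ 1 := by simp

lemma step (hd : 0 < d) (E : Bool → Ω → Fin d → I) {ε : ℝ}
    (hε : ∀ φ : I → ℝ, (∀ e, 0 ≤ φ e) → (∀ e, φ e ≤ 1) → ∀ i j : Fin d,
      |(∑ ω, φ (E true ω i)) - ∑ ω, φ (E false ω j)| ≤ ε * Fintype.card Ω) (n : ℕ) :
    (∑ ω, pathSum E n ω ind) - (ε + 1 / d) * Fintype.card Ω ≤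
      ∑ ω, pathSum E (n + 1) ω ind := by
  have hdR : (0 : ℝ) < d := by exact_mod_cast hd
  have e1 : ∑ ω, pathSum E (n + 1) ω ind = ∑ σ : Bool, ∑ i' : Fin d, ∑ ω' : Ω,
      (1 / (2 * (d : ℝ))) * (cnt E σ (E (!σ) ω' i') / mx E (E (!σ) ω' i')) *
        (pathSum E n ω' ind - pathSum E n ω' (indH i')) := by
    simp only [pathSum, ind_cons, pathSum_sub]
    rw [Finset.sum_comm]
    simp only [Fintype.sum_prod_type]
    refine Finset.sum_congr rfl fun σ _ => ?_
    rw [Finset.sum_comm]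
    refine Finset.sum_congr rfl fun i' _ => ?_
    rw [Finset.sum_comm]
    refine Finset.sum_congr rfl fun ω' _ => ?_
    rw [← sum_in, Finset.sum_mul]
    refine Finset.sum_congr rfl fun i _ => ?_
    rw [Finset.sum_mul]
  have e2 : ∀ (σ : Bool) (i' : Fin d) (ω' : Ω),
      (1 / (2 * (d : ℝ))) * (pathSum E n ω' ind
        - (1 - (cnt E σ (E (!σ) ω' i') : ℝ) / mx E (E (!σ) ω' i')) - pathSum E n ω' (indH i')) ≤
      (1 / (2 * (d : ℝ))) * (cnt E σ (E (!σ) ω' i') / mx E (E (!σ) ω' i')) *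
        (pathSum E n ω' ind - pathSum E n ω' (indH i')) := by
    intro σ i' ω'
    rw [mul_assoc]
    apply mul_le_mul_of_nonneg_left _ (by positivity)
    have h1 := ratio_le_one E σ (E (!σ) ω' i')
    have h2 := ratio_nonneg E σ (E (!σ) ω' i')
    have h3 : 0 ≤ pathSum E n ω' (indH i') := pathSum_nonneg E n ω' _ (indH_nonneg i')
    have h4 : pathSum E n ω' ind ≤ 1 :=
      (pathSum_mono E n ω' _ _ ind_le_one).trans (pathSum_one_le hd E n ω')
    generalize (cnt E σ (E (!σ) ω' i') : ℝ) / mx E (E (!σ) ω' i') = q at *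
    generalize pathSum E n ω' ind = G at *
    generalize pathSum E n ω' (indH i') = H at *
    nlinarith [mul_nonneg (sub_nonneg.2 h1) h3, mul_nonneg (sub_nonneg.2 h1) (sub_nonneg.2 h4)]
  have e3 : ∑ σ : Bool, ∑ i' : Fin d, ∑ ω' : Ω,
      (1 / (2 * (d : ℝ))) * (pathSum E n ω' ind
        - (1 - (cnt E σ (E (!σ) ω' i') : ℝ) / mx E (E (!σ) ω' i')) - pathSum E n ω' (indH i')) ≤
      ∑ ω, pathSum E (n + 1) ω ind := by
    rw [e1]
    exact Finset.sum_le_sum fun σ _ => Finset.sum_le_sum fun i' _ =>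
      Finset.sum_le_sum fun ω' _ => e2 σ i' ω'
  refine le_trans ?_ e3
  rw [Fintype.sum_bool]
  simp only [← Finset.mul_sum, Finset.sum_sub_distrib]
  have d1 := defect E hε true
  have d2 := defect E hε false
  have h5 : ∑ i' : Fin d, ∑ ω' : Ω, pathSum E n ω' (indH i') ≤ Fintype.card Ω := by
    rw [Finset.sum_comm]
    calc ∑ ω' : Ω, ∑ i' : Fin d, pathSum E n ω' (indH i')
        = ∑ ω' : Ω, pathSum E n ω' (fun l => ∑ i' : Fin d, indH i' l) := by
          refine Finset.sum_congr rfl fun ω' _ => ?_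
          rw [pathSum_sum]
      _ ≤ ∑ _ω' : Ω, (1 : ℝ) := Finset.sum_le_sum fun ω' _ =>
          (pathSum_mono E n ω' _ _ sum_indH_le).trans (pathSum_one_le hd E n ω')
      _ = Fintype.card Ω := by simp
  simp only [Finset.sum_sub_distrib] at d1 d2
  have hcard : (0 : ℝ) ≤ Fintype.card Ω := by positivity
  set Pn := ∑ ω' : Ω, pathSum E n ω' ind
  set X1 := (∑ i : Fin d, ∑ ω : Ω, (1 : ℝ)) with hX1
  set Hs := ∑ i' : Fin d, ∑ ω' : Ω, pathSum E n ω' (indH i')
  have hfin : (1 / (2 * (d : ℝ))) * (2 * (d * (ε * Fintype.card Ω)) + 2 * Fintype.card Ω) =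
      (ε + 1 / d) * Fintype.card Ω := by
    field_simp
  have hP : (∑ _i : Fin d, Pn) = d * Pn := by
    rw [Finset.sum_const, Finset.card_univ, Fintype.card_fin, nsmul_eq_mul]
  rw [hP]
  have hmul : ∀ t u v : ℝ, t ≤ d * (ε * Fintype.card Ω) → u ≤ d * (ε * Fintype.card Ω) →
      v ≤ Fintype.card Ω → Pn - (ε + 1 / d) * Fintype.card Ω ≤
        1 / (2 * (d : ℝ)) * (d * Pn - t - v) + 1 / (2 * (d : ℝ)) * (d * Pn - u - v) := by
    intro t u v ht hu hv
    rw [← hfin]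
    have h6 : 1 / (2 * (d : ℝ)) * (d * Pn - t - v) + 1 / (2 * (d : ℝ)) * (d * Pn - u - v) =
        Pn - 1 / (2 * (d : ℝ)) * (t + u + 2 * v) := by
      field_simp
      ring
    rw [h6]
    have h7 : 1 / (2 * (d : ℝ)) * (t + u + 2 * v) ≤
      1 / (2 * (d : ℝ)) * (2 * (d * (ε * Fintype.card Ω)) + 2 * Fintype.card Ω) :=
      mul_le_mul_of_nonneg_left (by linarith) (by positivity)
    linarith
  exact hmul _ _ _ d1 d2 h5

end MassAux

section walk
variable {Ω I : Type} [Fintype Ω] [DecidableEq Ω] [Fintype I] [DecidableEq I] {d : ℕ}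

open MassAux in
open Classical in
theorem good_mass (hd : 0 < d) (E : Bool → Ω → Fin d → I) {ε : ℝ}
    (hε : ∀ φ : I → ℝ, (∀ e, 0 ≤ φ e) → (∀ e, φ e ≤ 1) → ∀ i j : Fin d,
      |(∑ ω, φ (E true ω i)) - ∑ ω, φ (E false ω j)| ≤ ε * Fintype.card Ω) (n : ℕ) :
    (1 - n * (ε + 1 / d)) * Fintype.card Ω ≤
      ∑ ω, pathSum E n ω (fun l => if Valid E ω l ∧ NoRep l then 1 else 0) := by
  have h1 : ∀ ω, pathSum E n ω (fun l => if Valid E ω l ∧ NoRep l then 1 else 0) =
      pathSum E n ω ind := by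
    intro ω
    apply pathSum_congr
    intro l hl
    unfold ind
    by_cases h : NoRep l
    · rw [if_pos ⟨hl, h⟩, if_pos h]
    · rw [if_neg (fun h' => h h'.2), if_neg h]
  simp only [h1]
  clear h1
  induction n with
  | zero =>
    have : ∀ ω : Ω, pathSum E 0 ω ind = 1 := by
      intro ω; simp [pathSum, ind, NoRep]
    simp [this]
  | succ n ih =>
    have h2 := step hd E hε n
    push_cast
    linarith

end walk

end Vale.Agent.P125
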