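import Vale.Agent.P125.Defs

/-!
# (A) Order-indiscernible random tuples
-/

open scoped BigOperators Topology

namespace Vale.Agent.P125

namespace TuplesAux

/-- comparison of two sums along a partial injection. -/
lemma abs_sum_sub_sum_le {S : Type*} [Fintype S] [DecidableEq S] (F G : S → ℝ) (T : S → S)
    (Good : Finset S) (hF0 : ∀ s, 0 ≤ F s) (hF1 : ∀ s, F s ≤ 1) (hG0 : ∀ s, 0 ≤ G s)
    (hG1 : ∀ s, G s ≤ 1) (hinj : Set.InjOn T (Good : Set S))
    (hFG : ∀ s ∈ Good, F s = G (T s)) :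
    |(∑ s, F s) - ∑ s, G s| ≤ (Goodᶜ.card : ℝ) := by
  classical
  have h1 : ∑ s, F s = ∑ s ∈ Good, F s + ∑ s ∈ Goodᶜ, F s :=
    (Finset.sum_add_sum_compl Good F).symm
  have h2 : ∑ s, G s = ∑ s ∈ Good.image T, G s + ∑ s ∈ (Good.image T)ᶜ, G s :=
    (Finset.sum_add_sum_compl _ G).symm
  have h3 : ∑ s ∈ Good.image T, G s = ∑ s ∈ Good, F s := by
    rw [Finset.sum_image hinj]
    exact Finset.sum_congr rfl (fun s hs => (hFG s hs).symm)
  have hc : (Good.image T)ᶜ.card = Goodᶜ.card := by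
    rw [Finset.card_compl, Finset.card_compl, Finset.card_image_of_injOn hinj]
  have b1 : 0 ≤ ∑ s ∈ Goodᶜ, F s := Finset.sum_nonneg (fun s _ => hF0 s)
  have b2 : ∑ s ∈ Goodᶜ, F s ≤ (Goodᶜ.card : ℝ) := by
    have := Finset.sum_le_card_nsmul Goodᶜ F 1 (fun s _ => hF1 s)
    simpa using this
  have b3 : 0 ≤ ∑ s ∈ (Good.image T)ᶜ, G s := Finset.sum_nonneg (fun s _ => hG0 s)
  have b4 : ∑ s ∈ (Good.image T)ᶜ, G s ≤ (Goodᶜ.card : ℝ) := by
    have := Finset.sum_le_card_nsmul (Good.image T)ᶜ G 1 (fun s _ => hG1 s)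
    rw [hc] at this
    simpa using this
  rw [h1, h2, h3, abs_le]
  constructor <;> linarith

/-- the increments of the new tuple: `W 0 = 0`, `W j = B ^ β j + x j / B ^ (h - β j)`. -/
def W (K B h : ℕ) (β : ℕ → ℕ) (x : Fin K → Fin (B ^ h)) (j : ℕ) : ℕ :=
  if j = 0 then 0 else B ^ β j + (if hj : j < K then (x ⟨j, hj⟩ : ℕ) / B ^ (h - β j) else 0)

lemma W_lt {K B h : ℕ} (hB : 2 ≤ B) {β : ℕ → ℕ} (hβ : ∀ j < K, β j < h)
    (x : Fin K → Fin (B ^ h)) (j : ℕ) : W K B h β x j < 2 * B ^ β j := by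
  have hpos : 0 < B ^ β j := by positivity
  unfold W
  split_ifs with h0 hj
  · omega
  · have h1 : (x ⟨j, hj⟩ : ℕ) / B ^ (h - β j) < B ^ β j := by
      rw [Nat.div_lt_iff_lt_mul (by positivity), ← pow_add,
        Nat.add_sub_cancel' (hβ j hj).le]
      exact (x ⟨j, hj⟩).2
    omega
  · omega

lemma le_W {K B h : ℕ} {β : ℕ → ℕ} (x : Fin K → Fin (B ^ h)) {j : ℕ} (hj : j ≠ 0) :
    B ^ β j ≤ W K B h β x j := by
  unfold W
  rw [if_neg hj]
  omega

lemma two_mul_pow_le {B a b : ℕ} (hB : 2 ≤ B) (hab : a < b) : 2 * B ^ a ≤ B ^ b := by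
  calc 2 * B ^ a ≤ B * B ^ a := by gcongr
    _ = B ^ (a + 1) := by ring
    _ ≤ B ^ b := Nat.pow_le_pow_right (by omega) hab

lemma W_strictMono {K B h : ℕ} (hB : 2 ≤ B) {β : ℕ → ℕ} (hβ : ∀ j < K, β j < h)
    (hβm : StrictMono β) (x : Fin K → Fin (B ^ h)) : StrictMono (W K B h β x) := by
  refine strictMono_nat_of_lt_succ (fun j => ?_)
  calc W K B h β x j < 2 * B ^ β j := W_lt hB hβ x j
    _ ≤ B ^ β (j + 1) := two_mul_pow_le hB (hβm (Nat.lt_succ_self j))
    _ ≤ W K B h β x (j + 1) := le_W x (Nat.succ_ne_zero j)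

lemma card_coord_lt {K N m : ℕ} (k : Fin K) :
    (Finset.univ.filter (fun x : Fin K → Fin N => (x k : ℕ) < m)).card * N ≤ m * N ^ K := by
  classical
  have h1 : (Finset.univ.filter (fun x : Fin K → Fin N => (x k : ℕ) < m)) =
      Fintype.piFinset (fun j => if j = k then
        (Finset.univ.filter (fun y : Fin N => (y : ℕ) < m)) else Finset.univ) := by
    ext x
    simp only [Finset.mem_filter, Finset.mem_univ, true_and, Fintype.mem_piFinset]
    constructor
    · intro hx j
      by_cases hj : j = k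
      · subst hj; simpa using hx
      · simp [hj]
    · intro hx
      simpa using hx k
  have h2 : (Finset.univ.filter (fun y : Fin N => (y : ℕ) < m)).card ≤ m := by
    have : (Finset.univ.filter (fun y : Fin N => (y : ℕ) < m)).card =
        ((Finset.univ.filter (fun y : Fin N => (y : ℕ) < m)).image (fun y : Fin N => (y : ℕ))).card :=
      (Finset.card_image_of_injective _ Fin.val_injective).symm
    rw [this]
    calc _ ≤ (Finset.range m).card := Finset.card_le_card (by
            intro y hy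
            simp only [Finset.mem_image, Finset.mem_filter, Finset.mem_univ, true_and] at hy
            obtain ⟨z, hz, rfl⟩ := hy
            exact Finset.mem_range.2 hz)
      _ = m := Finset.card_range m
  have hK : 0 < K := k.pos
  have h3 : (∏ j : Fin K, (if j = k then
        (Finset.univ.filter (fun y : Fin N => (y : ℕ) < m)) else Finset.univ).card) =
      (Finset.univ.filter (fun y : Fin N => (y : ℕ) < m)).card * N ^ (K - 1) := by
    rw [← Finset.mul_prod_erase Finset.univ _ (Finset.mem_univ k), if_pos rfl]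
    congr 1
    rw [Finset.prod_congr rfl (g := fun _ => N)]
    · rw [Finset.prod_const, Finset.card_erase_of_mem (Finset.mem_univ k), Finset.card_univ,
        Fintype.card_fin]
    · intro j hj
      rw [if_neg (Finset.ne_of_mem_erase hj), Finset.card_univ, Fintype.card_fin]
  rw [h1, Fintype.card_piFinset, h3, mul_assoc, ← pow_succ, Nat.sub_add_cancel hK]
  exact Nat.mul_le_mul_right _ h2

/-- the shift map. -/
def T (K B h A : ℕ) (β : ℕ → ℕ) (a0 : ℕ) (s : Fin A × (Fin K → Fin (B ^ h))) :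
    Fin A × (Fin K → Fin (B ^ h)) :=
  (if hc : (s.1 : ℕ) + W K B h β s.2 a0 < A then ⟨(s.1 : ℕ) + W K B h β s.2 a0, hc⟩ else s.1,
    fun k => if a0 < (k : ℕ) then
      ⟨(s.2 k : ℕ) - W K B h β s.2 a0 * B ^ (h - β k), lt_of_le_of_lt (Nat.sub_le _ _) (s.2 k).2⟩
      else s.2 k)

lemma W_congr {K B h : ℕ} {β : ℕ → ℕ} {x y : Fin K → Fin (B ^ h)} {j : ℕ}
    (hxy : ∀ hj : j < K, x ⟨j, hj⟩ = y ⟨j, hj⟩) : W K B h β x j = W K B h β y j := by
  unfold W
  split_ifs with h0 hj
  · rfl
  · rw [hxy hj]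
  · rfl

lemma shift {K B h q : ℕ} (hB : 2 ≤ B) {β : ℕ → ℕ} (hβ : ∀ j < K, β j < h) (hβm : StrictMono β)
    (a : Fin (q + 1) → ℕ) (ha : StrictMono a) (haK : ∀ i, a i < K)
    (φ : (Fin (q + 1) → ℕ) → ℝ) (h0 : ∀ t, 0 ≤ φ t) (h1 : ∀ t, φ t ≤ 1) :
    |(∑ s : Fin (B ^ (h + 1)) × (Fin K → Fin (B ^ h)), φ (fun i => s.1 + W K B h β s.2 (a i))) -
      ∑ s : Fin (B ^ (h + 1)) × (Fin K → Fin (B ^ h)),
        φ (Fin.cons (s.1 : ℕ) (fun i : Fin q => s.1 + W K B h β s.2 (a i.succ)))| ≤
      2 * (K + 1) / B * Fintype.card (Fin (B ^ (h + 1)) × (Fin K → Fin (B ^ h))) := by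
  classical
  set A := B ^ (h + 1) with hA
  set S := Fin A × (Fin K → Fin (B ^ h)) with hS
  let Good : Finset S := Finset.univ.filter (fun s => (s.1 : ℕ) + W K B h β s.2 (a 0) < A ∧
    ∀ k : Fin K, a 0 < k → W K B h β s.2 (a 0) * B ^ (h - β k) ≤ s.2 k)
  have hgood : ∀ s : S, s ∈ Good ↔ ((s.1 : ℕ) + W K B h β s.2 (a 0) < A ∧
    ∀ k : Fin K, a 0 < k → W K B h β s.2 (a 0) * B ^ (h - β k) ≤ s.2 k) := by
    intro s; simp [Good]
  refine le_trans (abs_sum_sub_sum_le _ _ (T K B h A β (a 0)) Good (fun s => h0 _) (fun s => h1 _)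
    (fun s => h0 _) (fun s => h1 _) ?_ ?_) ?_
  · intro s hs s' hs' hss
    rw [Finset.mem_coe, hgood] at hs hs'
    have e2 : ∀ k, (T K B h A β (a 0) s).2 k = (T K B h A β (a 0) s').2 k := by
      intro k; rw [hss]
    have e1 : ((T K B h A β (a 0) s).1 : ℕ) = (T K B h A β (a 0) s').1 := by rw [hss]
    have hw : W K B h β s.2 (a 0) = W K B h β s'.2 (a 0) := by
      refine W_congr (fun hj => ?_)
      have := e2 ⟨a 0, hj⟩
      simpa [T] using this
    refine Prod.ext (Fin.ext ?_) (funext fun k => Fin.ext ?_)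
    · simp only [T, dif_pos hs.1, dif_pos hs'.1] at e1
      omega
    · have := congrArg Fin.val (e2 k)
      by_cases hk : a 0 < (k : ℕ)
      · simp only [T, if_pos hk] at this
        have g1 := hs.2 k hk
        have g2 := hs'.2 k hk
        rw [hw] at this g1
        omega
      · simpa only [T, if_neg hk] using this
  · intro s hs
    rw [hgood] at hs
    have e1 : ((T K B h A β (a 0) s).1 : ℕ) = s.1 + W K B h β s.2 (a 0) := by
      simp only [T, dif_pos hs.1]
    have e2 : ∀ i : Fin q, (s.1 : ℕ) + W K B h β s.2 (a i.succ) =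
        (T K B h A β (a 0) s).1 + W K B h β (T K B h A β (a 0) s).2 (a i.succ) := by
      intro i
      have hlt : a 0 < a i.succ := ha (Fin.succ_pos i)
      have hi := haK i.succ
      have hne : a i.succ ≠ 0 := by omega
      rw [e1]
      have hg := hs.2 ⟨a i.succ, hi⟩ hlt
      have hpos : 0 < B ^ (h - β (a i.succ)) := by positivity
      have hg' : W K B h β s.2 (a 0) ≤
          (s.2 ⟨a i.succ, hi⟩ : ℕ) / B ^ (h - β (a i.succ)) := by
        rw [Nat.le_div_iff_mul_le hpos]; exact hg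
      have ex : W K B h β (T K B h A β (a 0) s).2 (a i.succ) =
          B ^ β (a i.succ) + ((s.2 ⟨a i.succ, hi⟩ : ℕ) / B ^ (h - β (a i.succ)) -
            W K B h β s.2 (a 0)) := by
        conv_lhs => unfold W
        rw [if_neg hne, dif_pos hi]
        simp only [T, if_pos hlt]
        rw [mul_comm, Nat.sub_mul_div]
      have ey : W K B h β s.2 (a i.succ) =
          B ^ β (a i.succ) + ((s.2 ⟨a i.succ, hi⟩ : ℕ) / B ^ (h - β (a i.succ))) := by
        conv_lhs => unfold W
        rw [if_neg hne, dif_pos hi]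
      rw [ex, ey]
      omega
    show φ _ = φ _
    congr 1
    funext i
    refine Fin.cases ?_ (fun i => ?_) i
    · rw [Fin.cons_zero, e1]
    · rw [Fin.cons_succ]; exact e2 i
  · -- count
    have hN : 0 < B ^ h := by positivity
    have hsub : Goodᶜ ⊆ (Finset.univ.filter (fun s : S => A - 2 * B ^ h ≤ (s.1 : ℕ))) ∪
        (Finset.univ : Finset (Fin K)).biUnion (fun k =>
          Finset.univ.filter (fun s : S => (s.2 k : ℕ) * B < 2 * B ^ h)) := by
      intro s hs
      rw [Finset.mem_compl, hgood] at hs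
      rw [Finset.mem_union, Finset.mem_biUnion]
      by_cases hc : (s.1 : ℕ) + W K B h β s.2 (a 0) < A
      · right
        have : ¬ ∀ k : Fin K, a 0 < k → W K B h β s.2 (a 0) * B ^ (h - β k) ≤ s.2 k :=
          fun hh => hs ⟨hc, hh⟩
        push Not at this
        obtain ⟨k, hk, hlt⟩ := this
        refine ⟨k, Finset.mem_univ _, Finset.mem_filter.2 ⟨Finset.mem_univ _, ?_⟩⟩
        have hwl := W_lt hB hβ s.2 (a 0)
        have hkβ : β k < h := hβ k k.2
        have hβlt : β (a 0) < β k := hβm hk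
        calc (s.2 k : ℕ) * B < (W K B h β s.2 (a 0) * B ^ (h - β k)) * B := by
              exact Nat.mul_lt_mul_of_pos_right hlt (by omega)
          _ ≤ (2 * B ^ β (a 0) * B ^ (h - β k)) * B := by gcongr
          _ = 2 * B ^ (β (a 0) + (h - β k) + 1) := by ring
          _ ≤ 2 * B ^ h := by
              gcongr
              · omega
              · omega
      · left
        refine Finset.mem_filter.2 ⟨Finset.mem_univ _, ?_⟩
        have hwl := W_lt hB hβ s.2 (a 0)
        have : B ^ β (a 0) ≤ B ^ h := Nat.pow_le_pow_right (by omega) (hβ _ (haK 0)).le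
        omega
    have hh : 1 ≤ h := by have := hβ _ (haK 0); omega
    have hBr : (0 : ℝ) < B := by exact_mod_cast (by omega : 0 < B)
    have hcardS : Fintype.card S = A * (B ^ h) ^ K := by
      simp [hS, Fintype.card_prod]
    have c1 : ((Finset.univ.filter (fun s : S => A - 2 * B ^ h ≤ (s.1 : ℕ))).card : ℝ) ≤
        2 / B * Fintype.card S := by
      have e : (Finset.univ.filter (fun s : S => A - 2 * B ^ h ≤ (s.1 : ℕ))) =
          (Finset.univ.filter (fun c : Fin A => A - 2 * B ^ h ≤ (c : ℕ))) ×ˢ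
            (Finset.univ : Finset (Fin K → Fin (B ^ h))) := by
        ext s
        refine Iff.trans ?_ (Finset.mem_product (p := s)).symm
        simp
      have e2 : (Finset.univ.filter (fun c : Fin A => A - 2 * B ^ h ≤ (c : ℕ))).card ≤ 2 * B ^ h := by
        have : (Finset.univ.filter (fun c : Fin A => A - 2 * B ^ h ≤ (c : ℕ))).card =
            ((Finset.univ.filter (fun c : Fin A => A - 2 * B ^ h ≤ (c : ℕ))).image
              (fun c : Fin A => (c : ℕ))).card :=
          (Finset.card_image_of_injective _ Fin.val_injective).symm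
        rw [this]
        calc _ ≤ (Finset.Ico (A - 2 * B ^ h) A).card := Finset.card_le_card (by
                intro y hy
                simp only [Finset.mem_image, Finset.mem_filter, Finset.mem_univ, true_and] at hy
                obtain ⟨z, hz, rfl⟩ := hy
                exact Finset.mem_Ico.2 ⟨hz, z.2⟩)
          _ = A - (A - 2 * B ^ h) := Nat.card_Ico _ _
          _ ≤ 2 * B ^ h := by omega
      rw [e, Finset.card_product, hcardS]
      have e3 : (Finset.univ : Finset (Fin K → Fin (B ^ h))).card = (B ^ h) ^ K := by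
        simp
      rw [e3]
      have e2' : ((Finset.univ.filter (fun c : Fin A => A - 2 * B ^ h ≤ (c : ℕ))).card : ℝ) ≤
          2 * (B : ℝ) ^ h := by exact_mod_cast e2
      push_cast
      rw [hA]
      push_cast
      calc _ ≤ (2 * (B : ℝ) ^ h) * ((B : ℝ) ^ h) ^ K := by gcongr
        _ = 2 / B * ((B : ℝ) ^ (h + 1) * ((B : ℝ) ^ h) ^ K) := by
            rw [pow_succ]; field_simp
    have c2 : ∀ k : Fin K, ((Finset.univ.filter
        (fun s : S => (s.2 k : ℕ) * B < 2 * B ^ h)).card : ℝ) ≤ 2 / B * Fintype.card S := by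
      intro k
      have e : (Finset.univ.filter (fun s : S => (s.2 k : ℕ) * B < 2 * B ^ h)) =
          (Finset.univ : Finset (Fin A)) ×ˢ
            (Finset.univ.filter (fun x : Fin K → Fin (B ^ h) => (x k : ℕ) < 2 * B ^ (h - 1))) := by
        ext s
        refine Iff.trans ?_ (Finset.mem_product (p := s)).symm
        simp only [Finset.mem_filter, Finset.mem_univ, true_and]
        have : 2 * B ^ h = (2 * B ^ (h - 1)) * B := by
          rw [mul_assoc, ← pow_succ, Nat.sub_add_cancel hh]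
        rw [this]
        exact ⟨fun h' => Nat.lt_of_mul_lt_mul_right h',
          fun h' => Nat.mul_lt_mul_of_pos_right h' (by omega)⟩
      have e2 := card_coord_lt (K := K) (N := B ^ h) (m := 2 * B ^ (h - 1)) k
      have e2' : ((Finset.univ.filter (fun x : Fin K → Fin (B ^ h) =>
          (x k : ℕ) < 2 * B ^ (h - 1))).card : ℝ) * (B : ℝ) ^ h ≤
          2 * (B : ℝ) ^ (h - 1) * ((B : ℝ) ^ h) ^ K := by exact_mod_cast e2
      rw [e, Finset.card_product, hcardS, Finset.card_univ, Fintype.card_fin, hA]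
      push_cast
      have hBh : (B : ℝ) ^ h = (B : ℝ) ^ (h - 1) * B := by
        rw [← pow_succ, Nat.sub_add_cancel hh]
      calc _ = ((Finset.univ.filter (fun x : Fin K → Fin (B ^ h) =>
            (x k : ℕ) < 2 * B ^ (h - 1))).card * (B : ℝ) ^ h) * B := by ring
        _ ≤ (2 * (B : ℝ) ^ (h - 1) * ((B : ℝ) ^ h) ^ K) * B := by gcongr
        _ = 2 / B * ((B : ℝ) ^ (h + 1) * ((B : ℝ) ^ h) ^ K) := by
            rw [pow_succ, hBh]; field_simp
    calc ((Goodᶜ).card : ℝ) ≤ ((Finset.univ.filter (fun s : S => A - 2 * B ^ h ≤ (s.1 : ℕ))) ∪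
        (Finset.univ : Finset (Fin K)).biUnion (fun k =>
          Finset.univ.filter (fun s : S => (s.2 k : ℕ) * B < 2 * B ^ h))).card := by
            exact_mod_cast Finset.card_le_card hsub
      _ ≤ (Finset.univ.filter (fun s : S => A - 2 * B ^ h ≤ (s.1 : ℕ))).card +
          ∑ k : Fin K, ((Finset.univ.filter
            (fun s : S => (s.2 k : ℕ) * B < 2 * B ^ h)).card : ℝ) := by
            exact_mod_cast (Finset.card_union_le _ _).trans
              (Nat.add_le_add_left Finset.card_biUnion_le _)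
      _ ≤ 2 / B * Fintype.card S + ∑ k : Fin K, (2 / B * Fintype.card S : ℝ) := by
            gcongr with k hk
            exact c2 k
      _ = 2 * (K + 1) / B * Fintype.card S := by
            rw [Finset.sum_const, Finset.card_univ, Fintype.card_fin, nsmul_eq_mul]
            ring

/-- a permutation of `Fin K` extending `f i ↦ g i`. -/
lemma exists_perm {K q : ℕ} (f g : Fin q → Fin K) (hf : Function.Injective f)
    (hg : Function.Injective g) : ∃ π : Equiv.Perm (Fin K), ∀ i, π (f i) = g i := by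
  classical
  let e : {x // x ∈ Set.range f} ≃ {x // x ∈ Set.range g} :=
    (Equiv.ofInjective f hf).symm.trans (Equiv.ofInjective g hg)
  refine ⟨e.extendSubtype, fun i => ?_⟩
  rw [Equiv.extendSubtype_apply_of_mem e (f i) ⟨i, rfl⟩]
  simp only [e, Equiv.trans_apply]
  have : (Equiv.ofInjective f hf).symm ⟨f i, ⟨i, rfl⟩⟩ = i := by
    rw [Equiv.symm_apply_eq]
    rfl
  rw [this]
  rfl

lemma W_eq {K B h : ℕ} {β : ℕ → ℕ} (x : Fin K → Fin (B ^ h)) {j : ℕ} (hj0 : j ≠ 0) (hj : j < K) :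
    W K B h β x j = B ^ β j + (x ⟨j, hj⟩ : ℕ) / B ^ (h - β j) := by
  unfold W
  rw [if_neg hj0, dif_pos hj]

lemma middle {Ω : Type} [Fintype Ω] {K B h A q : ℕ} (β : Ω → ℕ → ℕ) {δ : ℝ}
    (a b : Fin (q + 1) → ℕ) (ha : StrictMono a) (hb : StrictMono b) (haK : ∀ i, a i < K)
    (hbK : ∀ i, b i < K)
    (φ : (Fin (q + 1) → ℕ) → ℝ)
    (hIH : ∀ ψ : (Fin q → ℕ) → ℝ, (∃ (c : ℕ) (m : (Fin q → ℕ) → Fin q → ℕ),
      ψ = fun t => φ (Fin.cons c (m t))) →
      |(∑ ω, ψ (fun i => β ω (a i.succ))) - ∑ ω, ψ (fun i => β ω (b i.succ))|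
            ≤ δ * Fintype.card Ω) :
    |(∑ ω, ∑ s : Fin A × (Fin K → Fin (B ^ h)),
        φ (Fin.cons (s.1 : ℕ) (fun i : Fin q => s.1 + W K B h (β ω) s.2 (a i.succ)))) -
      ∑ ω, ∑ s : Fin A × (Fin K → Fin (B ^ h)),
        φ (Fin.cons (s.1 : ℕ) (fun i : Fin q => s.1 + W K B h (β ω) s.2 (b i.succ)))| ≤
      δ * Fintype.card (Ω × (Fin A × (Fin K → Fin (B ^ h)))) := by
  classical
  have ha0 : ∀ i : Fin q, a i.succ ≠ 0 := fun i => by
    have := ha (Fin.succ_pos i); omega
  have hb0 : ∀ i : Fin q, b i.succ ≠ 0 := fun i => by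
    have := hb (Fin.succ_pos i); omega
  obtain ⟨π, hπ⟩ := exists_perm (fun i : Fin q => (⟨a i.succ, haK i.succ⟩ : Fin K))
    (fun i : Fin q => (⟨b i.succ, hbK i.succ⟩ : Fin K))
    (fun i j hij => Fin.succ_injective _ (ha.injective (Fin.mk.inj hij)))
    (fun i j hij => Fin.succ_injective _ (hb.injective (Fin.mk.inj hij)))
  let ψ : Fin A × (Fin K → Fin (B ^ h)) → (Fin q → ℕ) → ℝ := fun s t =>
    φ (Fin.cons (s.1 : ℕ) (fun i : Fin q =>
      s.1 + (B ^ t i + (s.2 ⟨a i.succ, haK i.succ⟩ : ℕ) / B ^ (h - t i))))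
  have eA : (∑ ω, ∑ s : Fin A × (Fin K → Fin (B ^ h)),
        φ (Fin.cons (s.1 : ℕ) (fun i : Fin q => s.1 + W K B h (β ω) s.2 (a i.succ)))) =
      ∑ s : Fin A × (Fin K → Fin (B ^ h)), ∑ ω, ψ s (fun i => β ω (a i.succ)) := by
    rw [Finset.sum_comm]
    refine Finset.sum_congr rfl (fun s _ => Finset.sum_congr rfl (fun ω _ => ?_))
    simp only [ψ]
    congr 2
    funext i
    rw [W_eq s.2 (ha0 i) (haK i.succ)]
  let e : (Fin A × (Fin K → Fin (B ^ h))) ≃ (Fin A × (Fin K → Fin (B ^ h))) :=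
    Equiv.prodCongr (Equiv.refl _) (Equiv.arrowCongr π (Equiv.refl _))
  have eB : (∑ ω, ∑ s : Fin A × (Fin K → Fin (B ^ h)),
        φ (Fin.cons (s.1 : ℕ) (fun i : Fin q => s.1 + W K B h (β ω) s.2 (b i.succ)))) =
      ∑ s : Fin A × (Fin K → Fin (B ^ h)), ∑ ω, ψ s (fun i => β ω (b i.succ)) := by
    rw [Finset.sum_comm, ← Equiv.sum_comp e]
    refine Finset.sum_congr rfl (fun s _ => Finset.sum_congr rfl (fun ω _ => ?_))
    have h1 : (e s).1 = s.1 := rfl
    have h2 : ∀ i : Fin q, (e s).2 ⟨b i.succ, hbK i.succ⟩ = s.2 ⟨a i.succ, haK i.succ⟩ := by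
      intro i
      show s.2 (π.symm ⟨b i.succ, hbK i.succ⟩) = _
      rw [← hπ i, Equiv.symm_apply_apply]
    simp only [ψ, h1]
    congr 2
    funext i
    rw [W_eq (e s).2 (hb0 i) (hbK i.succ), h2]
  rw [eA, eB, ← Finset.sum_sub_distrib]
  calc _ ≤ ∑ s : Fin A × (Fin K → Fin (B ^ h)), |(∑ ω, ψ s (fun i => β ω (a i.succ))) -
        ∑ ω, ψ s (fun i => β ω (b i.succ))| := Finset.abs_sum_le_sum_abs _ _
    _ ≤ ∑ s : Fin A × (Fin K → Fin (B ^ h)), δ * Fintype.card Ω := by
        refine Finset.sum_le_sum (fun s _ => hIH (ψ s) ⟨s.1, fun t i =>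
          s.1 + (B ^ t i + (s.2 ⟨a i.succ, haK i.succ⟩ : ℕ) / B ^ (h - t i)), rfl⟩)
    _ = δ * Fintype.card (Ω × (Fin A × (Fin K → Fin (B ^ h)))) := by
        rw [Finset.sum_const, Finset.card_univ, nsmul_eq_mul, Fintype.card_prod Ω]
        push_cast
        ring

end TuplesAux

open TuplesAux in
theorem exists_indiscernible (K r : ℕ) {ε : ℝ} (hε : 0 < ε) :
    ∃ (Ω : Type) (_ : Fintype Ω) (_ : DecidableEq Ω) (_ : Nonempty Ω) (M : ℕ) (U : Ω → ℕ → ℕ),
      (∀ ω, StrictMono (U ω)) ∧ (∀ ω, ∀ i < K, U ω i < M) ∧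
      ∀ q ≤ r, ∀ a b : Fin q → ℕ, StrictMono a → StrictMono b → (∀ i, a i < K) →
        (∀ i, b i < K) → ∀ φ : (Fin q → ℕ) → ℝ, (∀ t, 0 ≤ φ t) → (∀ t, φ t ≤ 1) →
          |(∑ ω, φ (fun i => U ω (a i))) - ∑ ω, φ (fun i => U ω (b i))|
            ≤ ε * Fintype.card Ω := by
  induction r generalizing ε with
  | zero =>
    refine ⟨Unit, inferInstance, inferInstance, inferInstance, K, fun _ i => i,
      fun _ => strictMono_id, fun _ i hi => hi, ?_⟩
    intro q hq a b _ _ _ _ φ _ _
    obtain rfl : q = 0 := by omega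
    have hab : a = b := Subsingleton.elim _ _
    rw [hab, sub_self, abs_zero]
    positivity
  | succ r ih =>
    obtain ⟨Ω, i1, i2, i3, h, β, hβm, hβ, hIH⟩ := ih (half_pos hε)
    obtain ⟨B, hB⟩ := exists_nat_gt (max 2 (8 * (K + 1) / ε))
    have hB2 : 2 ≤ B := by
      have : (2 : ℝ) < B := lt_of_le_of_lt (le_max_left _ _) hB
      exact_mod_cast this.le
    have hBr : (0 : ℝ) < B := by exact_mod_cast (by omega : 0 < B)
    have hBe : 2 * (K + 1) / B ≤ ε / 4 := by
      have : 8 * (K + 1) / ε < (B : ℝ) := lt_of_le_of_lt (le_max_right _ _) hB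
      rw [div_lt_iff₀ hε] at this
      rw [div_le_div_iff₀ hBr (by norm_num)]
      nlinarith
    have : NeZero (B ^ (h + 1)) := ⟨by positivity⟩
    have : NeZero (B ^ h) := ⟨by positivity⟩
    refine ⟨Ω × (Fin (B ^ (h + 1)) × (Fin K → Fin (B ^ h))), inferInstance, inferInstance,
      inferInstance, B ^ (h + 1) + 2 * B ^ h,
      fun ω j => ω.2.1 + W K B h (β ω.1) ω.2.2 j, ?_, ?_, ?_⟩
    · intro ω i j hij
      exact Nat.add_lt_add_left (W_strictMono hB2 (hβ ω.1) (hβm ω.1) ω.2.2 hij) _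
    · intro ω i hi
      have h1 := W_lt hB2 (hβ ω.1) ω.2.2 i
      have h2 : B ^ β ω.1 i ≤ B ^ h := Nat.pow_le_pow_right (by omega) (hβ ω.1 i hi).le
      have h3 : (ω.2.1 : ℕ) < B ^ (h + 1) := ω.2.1.2
      show (ω.2.1 : ℕ) + W K B h (β ω.1) ω.2.2 i < _
      omega
    · intro q hq a b ha hb haK hbK φ h0 h1
      rcases q with _ | q
      · have hab : a = b := Subsingleton.elim _ _
        rw [hab, sub_self, abs_zero]
        positivity
      · have key : ∀ a : Fin (q + 1) → ℕ, StrictMono a → (∀ i, a i < K) →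
            |(∑ ω : Ω × (Fin (B ^ (h + 1)) × (Fin K → Fin (B ^ h))),
              φ (fun i => ω.2.1 + W K B h (β ω.1) ω.2.2 (a i))) -
              ∑ ω, ∑ s : Fin (B ^ (h + 1)) × (Fin K → Fin (B ^ h)),
                φ (Fin.cons (s.1 : ℕ) (fun i : Fin q => s.1 + W K B h (β ω) s.2 (a i.succ)))| ≤
              ε / 4 * Fintype.card (Ω × (Fin (B ^ (h + 1)) × (Fin K → Fin (B ^ h)))) := by
          intro a ha haK
          rw [Fintype.sum_prod_type, ← Finset.sum_sub_distrib]
          calc _ ≤ ∑ ω : Ω, |(∑ s : Fin (B ^ (h + 1)) × (Fin K → Fin (B ^ h)),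
                φ (fun i => s.1 + W K B h (β ω) s.2 (a i))) -
                ∑ s : Fin (B ^ (h + 1)) × (Fin K → Fin (B ^ h)),
                φ (Fin.cons (s.1 : ℕ) (fun i : Fin q => s.1 + W K B h (β ω) s.2 (a i.succ)))| :=
                Finset.abs_sum_le_sum_abs _ _
            _ ≤ ∑ ω : Ω, ε / 4 * Fintype.card (Fin (B ^ (h + 1)) × (Fin K → Fin (B ^ h))) := by
                refine Finset.sum_le_sum (fun ω _ => ?_)
                refine (shift hB2 (hβ ω) (hβm ω) a ha haK φ h0 h1).trans ?_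
                gcongr
            _ = _ := by
                rw [Finset.sum_const, Finset.card_univ, nsmul_eq_mul, Fintype.card_prod Ω]
                push_cast
                ring
        have hmid := middle (A := B ^ (h + 1)) (B := B) (h := h) β (δ := ε / 2) a b ha hb haK hbK φ
          (by
            rintro ψ ⟨c, m, rfl⟩
            exact hIH q (by omega) (fun i => a i.succ) (fun i => b i.succ)
              (fun i j hij => ha (Fin.succ_lt_succ_iff.2 hij))
              (fun i j hij => hb (Fin.succ_lt_succ_iff.2 hij)) (fun i => haK _) (fun i => hbK _)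
              (fun t => φ (Fin.cons c (m t))) (fun t => h0 _) (fun t => h1 _))
        have ka := key a ha haK
        have kb := key b hb hbK
        rw [abs_le] at ka kb hmid ⊢
        constructor <;> linarith [ka.1, ka.2, kb.1, kb.2, hmid.1, hmid.2]

end Vale.Agent.P125
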