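import Vale.Agent.P125.TheoremA
import Vale.Agent.P125.Tuples

/-!
# No long James structures in spaces of Markov type `p > 1`: choice of parameters
-/

open scoped BigOperators Topology

namespace Vale.Agent.P125
namespace PathL

lemma pigeon {g : ℕ → ℝ} {J : ℕ} {a C : ℝ} (h0 : a ≤ g 0) (hJ : g J ≤ C)
    (hC : C < 4 ^ J * a) : ∃ j < J, g (j + 1) ≤ 4 * g j := by
  by_contra hcon
  push Not at hcon
  have h : ∀ j ≤ J, 4 ^ j * a ≤ g j := by
    intro j
    induction j with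
    | zero => intro _; simpa using h0
    | succ j ih =>
      intro hj
      have h1 := ih (by omega)
      have h2 := hcon j (by omega)
      rw [pow_succ]
      linarith
  have := h J le_rfl
  linarith

lemma exists_J (n : ℕ) {p θ : ℝ} (hp : 1 < p) (hθ : 0 < θ) :
    ∃ J : ℕ, 1 ≤ J ∧ ((2 : ℝ) * ((4 * n * J + 1 : ℕ) : ℝ)) ^ p < 4 ^ J * θ ^ p := by
  obtain ⟨k, hk⟩ := exists_nat_ge p
  have h1 := tendsto_pow_const_div_const_pow_of_one_lt k (r := 4) (by norm_num)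
  have hc : (0 : ℝ) < (8 * n + 2 : ℝ) ^ p := by positivity
  have hθp : 0 < θ ^ p := by positivity
  have h2 := h1.const_mul ((8 * n + 2 : ℝ) ^ p)
  rw [mul_zero] at h2
  have h3 := (h2.eventually (gt_mem_nhds hθp)).and (Filter.eventually_ge_atTop 1)
  obtain ⟨J, hJ, hJ1⟩ := h3.exists
  refine ⟨J, hJ1, ?_⟩
  have hJ1' : (1 : ℝ) ≤ J := by exact_mod_cast hJ1
  have h4 : ((2 : ℝ) * ((4 * n * J + 1 : ℕ) : ℝ)) ≤ (8 * n + 2) * J := by
    push_cast
    nlinarith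
  have h5 : (J : ℝ) ^ p ≤ (J : ℝ) ^ k := by
    rw [← Real.rpow_natCast]
    exact Real.rpow_le_rpow_of_exponent_le hJ1' hk
  calc ((2 : ℝ) * ((4 * n * J + 1 : ℕ) : ℝ)) ^ p ≤ ((8 * n + 2) * J) ^ p :=
        Real.rpow_le_rpow (by positivity) h4 (by linarith)
    _ = (8 * n + 2) ^ p * (J : ℝ) ^ p := Real.mul_rpow (by positivity) (by positivity)
    _ ≤ (8 * n + 2) ^ p * (J : ℝ) ^ k := by
        refine mul_le_mul_of_nonneg_left h5 hc.le
    _ = 4 ^ J * ((8 * n + 2) ^ p * ((J : ℝ) ^ k / 4 ^ J)) := by field_simp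
    _ < 4 ^ J * θ ^ p := by
        refine mul_lt_mul_of_pos_left hJ (by positivity)

lemma exists_n {p K : ℝ} (hp : 1 < p) : ∃ n : ℕ, 1 ≤ n ∧
    20 * (2 ^ p * K ^ p) * n < (n : ℝ) ^ p := by
  have h1 : Filter.Tendsto (fun n : ℕ => (n : ℝ) ^ (p - 1)) Filter.atTop Filter.atTop :=
    (tendsto_rpow_atTop (by linarith)).comp tendsto_natCast_atTop_atTop
  have h2 := (h1.eventually (Filter.eventually_gt_atTop (20 * (2 ^ p * K ^ p)))).and
    (Filter.eventually_ge_atTop 1)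
  obtain ⟨n, hn, hn1⟩ := h2.exists
  refine ⟨n, hn1, ?_⟩
  have hn0 : (0 : ℝ) < n := by exact_mod_cast hn1
  have h3 : (n : ℝ) ^ p = (n : ℝ) ^ (p - 1) * n := by
    rw [← Real.rpow_add_one hn0.ne']; ring_nf
  rw [h3]
  exact mul_lt_mul_of_pos_right hn hn0

end PathL

open PathL

theorem no_james.{u} {p K θ : ℝ} (hp : 1 < p) (hK : 0 ≤ K) (hθ : 0 < θ) :
    ∃ M : ℕ, ∀ (Y : Type u) [NormedAddCommGroup Y] [NormedSpace ℝ Y],
      MarkovTypeWith K p Y → ¬ JamesStr Y M θ := by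
  have hp0 : 0 < p := by linarith
  obtain ⟨n, hn, hnp⟩ := exists_n (K := K) hp
  have hn0 : (0 : ℝ) < n := by exact_mod_cast hn
  obtain ⟨J, hJ1, hJ⟩ := exists_J n hp hθ
  -- number of arcs
  set Lf : ℕ → ℕ := fun j => 4 * n * j + 1 with hLf
  set rm : ℕ := Lf J with hrm
  set KI : ℕ := 2 * (4 * n) * (rm + 2) with hKI
  obtain ⟨Ω, fΩ, dΩ, nΩ, R0, V, hV, hVR, hIV⟩ :=
    exists_indiscernible KI (2 * rm) (ε := 1 / (4 * n)) (by positivity)
  set R : ℕ := max R0 (2 * rm) with hR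
  set ε : ℝ := θ ^ p / (2 * (2 * rm) ^ p) with hε
  have hrm0 : (0 : ℝ) < rm := by
    have : 0 < rm := by simp [hrm, hLf]
    exact_mod_cast this
  have hθp : 0 < θ ^ p := by positivity
  have h2rm : (0 : ℝ) < (2 * rm) ^ p := by positivity
  have hεpos : 0 < ε := by positivity
  obtain ⟨Ω', fΩ', dΩ', nΩ', M, U, hU, hUM, hIU⟩ := exists_indiscernible R (2 * rm) hεpos
  refine ⟨M, ?_⟩
  intro Y _ _ hY hJames
  obtain ⟨x, f, hx, hf, hfx⟩ := hJames
  have hcard : (0 : ℝ) < Fintype.card Ω' := by exact_mod_cast Fintype.card_pos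
  set g : ℕ → ℝ := fun j => ∑ u, kap f θ (Lf j) (U u) ^ p with hg
  have hLmono : ∀ j ≤ J, Lf j ≤ rm := by
    intro j hj
    simp only [hLf, hrm]
    have := Nat.mul_le_mul_left (4 * n) hj
    omega
  have hLR : ∀ j ≤ J, 2 * Lf j ≤ R := fun j hj =>
    (Nat.mul_le_mul_left 2 (hLmono j hj)).trans (le_max_right _ _)
  have hglow : ∀ j ≤ J, θ ^ p * Fintype.card Ω' ≤ g j := fun j hj =>
    g_lower hp0 hU hUM (by simp [hLf]) (hLR j hj) hθ hx hf hfx
  have hgup : g J ≤ (2 * (Lf J : ℝ)) ^ p * Fintype.card Ω' :=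
    g_upper hp0 hU hUM (hLR J le_rfl) hx hfx
  obtain ⟨j, hjJ, hj⟩ := pigeon (g := g) (hglow 0 (Nat.zero_le _)) hgup
    (by
      have := mul_lt_mul_of_pos_right hJ hcard
      rw [mul_assoc (4 ^ J)] at this
      exact this)
  set r : ℕ := Lf (j + 1) with hr
  have hrr : r - 4 * n = Lf j := by
    simp only [hr, hLf, Nat.mul_add, Nat.mul_one]
    omega
  have hrrm : r ≤ rm := hLmono (j + 1) hjJ
  have hcore := core (n := n) (r := r) (rI := 2 * rm) (rO := 2 * rm) (KI := KI) (R := R) (M := M)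
    hp0 hK hθ hεpos.le hn (by simp only [hr, hLf, Nat.mul_add, Nat.mul_one]; omega)
    (by omega) (by omega)
    (by
      rw [hKI]
      exact Nat.mul_le_mul_left _ (by omega))
    (hLR (j + 1) hjJ) hV (fun ω i hi => lt_of_lt_of_le (hVR ω i hi) (le_max_left _ _)) hIV
    hU hUM hIU hY hx hf hfx
  rw [hrr] at hcore
  -- the errors
  have herr : (2 * (r : ℝ)) ^ p * (ε * Fintype.card Ω') ≤ g j / 2 := by
    have h1 : (2 * (r : ℝ)) ^ p ≤ (2 * rm) ^ p := by
      refine Real.rpow_le_rpow (by positivity) ?_ hp0.le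
      have : (r : ℝ) ≤ rm := by exact_mod_cast hrrm
      linarith
    have h2 : (2 * (r : ℝ)) ^ p * (ε * Fintype.card Ω') ≤ (2 * rm) ^ p * (ε * Fintype.card Ω') :=
      mul_le_mul_of_nonneg_right h1 (by positivity)
    have h3 : (2 * (rm : ℝ)) ^ p * (ε * Fintype.card Ω') = θ ^ p * Fintype.card Ω' / 2 := by
      rw [hε]; field_simp
    have h4 := hglow j hjJ.le
    linarith
  have hgj : 0 < g j := lt_of_lt_of_le (by positivity) (hglow j hjJ.le)
  change (1 / 2) * ((n : ℝ) ^ p * (g j - (2 * r) ^ p * (ε * Fintype.card Ω'))) ≤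
    K ^ p * n * (2 ^ p * (g (j + 1) + (2 * r) ^ p * (ε * Fintype.card Ω'))) at hcore
  have hnp0 : (0 : ℝ) < (n : ℝ) ^ p := by positivity
  have hKp : 0 ≤ K ^ p := Real.rpow_nonneg hK p
  have h1 : (1 / 2) * ((n : ℝ) ^ p * (g j / 2)) ≤
      (1 / 2) * ((n : ℝ) ^ p * (g j - (2 * r) ^ p * (ε * Fintype.card Ω'))) := by
    refine mul_le_mul_of_nonneg_left (mul_le_mul_of_nonneg_left ?_ hnp0.le) (by norm_num)
    linarith
  have h2 : K ^ p * n * (2 ^ p * (g (j + 1) + (2 * r) ^ p * (ε * Fintype.card Ω'))) ≤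
      K ^ p * n * (2 ^ p * (5 * g j)) := by
    refine mul_le_mul_of_nonneg_left (mul_le_mul_of_nonneg_left ?_ (by positivity)) (by positivity)
    linarith
  have h3 := (h1.trans hcore).trans h2
  have h4 : 20 * (2 ^ p * K ^ p) * n * g j < (n : ℝ) ^ p * g j := mul_lt_mul_of_pos_right hnp hgj
  nlinarith [h3, h4]

end Vale.Agent.P125
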