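import Vale.Agent.P125.PathLemmas
import Vale.Agent.P125.Kap
import Vale.Agent.P125.Geo

/-!
# Lower bound for the norm of the walk along a good path
-/

open scoped BigOperators Topology

namespace Vale.Agent.P125.PathL

variable {Ω : Type} [Fintype Ω] [DecidableEq Ω] {d r R n : ℕ}

/-- extension of a finite tuple by zero. -/
def ext {k : ℕ} (e : Fin k → ℕ) (j : ℕ) : ℕ := if h : j < k then e ⟨j, h⟩ else 0

lemma ext_apply {k : ℕ} (e : Fin k → ℕ) {j : ℕ} (h : j < k) : ext e j = e ⟨j, h⟩ := dif_pos h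

lemma exists_arcs (hd : 2 ≤ d) (hn : 1 ≤ n) (hr : 4 * n ≤ r) (V : Ω → ℕ → ℕ)
    (hV : ∀ ω, StrictMono (V ω)) (E : Bool → Ω → Fin d → (Fin (2 * r) → Fin R))
    (hE : ∀ σ ω i q, ((E σ ω i q : Fin R) : ℕ) = V ω (bidx d i (q + sh σ)))
    (τ0 : Tr Ω d) (ω : Ω) (l : List (Tr Ω d)) (hl : l.length = n) (hval : Valid E ω l)
    (hrep : NoRep l) :
    ∃ (A : ℕ → ℕ) (ς : ℝ), (ς = 1 ∨ ς = -1) ∧
      (∀ a b, a < b → b < 2 * (r - 4 * n) → A a < A b) ∧
      (∀ j < 2 * (r - 4 * n), A j < R) ∧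
      ∀ q < r - 4 * n, ∀ s < n, ∃ m < r,
        ext (fun j => (edge E (l.getD s τ0) j : ℕ)) (2 * m) ≤ A (2 * q) ∧
        A (2 * q + 1) ≤ ext (fun j => (edge E (l.getD s τ0) j : ℕ)) (2 * m + 1) ∧
        (if (l.getD s τ0).1 then (1 : ℝ) else -1) * (-1) ^ m = ς * (-1) ^ q := by
  obtain ⟨A, ς, hς, hA, hAr⟩ := geo (r := r) (n := n) hd hn hr (fun s => V (vert ω l s))
    (fun s => hV _) (fun s => (l.getD s τ0).1) (fun s => (l.getD s τ0).2.1)
    (fun s => (l.getD s τ0).2.2.1) (fun s => (l.getD s τ0).2.1.2)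
    (fun s => (l.getD s τ0).2.2.1.2)
    (by
      intro s hs q hq
      have h := valid_getD E τ0 ω l hval s (hl ▸ hs)
      have h1 := congrArg Fin.val (congrFun h ⟨q, hq⟩)
      rw [hE, hE] at h1
      exact h1)
    (by
      intro s hs h
      exact noRep_getD τ0 l hrep s (hl ▸ hs) (Fin.ext h))
  have key : ∀ s < n, ∀ j (hj : j < 2 * r), ext (fun j => (edge E (l.getD s τ0) j : ℕ)) j =
      V (vert ω l s) (bidx d (l.getD s τ0).2.1 (j + sh (l.getD s τ0).1)) := by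
    intro s hs j hj
    rw [ext_apply _ hj, ← edge_getD E τ0 ω l hval s (hl ▸ hs), hE]
  have hAr' : ∀ q < r - 4 * n, ∀ s < n, ∃ m < r,
        ext (fun j => (edge E (l.getD s τ0) j : ℕ)) (2 * m) ≤ A (2 * q) ∧
        A (2 * q + 1) ≤ ext (fun j => (edge E (l.getD s τ0) j : ℕ)) (2 * m + 1) ∧
        (if (l.getD s τ0).1 then (1 : ℝ) else -1) * (-1) ^ m = ς * (-1) ^ q := by
    intro q hq s hs
    obtain ⟨m, hm, h1, h2, h3⟩ := hAr q hq s hs
    refine ⟨m, hm, ?_, ?_, h3⟩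
    · rw [key s hs _ (by omega)]; exact h1
    · rw [key s hs _ (by omega)]; exact h2
  refine ⟨A, ς, hς, hA, ?_, hAr'⟩
  have hodd : ∀ q < r - 4 * n, A (2 * q + 1) < R := by
    intro q hq
    obtain ⟨m, hm, -, h2, -⟩ := hAr' q hq 0 (by omega)
    refine lt_of_le_of_lt h2 ?_
    rw [ext_apply _ (by omega : 2 * m + 1 < 2 * r)]
    exact Fin.isLt _
  intro j hj
  rcases Nat.even_or_odd' j with ⟨q, rfl | rfl⟩
  · exact (hA (2 * q) (2 * q + 1) (by omega) (by omega)).trans (hodd q (by omega))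
  · exact hodd q (by omega)

lemma path_bound {Y : Type*} [NormedAddCommGroup Y] [NormedSpace ℝ Y] {f : ℕ → Y →L[ℝ] ℝ}
    {θ : ℝ} (hn : 1 ≤ n) (E : Bool → Ω → Fin d → (Fin (2 * r) → Fin R)) (u : ℕ → ℕ)
    (hu : StrictMono u) (w : (Fin (2 * r) → Fin R) → Y)
    (hw : ∀ σ ω i, w (E σ ω i) ∈ Pat f θ r (fun j => u (ext (fun j => (E σ ω i j : ℕ)) j)))
    (τ0 : Tr Ω d) (l : List (Tr Ω d)) (hl : l.length = n) (A : ℕ → ℕ) (ς : ℝ)
    (hς : ς = 1 ∨ ς = -1)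
    (hA : ∀ q < r - 4 * n, ∀ s < n, ∃ m < r,
        ext (fun j => (edge E (l.getD s τ0) j : ℕ)) (2 * m) ≤ A (2 * q) ∧
        A (2 * q + 1) ≤ ext (fun j => (edge E (l.getD s τ0) j : ℕ)) (2 * m + 1) ∧
        (if (l.getD s τ0).1 then (1 : ℝ) else -1) * (-1) ^ m = ς * (-1) ^ q) :
    n * kap f θ (r - 4 * n) (fun j => u (A j)) ≤ ‖(l.map (inc E w)).sum‖ := by
  refine mul_kap_le hn hς ?_
  intro q hq k hk1 hk2
  rw [sum_getD (inc E w) τ0 l, hl, map_sum, Finset.mul_sum]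
  have hconst : (n : ℝ) * θ = ∑ s ∈ Finset.range n, θ := by simp
  rw [hconst]
  refine Finset.sum_le_sum fun s hs => ?_
  rw [Finset.mem_range] at hs
  obtain ⟨m, hm, h1, h2, h3⟩ := hA q hq s hs
  have hmem := hw (!(l.getD s τ0).1) (l.getD s τ0).2.2.2 (l.getD s τ0).2.2.1
  have h4 := hmem m hm k (lt_of_le_of_lt (hu.monotone h1) hk1)
    (hk2.trans (hu.monotone h2))
  rw [inc, map_smul, smul_eq_mul]
  change θ ≤ (-1) ^ m * f k (w (edge E (l.getD s τ0))) at h4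
  rw [← h3]
  generalize (if (l.getD s τ0).1 then (1 : ℝ) else -1) = c at *
  have hcc : c * c = 1 := by
    rcases hς with rfl | rfl
    · have h5 : (c * (-1) ^ m) * (c * (-1) ^ m) = (1 * (-1) ^ q) * (1 * (-1) ^ q) := by rw [h3]
      have h6 : ∀ k : ℕ, ((-1 : ℝ) ^ k) * (-1) ^ k = 1 := fun k => by
        rw [← mul_pow]; norm_num
      nlinarith [h6 m, h6 q]
    · have h5 : (c * (-1) ^ m) * (c * (-1) ^ m) = (-1 * (-1) ^ q) * (-1 * (-1) ^ q) := by rw [h3]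
      have h6 : ∀ k : ℕ, ((-1 : ℝ) ^ k) * (-1) ^ k = 1 := fun k => by
        rw [← mul_pow]; norm_num
      nlinarith [h6 m, h6 q]
  calc θ ≤ (-1) ^ m * f k (w (edge E (l.getD s τ0))) := h4
    _ = c * c * ((-1) ^ m * f k (w (edge E (l.getD s τ0)))) := by rw [hcc, one_mul]
    _ = c * (-1) ^ m * (c * f k (w (edge E (l.getD s τ0)))) := by ring

end Vale.Agent.P125.PathL
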