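import Vale.Agent.P125.WalkDefs

/-!
# Lemmas on path sums and paths
-/

open scoped BigOperators Topology

namespace Vale.Agent.P125.PathL

variable {Ω I : Type} [Fintype Ω] [DecidableEq Ω] [Fintype I] [DecidableEq I] {d : ℕ}

lemma rate_nonneg (E : Bool → Ω → Fin d → I) (ω : Ω) (τ : Tr Ω d) : 0 ≤ rate E ω τ := by
  unfold rate
  split_ifs
  · positivity
  · exact le_rfl

lemma rate_eq_zero (E : Bool → Ω → Fin d → I) (ω : Ω) (τ : Tr Ω d)
    (h : E τ.1 ω τ.2.1 ≠ edge E τ) : rate E ω τ = 0 := by
  unfold rate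
  rw [if_neg h]

lemma pathSum_mono (E : Bool → Ω → Fin d → I) (n : ℕ) (ω : Ω) {F G : List (Tr Ω d) → ℝ}
    (h : ∀ l, l.length = n → Valid E ω l → F l ≤ G l) :
    pathSum E n ω F ≤ pathSum E n ω G := by
  induction n generalizing ω F G with
  | zero => exact h [] rfl trivial
  | succ n ih =>
    simp only [pathSum]
    refine Finset.sum_le_sum fun τ _ => ?_
    by_cases hv : E τ.1 ω τ.2.1 = edge E τ
    · refine mul_le_mul_of_nonneg_left ?_ (rate_nonneg E ω τ)
      refine ih _ fun l hl hval => h _ (by simp [hl]) ⟨hv, hval⟩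
    · rw [rate_eq_zero E ω τ hv, zero_mul, zero_mul]

lemma pathSum_sum {ι : Type*} (s : Finset ι) (E : Bool → Ω → Fin d → I) (n : ℕ) (ω : Ω)
    (F : ι → List (Tr Ω d) → ℝ) :
    pathSum E n ω (fun l => ∑ u ∈ s, F u l) = ∑ u ∈ s, pathSum E n ω (F u) := by
  induction n generalizing ω F with
  | zero => rfl
  | succ n ih =>
    simp only [pathSum]
    rw [Finset.sum_comm]
    refine Finset.sum_congr rfl fun τ _ => ?_
    rw [ih _ (fun u l => F u (τ :: l)), Finset.mul_sum]

lemma pathSum_mul (E : Bool → Ω → Fin d → I) (n : ℕ) (ω : Ω) (c : ℝ)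
    (F : List (Tr Ω d) → ℝ) :
    pathSum E n ω (fun l => c * F l) = c * pathSum E n ω F := by
  induction n generalizing ω F with
  | zero => rfl
  | succ n ih =>
    simp only [pathSum]
    rw [Finset.mul_sum]
    refine Finset.sum_congr rfl fun τ _ => ?_
    rw [ih _ (fun l => F (τ :: l))]
    ring

/-- the `s`-th vertex of the path. -/
def vert : Ω → List (Tr Ω d) → ℕ → Ω
  | ω, _, 0 => ω
  | ω, [], _ + 1 => ω
  | _, τ :: l, s + 1 => vert τ.2.2.2 l s

lemma valid_getD (E : Bool → Ω → Fin d → I) (τ0 : Tr Ω d) (ω : Ω) (l : List (Tr Ω d))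
    (h : Valid E ω l) : ∀ s < l.length,
      E (l.getD s τ0).1 (vert ω l s) (l.getD s τ0).2.1 =
        E (!(l.getD s τ0).1) (vert ω l (s + 1)) (l.getD s τ0).2.2.1 := by
  induction l generalizing ω with
  | nil => intro s hs; simp at hs
  | cons τ l ih =>
    intro s hs
    cases s with
    | zero =>
      simp only [List.getD_cons_zero, vert]
      exact h.1
    | succ s =>
      simp only [List.getD_cons_succ, vert]
      exact ih τ.2.2.2 h.2 s (by simpa using hs)

lemma edge_getD (E : Bool → Ω → Fin d → I) (τ0 : Tr Ω d) (ω : Ω) (l : List (Tr Ω d))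
    (h : Valid E ω l) : ∀ s < l.length,
      E (l.getD s τ0).1 (vert ω l s) (l.getD s τ0).2.1 = edge E (l.getD s τ0) := by
  induction l generalizing ω with
  | nil => intro s hs; simp at hs
  | cons τ l ih =>
    intro s hs
    cases s with
    | zero =>
      simp only [List.getD_cons_zero, vert]
      exact h.1
    | succ s =>
      simp only [List.getD_cons_succ, vert]
      exact ih τ.2.2.2 h.2 s (by simpa using hs)

lemma noRep_getD (τ0 : Tr Ω d) (l : List (Tr Ω d))
    (h : NoRep l) : ∀ s, s + 1 < l.length → (l.getD (s + 1) τ0).2.1 ≠ (l.getD s τ0).2.2.1 := by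
  induction l with
  | nil => intro s hs; simp at hs
  | cons τ l ih =>
    cases l with
    | nil => intro s hs; simp at hs
    | cons τ' l =>
      intro s hs
      cases s with
      | zero => simpa using h.1
      | succ s =>
        have := ih h.2 s (by simpa using hs)
        simpa using this

lemma sum_getD {Y : Type*} [NormedAddCommGroup Y] (g : Tr Ω d → Y) (τ0 : Tr Ω d)
    (l : List (Tr Ω d)) :
    (l.map g).sum = ∑ s ∈ Finset.range l.length, g (l.getD s τ0) := by
  induction l with
  | nil => simp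
  | cons τ l ih =>
    rw [List.map_cons, List.sum_cons, ih, List.length_cons, Finset.sum_range_succ', add_comm]
    simp

end Vale.Agent.P125.PathL
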