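import Vale.Agent.P125.PathBound
import Vale.Agent.P125.Chain
import Vale.Agent.P125.Mass

/-!
# No long James structures in spaces of Markov type `p > 1`
-/

open scoped BigOperators Topology

namespace Vale.Agent.P125.PathL

/-- approximate indiscernibility of a random tuple. -/
def Indisc (Ω : Type) [Fintype Ω] (U : Ω → ℕ → ℕ) (K r : ℕ) (ε : ℝ) : Prop :=
  ∀ q ≤ r, ∀ a b : Fin q → ℕ, StrictMono a → StrictMono b → (∀ i, a i < K) →
        (∀ i, b i < K) → ∀ φ : (Fin q → ℕ) → ℝ, (∀ t, 0 ≤ φ t) → (∀ t, φ t ≤ 1) →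
          |(∑ ω, φ (fun i => U ω (a i))) - ∑ ω, φ (fun i => U ω (b i))|
            ≤ ε * Fintype.card Ω

section outer
variable {Ω' : Type} [Fintype Ω'] {U : Ω' → ℕ → ℕ} {R r M L : ℕ} {ε θ p : ℝ}
variable {Y : Type*} [NormedAddCommGroup Y] [NormedSpace ℝ Y] {f : ℕ → Y →L[ℝ] ℝ} {x : ℕ → Y}

lemma kap_transfer (hp : 0 < p) (hU : ∀ u, StrictMono (U u)) (hUM : ∀ u, ∀ j < R, U u j < M)
    (hI : Indisc Ω' U R r ε) (hL : 1 ≤ L) (hLr : 2 * L ≤ r) (hLR : 2 * L ≤ R)
    (hx : ∀ i < M, ‖x i‖ ≤ 1)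
    (hfx : ∀ i < M, ∀ j < M, f j (x i) = if i ≤ j then θ else 0)
    {A : ℕ → ℕ} (hA : ∀ a b, a < b → b < 2 * L → A a < A b) (hAR : ∀ j < 2 * L, A j < R) :
    |(∑ u, kap f θ L (fun j => U u (A j)) ^ p) - ∑ u, kap f θ L (U u) ^ p|
      ≤ (2 * L) ^ p * (ε * Fintype.card Ω') := by
  have hL0 : (0 : ℝ) < 2 * L := by positivity
  have hpos : (0 : ℝ) < (2 * L) ^ p := Real.rpow_pos_of_pos hL0 p
  set φ : (Fin (2 * L) → ℕ) → ℝ := fun t => min 1 (kap f θ L (ext t) ^ p / (2 * L) ^ p) with hφ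
  have h0 : ∀ t, 0 ≤ φ t := fun t => le_min zero_le_one
    (div_nonneg (Real.rpow_nonneg kap_nonneg _) hpos.le)
  have h1 : ∀ t, φ t ≤ 1 := fun t => min_le_left _ _
  have h := hI (2 * L) hLr (fun i => A i) (fun i => i)
    (fun a b hab => hA a b hab b.2) (fun a b hab => hab) (fun i => hAR i i.2)
    (fun i => lt_of_lt_of_le i.2 hLR) φ h0 h1
  have hval : ∀ B : ℕ → ℕ, (∀ a b, a < b → b < 2 * L → B a < B b) → (∀ j < 2 * L, B j < R) →
      ∀ u, φ (fun i => U u (B i)) = kap f θ L (fun j => U u (B j)) ^ p / (2 * L) ^ p := by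
    intro B hB hBR u
    have e1 : kap f θ L (ext (fun i : Fin (2 * L) => U u (B i))) =
        kap f θ L (fun j => U u (B j)) := by
      refine kap_congr fun j hj => ?_
      rw [ext_apply _ hj]
    have e2 : kap f θ L (fun j => U u (B j)) ≤ 2 * L :=
      kap_le_two_mul hx hfx (fun a b hab hb => hU u (hB a b hab hb)) (fun j hj => hUM u _ (hBR j hj))
    simp only [hφ]
    rw [e1]
    refine min_eq_right ?_
    rw [div_le_one hpos]
    exact Real.rpow_le_rpow kap_nonneg e2 hp.le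
  rw [Finset.sum_congr rfl (fun u _ => hval A hA hAR u),
    Finset.sum_congr rfl (fun u _ => hval (fun j => j) (fun a b hab _ => hab)
      (fun j hj => lt_of_lt_of_le hj hLR) u), ← Finset.sum_div, ← Finset.sum_div, ← sub_div,
    abs_div, abs_of_pos hpos, div_le_iff₀ hpos] at h
  linarith

lemma g_lower (hp : 0 < p) (hU : ∀ u, StrictMono (U u)) (hUM : ∀ u, ∀ j < R, U u j < M)
    (hL : 1 ≤ L) (hLR : 2 * L ≤ R) (hθ : 0 < θ)
    (hx : ∀ i < M, ‖x i‖ ≤ 1) (hf : ∀ j < M, ‖f j‖ ≤ 1)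
    (hfx : ∀ i < M, ∀ j < M, f j (x i) = if i ≤ j then θ else 0) :
    θ ^ p * Fintype.card Ω' ≤ ∑ u, kap f θ L (U u) ^ p := by
  have : θ ^ p * Fintype.card Ω' = ∑ _u : Ω', θ ^ p := by simp [mul_comm]
  rw [this]
  refine Finset.sum_le_sum fun u _ => ?_
  refine Real.rpow_le_rpow hθ.le ?_ hp.le
  exact le_kap hθ hx hf hfx hL (fun a b hab _ => hU u hab)
    (fun j hj => hUM u _ (lt_of_lt_of_le hj hLR))

lemma g_upper (hp : 0 < p) (hU : ∀ u, StrictMono (U u)) (hUM : ∀ u, ∀ j < R, U u j < M)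
    (hLR : 2 * L ≤ R)
    (hx : ∀ i < M, ‖x i‖ ≤ 1)
    (hfx : ∀ i < M, ∀ j < M, f j (x i) = if i ≤ j then θ else 0) :
    ∑ u, kap f θ L (U u) ^ p ≤ (2 * L) ^ p * Fintype.card Ω' := by
  have : ((2 * L : ℝ)) ^ p * Fintype.card Ω' = ∑ _u : Ω', (2 * L : ℝ) ^ p := by simp [mul_comm]
  rw [this]
  refine Finset.sum_le_sum fun u _ => ?_
  refine Real.rpow_le_rpow kap_nonneg ?_ hp.le
  exact kap_le_two_mul hx hfx (fun a b hab _ => hU u hab)
    (fun j hj => hUM u _ (lt_of_lt_of_le hj hLR))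

end outer

lemma bidx_lt {d r i q : ℕ} (hi : i < d) (hq : q < 2 * r + 2) : bidx d i q < 2 * d * (r + 2) := by
  unfold bidx
  have h1 : q / 4 ≤ r := by omega
  have h2 : 2 * d * (q / 4) ≤ 2 * d * r := Nat.mul_le_mul_left _ h1
  have h3 : 2 * d * (r + 2) = 2 * d * r + 4 * d := by ring
  split_ifs <;> omega

lemma bidx_strictMono {d i : ℕ} (hd : 2 ≤ d) : StrictMono (bidx d i) := by
  refine strictMono_nat_of_lt_succ fun q => ?_
  unfold bidx
  have h1 : q / 4 = (q + 1) / 4 ∧ q % 4 + 1 = (q + 1) % 4 ∨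
      q / 4 + 1 = (q + 1) / 4 ∧ q % 4 = 3 ∧ (q + 1) % 4 = 0 := by omega
  rcases h1 with ⟨h1, h2⟩ | ⟨h1, h2, h3⟩
  · rw [← h1, ← h2]
    have h4 : q % 4 = 0 ∨ q % 4 = 1 ∨ q % 4 = 2 := by omega
    rcases h4 with h4 | h4 | h4 <;> rw [h4] <;> simp <;> omega
  · rw [← h1, h2, h3]
    simp only [if_true, Nat.mul_add]
    simp
    omega

/-- The averaged inequality. -/
lemma core {p K θ ε : ℝ} (hp : 0 < p) (hK : 0 ≤ K) (hθ : 0 < θ) (hε : 0 ≤ ε)
    {Ω Ω' : Type} [Fintype Ω] [DecidableEq Ω] [Nonempty Ω] [Fintype Ω']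
    {n r R M rI rO KI : ℕ} (hn : 1 ≤ n) (hr : 4 * n < r) (hrI : 2 * r ≤ rI) (hrO : 2 * r ≤ rO)
    (hKI : 2 * (4 * n) * (r + 2) ≤ KI) (hR : 2 * r ≤ R)
    {V : Ω → ℕ → ℕ} (hV : ∀ ω, StrictMono (V ω)) (hVR : ∀ ω, ∀ j < KI, V ω j < R)
    (hIV : Indisc Ω V KI rI (1 / (4 * n)))
    {U : Ω' → ℕ → ℕ} (hU : ∀ u, StrictMono (U u)) (hUM : ∀ u, ∀ j < R, U u j < M)
    (hIU : Indisc Ω' U R rO ε)
    {Y : Type*} [NormedAddCommGroup Y] [NormedSpace ℝ Y] (hY : MarkovTypeWith K p Y)
    {f : ℕ → Y →L[ℝ] ℝ} {x : ℕ → Y}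
    (hx : ∀ i < M, ‖x i‖ ≤ 1) (hf : ∀ j < M, ‖f j‖ ≤ 1)
    (hfx : ∀ i < M, ∀ j < M, f j (x i) = if i ≤ j then θ else 0) :
    (1 / 2) * ((n : ℝ) ^ p * ((∑ u, kap f θ (r - 4 * n) (U u) ^ p)
        - (2 * r) ^ p * (ε * Fintype.card Ω'))) ≤
      K ^ p * n * (2 ^ p * ((∑ u, kap f θ r (U u) ^ p) + (2 * r) ^ p * (ε * Fintype.card Ω'))) := by
  classical
  set d : ℕ := 4 * n with hd
  have hd2 : 2 ≤ d := by omega
  have hd0 : 0 < d := by omega
  have hn0 : (0 : ℝ) < n := by exact_mod_cast hn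
  -- the edges
  let E : Bool → Ω → Fin d → (Fin (2 * r) → Fin R) := fun σ ω i q =>
    ⟨V ω (bidx d i (q + sh σ)), hVR ω _ (lt_of_lt_of_le (bidx_lt i.2 (by
      have := q.2
      have : sh σ ≤ 2 := by unfold sh; split_ifs <;> omega
      omega)) hKI)⟩
  have hE : ∀ σ ω i q, ((E σ ω i q : Fin R) : ℕ) = V ω (bidx d i (q + sh σ)) :=
    fun σ ω i q => rfl
  have hsh : ∀ σ, sh σ ≤ 2 := fun σ => by unfold sh; split_ifs <;> omega
  -- good mass
  have hmass := good_mass hd0 E (ε := 1 / (4 * n)) (by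
    intro φ hφ0 hφ1 i j
    set φ' : (Fin (2 * r) → ℕ) → ℝ := fun t =>
      if h : ∀ q, t q < R then φ (fun q => ⟨t q, h q⟩) else 0 with hφ'
    have h := hIV (2 * r) hrI (fun q => bidx d i (q + sh true)) (fun q => bidx d j (q + sh false))
      (fun a b hab => bidx_strictMono hd2 (by simpa using hab))
      (fun a b hab => bidx_strictMono hd2 (by simpa using hab))
      (fun q => lt_of_lt_of_le (bidx_lt i.2 (by have := hsh true; omega)) hKI)
      (fun q => lt_of_lt_of_le (bidx_lt j.2 (by have := hsh false; omega)) hKI) φ'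
      (fun t => by simp only [hφ']; split_ifs; exacts [hφ0 _, le_rfl])
      (fun t => by simp only [hφ']; split_ifs; exacts [hφ1 _, zero_le_one])
    have e1 : ∀ ω, φ' (fun q => V ω (bidx d i (q + sh true))) = φ (E true ω i) := by
      intro ω
      simp only [hφ']
      rw [dif_pos (fun q : Fin (2 * r) => (E true ω i q).2)]
    have e2 : ∀ ω, φ' (fun q => V ω (bidx d j (q + sh false))) = φ (E false ω j) := by
      intro ω
      simp only [hφ']
      rw [dif_pos (fun q : Fin (2 * r) => (E false ω j q).2)]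
    simp only [e1, e2] at h
    exact h) n
  have hhalf : (1 - n * (1 / (4 * n) + 1 / d : ℝ)) = 1 / 2 := by
    rw [hd]; push_cast; field_simp; norm_num
  rw [hhalf] at hmass
  -- near-minimizers
  have hEmono : ∀ σ ω i, ∀ a b, a < b → b < 2 * r →
      ext (fun j => (E σ ω i j : ℕ)) a < ext (fun j => (E σ ω i j : ℕ)) b := by
    intro σ ω i a b hab hb
    rw [ext_apply _ hb, ext_apply _ (hab.trans hb)]
    exact hV ω (bidx_strictMono hd2 (by simpa using hab))
  have hEr : ∀ σ ω i, ∀ j < 2 * r, ext (fun j => (E σ ω i j : ℕ)) j < R := by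
    intro σ ω i j hj
    rw [ext_apply _ hj]
    exact Fin.isLt _
  have hwex : ∀ u : Ω', ∀ e : Fin (2 * r) → Fin R, ∃ z : Y,
      (∃ σ ω i, E σ ω i = e) → z ∈ Pat f θ r (fun j => U u (ext (fun j => (e j : ℕ)) j)) ∧
        ‖z‖ ≤ 2 * kap f θ r (fun j => U u (ext (fun j => (e j : ℕ)) j)) := by
    intro u e
    by_cases he : ∃ σ ω i, E σ ω i = e
    · obtain ⟨σ, ω, i, rfl⟩ := he
      obtain ⟨z, hz1, hz2⟩ := exists_near (L := r) hθ hx hf hfx (by omega)
        (A := fun j => U u (ext (fun j => (E σ ω i j : ℕ)) j))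
        (fun a b hab hb => hU u (hEmono σ ω i a b hab hb))
        (fun j hj => hUM u _ (hEr σ ω i j hj))
      exact ⟨z, fun _ => ⟨hz1, hz2⟩⟩
    · exact ⟨0, fun h => absurd h he⟩
  choose w hw using hwex
  -- the chain inequality
  have hchain : ∀ u : Ω', _ := fun u => chain_ineq hd0 E hK hp hY (w u) n hn
  have hsum := Finset.sum_le_sum (s := Finset.univ) fun u _ => hchain u
  -- right-hand side
  have hrhs : ∑ u : Ω', K ^ p * n * ∑ ω, ∑ σ : Bool, ∑ i : Fin d,
      (1 / (2 * d)) * ‖w u (E σ ω i)‖ ^ p ≤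
      (K ^ p * n * (2 ^ p * ((∑ u, kap f θ r (U u) ^ p) +
        (2 * r) ^ p * (ε * Fintype.card Ω')))) * Fintype.card Ω := by
    have h1 : ∀ σ ω i, ∑ u, ‖w u (E σ ω i)‖ ^ p ≤ 2 ^ p * ((∑ u, kap f θ r (U u) ^ p) +
        (2 * r) ^ p * (ε * Fintype.card Ω')) := by
      intro σ ω i
      have h2 := kap_transfer (p := p) hp hU hUM hIU (L := r) (by omega) hrO hR hx hfx
        (hEmono σ ω i) (hEr σ ω i)
      have h3 := (abs_le.1 h2).2
      calc ∑ u, ‖w u (E σ ω i)‖ ^ p ≤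
          ∑ u, 2 ^ p * kap f θ r (fun j => U u (ext (fun j => (E σ ω i j : ℕ)) j)) ^ p := by
            refine Finset.sum_le_sum fun u _ => ?_
            rw [← Real.mul_rpow (by norm_num) kap_nonneg]
            exact Real.rpow_le_rpow (norm_nonneg _) (hw u _ ⟨σ, ω, i, rfl⟩).2 hp.le
        _ = 2 ^ p * ∑ u, kap f θ r (fun j => U u (ext (fun j => (E σ ω i j : ℕ)) j)) ^ p := by
            rw [Finset.mul_sum]
        _ ≤ _ := by
            refine mul_le_mul_of_nonneg_left ?_ (by positivity)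
            linarith
    have hKn : 0 ≤ K ^ p * n := mul_nonneg (Real.rpow_nonneg hK p) hn0.le
    rw [← Finset.mul_sum, mul_assoc (K ^ p * n)]
    refine mul_le_mul_of_nonneg_left ?_ hKn
    rw [Finset.sum_comm]
    calc ∑ ω : Ω, ∑ u : Ω', ∑ σ : Bool, ∑ i : Fin d, 1 / (2 * d : ℝ) * ‖w u (E σ ω i)‖ ^ p
        = ∑ ω : Ω, ∑ σ : Bool, ∑ i : Fin d, 1 / (2 * d : ℝ) * ∑ u : Ω', ‖w u (E σ ω i)‖ ^ p := by
          refine Finset.sum_congr rfl fun ω _ => ?_
          rw [Finset.sum_comm]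
          refine Finset.sum_congr rfl fun σ _ => ?_
          rw [Finset.sum_comm]
          refine Finset.sum_congr rfl fun i _ => ?_
          rw [Finset.mul_sum]
      _ ≤ ∑ ω : Ω, ∑ σ : Bool, ∑ i : Fin d, 1 / (2 * d : ℝ) *
            (2 ^ p * ((∑ u, kap f θ r (U u) ^ p) + (2 * r) ^ p * (ε * Fintype.card Ω'))) := by
          refine Finset.sum_le_sum fun ω _ => Finset.sum_le_sum fun σ _ =>
            Finset.sum_le_sum fun i _ => ?_
          exact mul_le_mul_of_nonneg_left (h1 σ ω i) (by positivity)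
      _ = _ := by
          simp only [Finset.sum_const, Finset.card_univ, Fintype.card_bool, Fintype.card_fin,
            nsmul_eq_mul]
          have hd0' : (d : ℝ) ≠ 0 := by exact_mod_cast hd0.ne'
          field_simp
          push_cast
          ring
  -- left-hand side
  have hlhs : ((n : ℝ) ^ p * ((∑ u, kap f θ (r - 4 * n) (U u) ^ p)
        - (2 * r) ^ p * (ε * Fintype.card Ω'))) * ((1 / 2) * Fintype.card Ω) ≤
      ∑ u : Ω', ∑ ω, pathSum E n ω (fun l => ‖(l.map (inc E (w u))).sum‖ ^ p) := by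
    set c : ℝ := (n : ℝ) ^ p * ((∑ u, kap f θ (r - 4 * n) (U u) ^ p)
        - (2 * r) ^ p * (ε * Fintype.card Ω')) with hc
    by_cases hc0 : c ≤ 0
    · refine (mul_nonpos_of_nonpos_of_nonneg hc0 (by positivity)).trans ?_
      refine Finset.sum_nonneg fun u _ => Finset.sum_nonneg fun ω _ => ?_
      have h0 : pathSum E n ω (fun _ => (0 : ℝ)) = 0 := by
        have := pathSum_mul E n ω 0 (fun _ => (0 : ℝ))
        simpa using this
      rw [← h0]
      exact pathSum_mono E n ω fun l _ _ => Real.rpow_nonneg (norm_nonneg _) _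
    · push Not at hc0
      rw [Finset.sum_comm]
      calc c * (1 / 2 * Fintype.card Ω) ≤
          c * ∑ ω, pathSum E n ω (fun l => if Valid E ω l ∧ NoRep l then 1 else 0) :=
            mul_le_mul_of_nonneg_left hmass hc0.le
        _ = ∑ ω, pathSum E n ω (fun l => c * if Valid E ω l ∧ NoRep l then 1 else 0) := by
            rw [Finset.mul_sum]
            refine Finset.sum_congr rfl fun ω _ => ?_
            rw [pathSum_mul]
        _ ≤ ∑ ω, pathSum E n ω (fun l => ∑ u, ‖(l.map (inc E (w u))).sum‖ ^ p) := by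
            refine Finset.sum_le_sum fun ω _ => pathSum_mono E n ω fun l hl hval => ?_
            by_cases hrep : NoRep l
            · rw [if_pos ⟨hval, hrep⟩, mul_one]
              have τ0 : Tr Ω d := ⟨true, ⟨0, hd0⟩, ⟨0, hd0⟩, ω⟩
              obtain ⟨A, ς, hς, hA1, hA2, hA3⟩ := exists_arcs hd2 hn hr.le V hV E hE τ0 ω l hl
                hval hrep
              have h2 := kap_transfer (p := p) hp hU hUM hIU (L := r - 4 * n) (by omega)
                (by omega) (by omega) hx hfx hA1 hA2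
              have h3 := (abs_le.1 h2).1
              have h5 : ((2 : ℝ) * ((r - 4 * n : ℕ) : ℝ)) ^ p ≤ (2 * r) ^ p := by
                refine Real.rpow_le_rpow (by positivity) ?_ hp.le
                have : ((r - 4 * n : ℕ) : ℝ) ≤ r := by exact_mod_cast Nat.sub_le _ _
                linarith
              have h6 : (0 : ℝ) ≤ ε * Fintype.card Ω' := by positivity
              have h7 : ∑ u, kap f θ (r - 4 * n) (fun j => U u (A j)) ^ p ≥
                  (∑ u, kap f θ (r - 4 * n) (U u) ^ p) - (2 * r) ^ p * (ε * Fintype.card Ω') := by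
                have := mul_le_mul_of_nonneg_right h5 h6
                linarith
              calc c ≤ (n : ℝ) ^ p * ∑ u, kap f θ (r - 4 * n) (fun j => U u (A j)) ^ p := by
                    rw [hc]
                    exact mul_le_mul_of_nonneg_left h7 (by positivity)
                _ = ∑ u, (n * kap f θ (r - 4 * n) (fun j => U u (A j))) ^ p := by
                    rw [Finset.mul_sum]
                    refine Finset.sum_congr rfl fun u _ => ?_
                    rw [Real.mul_rpow hn0.le kap_nonneg]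
                _ ≤ _ := by
                    refine Finset.sum_le_sum fun u _ => ?_
                    refine Real.rpow_le_rpow (mul_nonneg hn0.le kap_nonneg) ?_ hp.le
                    exact path_bound hn E (U u) (hU u) (w u)
                      (fun σ ω i => (hw u _ ⟨σ, ω, i, rfl⟩).1) τ0 l hl A ς hς hA3
            · rw [if_neg (fun h => hrep h.2), mul_zero]
              exact Finset.sum_nonneg fun u _ => Real.rpow_nonneg (norm_nonneg _) _
        _ = _ := by
            refine Finset.sum_congr rfl fun ω _ => ?_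
            rw [pathSum_sum]
  have hcard : (0 : ℝ) < Fintype.card Ω := by exact_mod_cast Fintype.card_pos
  have hfin := (hlhs.trans hsum).trans hrhs
  refine le_of_mul_le_mul_right ?_ hcard
  calc _ = _ := ?_
    _ ≤ _ := hfin
  ring

end Vale.Agent.P125.PathL
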