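import Vale.Agent.P125.Defs

/-!
# The walk on edges: definitions
-/

open scoped BigOperators Topology

namespace Vale.Agent.P125

section walk
variable {Ω I : Type} [Fintype Ω] [DecidableEq Ω] [Fintype I] [DecidableEq I] {d : ℕ}

/-- a transition `(σ, i, i', ω')`. -/
abbrev Tr (Ω : Type) (d : ℕ) : Type := Bool × Fin d × Fin d × Ω

/-- number of pairs `(ω, i)` with `E σ ω i = e`. -/
def cnt (E : Bool → Ω → Fin d → I) (σ : Bool) (e : I) : ℕ :=
  (Finset.univ.filter (fun x : Ω × Fin d => E σ x.1 x.2 = e)).card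

/-- the edge used by the transition `τ`. -/
def edge (E : Bool → Ω → Fin d → I) (τ : Tr Ω d) : I := E (!τ.1) τ.2.2.2 τ.2.2.1

/-- transition weight from `ω` along `τ`. -/
noncomputable def rate (E : Bool → Ω → Fin d → I) (ω : Ω) (τ : Tr Ω d) : ℝ :=
  if E τ.1 ω τ.2.1 = edge E τ then
    (1 / (2 * d)) / max (cnt E true (edge E τ)) (cnt E false (edge E τ)) else 0

/-- sum over all paths of length `n` starting from `ω`. -/
noncomputable def pathSum (E : Bool → Ω → Fin d → I) : ℕ → Ω → (List (Tr Ω d) → ℝ) → ℝ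
  | 0, _, F => F []
  | n + 1, ω, F => ∑ τ : Tr Ω d, rate E ω τ * pathSum E n τ.2.2.2 (fun l => F (τ :: l))

/-- the path uses only true edges. -/
def Valid (E : Bool → Ω → Fin d → I) : Ω → List (Tr Ω d) → Prop
  | _, [] => True
  | ω, τ :: l => E τ.1 ω τ.2.1 = edge E τ ∧ Valid E τ.2.2.2 l

/-- no immediate repetition of the index at a vertex. -/
def NoRep : List (Tr Ω d) → Prop
  | [] => True
  | [_] => True
  | τ :: τ' :: l => τ'.2.1 ≠ τ.2.2.1 ∧ NoRep (τ' :: l)

/-- the increment of the walk. -/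
noncomputable def inc {Y : Type*} [NormedAddCommGroup Y] [NormedSpace ℝ Y]
    (E : Bool → Ω → Fin d → I) (w : I → Y) (τ : Tr Ω d) : Y :=
  (if τ.1 then (1 : ℝ) else -1) • w (edge E τ)

end walk

/-- position of the `q`-th point of the edge with index `i`. -/
def bidx (d i q : ℕ) : ℕ :=
  2 * i + 2 * d * (q / 4) +
    (if q % 4 = 0 then 0 else if q % 4 = 1 then 1 else if q % 4 = 2 then 2 else 2 * d - 1)

/-- shift. -/
def sh (σ : Bool) : ℕ := if σ then 0 else 2

end Vale.Agent.P125
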